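import Vale.Agent.P074.Interp

/-!
# P074: interpolation, continued
-/

namespace Vale.Agent.P074

open MeasureTheory
open scoped ENNReal NNReal RealInnerProductSpace

variable {d : ℕ} {K : Set (EuclideanSpace ℝ (Fin d))} {x0 : EuclideanSpace ℝ (Fin d)} {r h R : ℝ}

/-- coordinate step -/
noncomputable def stepv (h : ℝ) (k : Fin d) : EuclideanSpace ℝ (Fin d) :=
  EuclideanSpace.single k h

lemma stepv_norm (hh : 0 < h) (k : Fin d) : ‖stepv h k‖ ≤ h := by
  unfold stepv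
  rw [PiLp.norm_single, Real.norm_of_nonneg hh.le]

lemma inner_stepv (w : EuclideanSpace ℝ (Fin d)) (k : Fin d) : ⟪w, stepv h k⟫ = h * w k := by
  unfold stepv
  rw [EuclideanSpace.inner_single_right]
  simp

lemma norm_sq_coord (w : EuclideanSpace ℝ (Fin d)) : ‖w‖ ^ 2 = ∑ k, (w k) ^ 2 := by
  rw [EuclideanSpace.norm_sq_eq]
  simp

lemma coord_le_norm (w : EuclideanSpace ℝ (Fin d)) (k : Fin d) : |w k| ≤ ‖w‖ := by
  rw [← Real.norm_eq_abs]
  exact PiLp.norm_apply_le w k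

lemma meas_coord {P : EuclideanSpace ℝ (Fin d) → EuclideanSpace ℝ (Fin d)} (hP : Measurable P)
    (k : Fin d) : Measurable (fun x => P x k) := by
  have : Measurable (fun x : EuclideanSpace ℝ (Fin d) => x k) :=
    (EuclideanSpace.proj k : EuclideanSpace ℝ (Fin d) →L[ℝ] ℝ).continuous.measurable
  exact this.comp hP

lemma sq_diff_integrable {S : Set (EuclideanSpace ℝ (Fin d))} (hS : volume S ≠ ∞)
    {P Q : EuclideanSpace ℝ (Fin d) → EuclideanSpace ℝ (Fin d)} (hP : Measurable P)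
    (hQ : Measurable Q) (bP : ∀ x, ‖P x‖ ≤ R) (bQ : ∀ x, ‖Q x‖ ≤ R) (k : Fin d) :
    IntegrableOn (fun x => (P x k - Q x k) ^ 2) S := by
  have m1 := meas_coord hP k
  have m2 := meas_coord hQ k
  refine Measure.integrableOn_of_bounded hS (by fun_prop) (M := (2 * R) ^ 2) ?_
  refine Filter.Eventually.of_forall (fun x => ?_)
  rw [Real.norm_eq_abs, abs_pow]
  refine pow_le_pow_left₀ (abs_nonneg _) ?_ 2
  have h1 := coord_le_norm (P x - Q x) k
  rw [PiLp.sub_apply] at h1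
  refine h1.trans ((norm_sub_le _ _).trans ?_)
  linarith [bP x, bQ x]

/-- from coordinates to the full norm, and from the inner set to `K` -/
lemma assemble (hK : IsCompact K) (hKc : Convex ℝ K) (hr : 0 < r)
    (hball : Metric.closedBall x0 r ⊆ K) (hh : 0 < h) (hhr : h ≤ r)
    {P Q : EuclideanSpace ℝ (Fin d) → EuclideanSpace ℝ (Fin d)} (hP : Measurable P)
    (hQ : Measurable Q) (bP : ∀ x, ‖P x‖ ≤ R) (bQ : ∀ x, ‖Q x‖ ≤ R) {B : ℝ}
    (hB : ∀ k, ∫ x in innerSet K x0 (h / r), (P x k - Q x k) ^ 2 ≤ B) :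
    ∫ x in K, ‖P x - Q x‖ ^ 2 ≤ d * B + 4 * R ^ 2 * (d * (h / r) * volume.real K) := by
  set Kh := innerSet K x0 (h / r) with hKh
  have hKhc : IsCompact Kh := innerSet_compact hK _
  have hKhm := hKhc.measurableSet
  have hsub := innerSet_subset hKc hr hball hh hhr
  have hvol := inner_diff_volume hK hKc hr hball hh hhr
  have hfin : volume K ≠ ∞ := hK.measure_lt_top.ne
  have hm : Measurable (fun x => ‖P x - Q x‖ ^ 2) := by fun_prop
  have hbd : ∀ x, ‖P x - Q x‖ ^ 2 ≤ 4 * R ^ 2 := by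
    intro x
    have h1 : ‖P x - Q x‖ ≤ 2 * R := (norm_sub_le _ _).trans (by linarith [bP x, bQ x])
    calc ‖P x - Q x‖ ^ 2 ≤ (2 * R) ^ 2 := by gcongr
      _ = _ := by ring
  have hi : IntegrableOn (fun x => ‖P x - Q x‖ ^ 2) K := by
    refine Measure.integrableOn_of_bounded hfin hm.aestronglyMeasurable (M := 4 * R ^ 2) ?_
    refine Filter.Eventually.of_forall (fun x => ?_)
    rw [Real.norm_of_nonneg (by positivity)]
    exact hbd x
  have e1 : ∫ x in K, ‖P x - Q x‖ ^ 2 = (∫ x in Kh, ‖P x - Q x‖ ^ 2) +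
      ∫ x in K \ Kh, ‖P x - Q x‖ ^ 2 := by
    have := setIntegral_sdiff hKhm hi hsub
    linarith
  have e2 : ∫ x in Kh, ‖P x - Q x‖ ^ 2 ≤ d * B := by
    have h1 : ∀ x, ‖P x - Q x‖ ^ 2 = ∑ k, (P x k - Q x k) ^ 2 := by
      intro x
      rw [norm_sq_coord]
      rfl
    simp_rw [h1]
    rw [integral_finsetSum _ (fun k _ => sq_diff_integrable hKhc.measure_lt_top.ne hP hQ bP bQ k)]
    refine (Finset.sum_le_sum (fun k _ => hB k)).trans ?_
    simp
  have e3 : ∫ x in K \ Kh, ‖P x - Q x‖ ^ 2 ≤ 4 * R ^ 2 * (d * (h / r) * volume.real K) := by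
    have h1 : ∫ x in K \ Kh, ‖P x - Q x‖ ^ 2 ≤ ∫ _ in K \ Kh, 4 * R ^ 2 := by
      refine setIntegral_mono_on (hi.mono_set Set.sdiff_subset)
        (integrableOn_const (hs := ne_top_of_le_ne_top hfin (measure_mono Set.sdiff_subset)))
        (hK.measurableSet.diff hKhm) (fun x _ => hbd x)
    refine h1.trans ?_
    rw [setIntegral_const, smul_eq_mul, mul_comm]
    gcongr
  rw [e1]
  linarith

lemma num_sq4 {t a b F G C : ℝ} (h : |t| ≤ |a| + |b| + F + G) (hF0 : 0 ≤ F) (hG0 : 0 ≤ G)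
    (hF : F ≤ C) (hG : G ≤ C) : t ^ 2 ≤ 4 * (a ^ 2 + b ^ 2 + C * F + C * G) := by
  have h1 : t ^ 2 ≤ (|a| + |b| + F + G) ^ 2 := by
    rw [← sq_abs t]
    exact pow_le_pow_left₀ (abs_nonneg _) h 2
  have h3 : |a| ^ 2 = a ^ 2 := sq_abs _
  have h4 : |b| ^ 2 = b ^ 2 := sq_abs _
  have h5 : F ^ 2 ≤ C * F := by nlinarith
  have h6 : G ^ 2 ≤ C * G := by nlinarith
  have h7 : (|a| + |b| + F + G) ^ 2 ≤ 4 * (|a| ^ 2 + |b| ^ 2 + F ^ 2 + G ^ 2) := by
    nlinarith [sq_nonneg (|a| - |b|), sq_nonneg (|a| - F), sq_nonneg (|a| - G),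
      sq_nonneg (|b| - F), sq_nonneg (|b| - G), sq_nonneg (F - G)]
  linarith

lemma num_interp {h p q c C φ1 φ2 φ0 χ1 χ2 χ0 : ℝ} (hh : 0 < h)
    (p1 : φ0 + h * p ≤ φ1) (p2 : φ0 + -(h * p) ≤ φ2) (q1 : χ0 + h * q ≤ χ1)
    (q2 : χ0 + -(h * q) ≤ χ2) (g1 : φ1 + φ2 - 2 * φ0 ≤ C) (g2 : χ1 + χ2 - 2 * χ0 ≤ C) :
    (p - q) ^ 2 ≤ (4 * ((φ1 - χ1 - c) ^ 2 + (φ0 - χ0 - c) ^ 2 + C * (φ1 + φ2 - 2 * φ0) +
      C * (χ1 + χ2 - 2 * χ0))) / h ^ 2 := by
  rw [le_div_iff₀ (by positivity)]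
  have hab : |h * (p - q)| ≤ |φ1 - χ1 - c| + |φ0 - χ0 - c| + (φ1 + φ2 - 2 * φ0) +
      (χ1 + χ2 - 2 * χ0) := by
    have b1 := le_abs_self (φ1 - χ1 - c)
    have b2 := neg_abs_le (φ1 - χ1 - c)
    have b3 := le_abs_self (φ0 - χ0 - c)
    have b4 := neg_abs_le (φ0 - χ0 - c)
    rw [abs_le]
    constructor <;> linarith
  have := num_sq4 hab (by linarith) (by linarith) g1 g2
  calc (p - q) ^ 2 * h ^ 2 = (h * (p - q)) ^ 2 := by ring
    _ ≤ _ := this

lemma lip_sd {g : EuclideanSpace ℝ (Fin d) → ℝ} (hR : 0 ≤ R)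
    (hg : ∀ x x', |g x - g x'| ≤ R * ‖x - x'‖) {v : EuclideanSpace ℝ (Fin d)} (hv : ‖v‖ ≤ h)
    (x : EuclideanSpace ℝ (Fin d)) : g (x + v) + g (x - v) - 2 * g x ≤ 2 * R * h := by
  have a1 := (abs_le.1 (hg (x + v) x)).2
  have a2 := (abs_le.1 (hg (x - v) x)).2
  have e1 : x - v - x = -v := by abel
  rw [add_sub_cancel_left] at a1
  rw [e1, norm_neg] at a2
  have : R * ‖v‖ ≤ R * h := by gcongr
  linarith

/-- **Interpolation**: `L²` closeness of convex functions controls their gradients. -/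
theorem interp (hK : IsCompact K) (hKc : Convex ℝ K) (hr : 0 < r)
    (hball : Metric.closedBall x0 r ⊆ K) (hh : 0 < h) (hhr : h ≤ r) (hR : 0 ≤ R)
    {φ χ : EuclideanSpace ℝ (Fin d) → ℝ}
    (lφ : ∀ x x', |φ x - φ x'| ≤ R * ‖x - x'‖) (cφ : Continuous φ)
    (lχ : ∀ x x', |χ x - χ x'| ≤ R * ‖x - x'‖) (cχ : Continuous χ)
    {P Q : EuclideanSpace ℝ (Fin d) → EuclideanSpace ℝ (Fin d)} (hP : Measurable P)
    (hQ : Measurable Q) (bP : ∀ x, ‖P x‖ ≤ R) (bQ : ∀ x, ‖Q x‖ ≤ R)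
    (sP : ∀ᵐ x ∂(volume.restrict K), ∀ x', φ x + ⟪P x, x' - x⟫ ≤ φ x')
    (sQ : ∀ᵐ x ∂(volume.restrict K), ∀ x', χ x + ⟪Q x, x' - x⟫ ≤ χ x') {c A2 : ℝ}
    (hA : ∫ x in K, (φ x - χ x - c) ^ 2 ≤ A2) :
    ∫ x in K, ‖P x - Q x‖ ^ 2 ≤
      d * ((8 * A2 + 32 * R ^ 2 * h ^ 2 * (d * (h / r) * volume.real K)) / h ^ 2) +
        4 * R ^ 2 * (d * (h / r) * volume.real K) := by
  refine assemble hK hKc hr hball hh hhr hP hQ bP bQ (fun k => ?_)
  set Kh := innerSet K x0 (h / r) with hKh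
  have hKhc : IsCompact Kh := innerSet_compact hK _
  have hKhm := hKhc.measurableSet
  have hsub := innerSet_subset hKc hr hball hh hhr
  set v := stepv h k with hv
  have hvn : ‖v‖ ≤ h := stepv_norm hh k
  set u : EuclideanSpace ℝ (Fin d) → ℝ := fun x => φ x - χ x - c with hu
  have cu : Continuous u := by fun_prop
  have i1 := sd_integral hK hKc hr hball hh hhr hR lφ cφ hvn
  have i2 := sd_integral hK hKc hr hball hh hhr hR lχ cχ hvn
  set F1 : EuclideanSpace ℝ (Fin d) → ℝ := fun x => φ (x + v) + φ (x - v) - 2 * φ x with hF1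
  set F2 : EuclideanSpace ℝ (Fin d) → ℝ := fun x => χ (x + v) + χ (x - v) - 2 * χ x with hF2
  have c1 : Continuous F1 := by fun_prop
  have c2 : Continuous F2 := by fun_prop
  have cuv : Continuous (fun x => u (x + v) ^ 2) := by fun_prop
  have cu2 : Continuous (fun x => u x ^ 2) := by fun_prop
  -- pointwise bound
  have hpt : ∀ᵐ x ∂(volume.restrict Kh), (P x k - Q x k) ^ 2 ≤
      (4 * (u (x + v) ^ 2 + u x ^ 2 + 2 * R * h * F1 x + 2 * R * h * F2 x)) / h ^ 2 := by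
    have sP' := ae_restrict_of_ae_restrict_of_subset hsub sP
    have sQ' := ae_restrict_of_ae_restrict_of_subset hsub sQ
    filter_upwards [sP', sQ'] with x h1 h2
    have p1 := h1 (x + v)
    have p2 := h1 (x - v)
    have q1 := h2 (x + v)
    have q2 := h2 (x - v)
    have e1 : x - v - x = -v := by abel
    rw [add_sub_cancel_left, hv, inner_stepv, ← hv] at p1 q1
    rw [e1, inner_neg_right, hv, inner_stepv, ← hv] at p2 q2
    exact num_interp hh p1 p2 q1 q2 (lip_sd hR lφ hvn x) (lip_sd hR lχ hvn x)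
  have hint1 := sq_diff_integrable (S := Kh) hKhc.measure_lt_top.ne hP hQ bP bQ k
  have hint2 : IntegrableOn (fun x => (4 * (u (x + v) ^ 2 + u x ^ 2 + 2 * R * h * F1 x +
      2 * R * h * F2 x)) / h ^ 2) Kh := cont_intOn hK hsub (by fun_prop)
  refine (integral_mono_ae hint1 hint2 hpt).trans ?_
  rw [integral_div, integral_const_mul]
  have j1 := cont_intOn hK hsub cuv
  have j2 := cont_intOn hK hsub cu2
  have j3 : IntegrableOn (fun x => 2 * R * h * F1 x) Kh := cont_intOn hK hsub (by fun_prop)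
  have j4 : IntegrableOn (fun x => 2 * R * h * F2 x) Kh := cont_intOn hK hsub (by fun_prop)
  have j12 : IntegrableOn (fun x => u (x + v) ^ 2 + u x ^ 2) Kh := j1.add j2
  have j123 : IntegrableOn (fun x => u (x + v) ^ 2 + u x ^ 2 + 2 * R * h * F1 x) Kh := j12.add j3
  rw [integral_add j123 j4, integral_add j12 j3, integral_add j1 j2, integral_const_mul,
    integral_const_mul]
  have hnn : ∀ x, 0 ≤ u x ^ 2 := fun x => sq_nonneg _
  have t1 : ∫ x in Kh, u (x + v) ^ 2 ≤ A2 := by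
    obtain ⟨hs, _⟩ := inner_translate_volume hK hKc hr hball hh hhr (v := -v)
      (by rwa [norm_neg])
    set S := (fun x => x + -v) ⁻¹' Kh with hS
    have h1 := (measurePreserving_add_right (volume : Measure (EuclideanSpace ℝ (Fin d))) v).setIntegral_preimage_emb
      (MeasurableEquiv.addRight v).measurableEmbedding (fun x => u x ^ 2) S
    have h2 : (fun x => x + v) ⁻¹' S = Kh := by
      ext x
      simp [hS]
    rw [h2] at h1
    rw [h1]
    exact (setIntegral_mono_set (cont_intOn hK le_rfl cu2) (Filter.Eventually.of_forall hnn)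
      (LE.le.eventuallyLE hs)).trans hA
  have t2 : ∫ x in Kh, u x ^ 2 ≤ A2 :=
    (setIntegral_mono_set (cont_intOn hK le_rfl cu2) (Filter.Eventually.of_forall hnn)
      (LE.le.eventuallyLE hsub)).trans hA
  have hRh : 0 ≤ 2 * R * h := by positivity
  have t3 : 2 * R * h * ∫ x in Kh, F1 x ≤ 2 * R * h * (2 * R * h * (d * (h / r) * volume.real K)) :=
    mul_le_mul_of_nonneg_left i1 hRh
  have t4 : 2 * R * h * ∫ x in Kh, F2 x ≤ 2 * R * h * (2 * R * h * (d * (h / r) * volume.real K)) :=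
    mul_le_mul_of_nonneg_left i2 hRh
  gcongr
  calc _ ≤ 4 * (A2 + A2 + 2 * R * h * (2 * R * h * (d * (h / r) * volume.real K)) +
        2 * R * h * (2 * R * h * (d * (h / r) * volume.real K))) := by linarith
    _ = _ := by ring

/-- approximate subgradients are close to exact ones -/
theorem approx_sub (hK : IsCompact K) (hKc : Convex ℝ K) (hr : 0 < r)
    (hball : Metric.closedBall x0 r ⊆ K) (hh : 0 < h) (hhr : h ≤ r) (hR : 0 ≤ R)
    {φ : EuclideanSpace ℝ (Fin d) → ℝ}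
    (lφ : ∀ x x', |φ x - φ x'| ≤ R * ‖x - x'‖) (cφ : Continuous φ)
    {P Q : EuclideanSpace ℝ (Fin d) → EuclideanSpace ℝ (Fin d)} (hP : Measurable P)
    (hQ : Measurable Q) (bP : ∀ x, ‖P x‖ ≤ R) (bQ : ∀ x, ‖Q x‖ ≤ R)
    {G : EuclideanSpace ℝ (Fin d) → ℝ} (hG0 : ∀ x, 0 ≤ G x) (hGi : IntegrableOn G K)
    (sP : ∀ᵐ x ∂(volume.restrict K), ∀ x', φ x + ⟪P x, x' - x⟫ - G x ≤ φ x')
    (sQ : ∀ᵐ x ∂(volume.restrict K), ∀ x', φ x + ⟪Q x, x' - x⟫ ≤ φ x') :
    ∫ x in K, ‖P x - Q x‖ ^ 2 ≤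
      d * (2 * R * (2 * R * h * (d * (h / r) * volume.real K) + ∫ x in K, G x) / h) +
        4 * R ^ 2 * (d * (h / r) * volume.real K) := by
  refine assemble hK hKc hr hball hh hhr hP hQ bP bQ (fun k => ?_)
  set Kh := innerSet K x0 (h / r) with hKh
  have hKhc : IsCompact Kh := innerSet_compact hK _
  have hKhm := hKhc.measurableSet
  have hsub := innerSet_subset hKc hr hball hh hhr
  set v := stepv h k with hv
  have hvn : ‖v‖ ≤ h := stepv_norm hh k
  have i1 := sd_integral hK hKc hr hball hh hhr hR lφ cφ hvn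
  set F1 : EuclideanSpace ℝ (Fin d) → ℝ := fun x => φ (x + v) + φ (x - v) - 2 * φ x with hF1
  have c1 : Continuous F1 := by fun_prop
  have hpt : ∀ᵐ x ∂(volume.restrict Kh), (P x k - Q x k) ^ 2 ≤
      (2 * R * (F1 x + G x)) / h := by
    have sP' := ae_restrict_of_ae_restrict_of_subset hsub sP
    have sQ' := ae_restrict_of_ae_restrict_of_subset hsub sQ
    filter_upwards [sP', sQ'] with x h1 h2
    have p1 := h1 (x + v)
    have p2 := h1 (x - v)
    have q1 := h2 (x + v)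
    have q2 := h2 (x - v)
    have e1 : x - v - x = -v := by abel
    rw [add_sub_cancel_left, hv, inner_stepv, ← hv] at p1 q1
    rw [e1, inner_neg_right, hv, inner_stepv, ← hv] at p2 q2
    have hG := hG0 x
    have hab : |h * (P x k - Q x k)| ≤ F1 x + G x := by
      rw [abs_le]
      rw [hF1]
      simp only
      constructor <;> linarith
    have hpq : |P x k - Q x k| ≤ 2 * R := by
      have h3 := coord_le_norm (P x - Q x) k
      rw [PiLp.sub_apply] at h3
      refine h3.trans ((norm_sub_le _ _).trans ?_)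
      linarith [bP x, bQ x]
    rw [le_div_iff₀ hh]
    rw [abs_mul, abs_of_pos hh] at hab
    calc (P x k - Q x k) ^ 2 * h = |P x k - Q x k| * (h * |P x k - Q x k|) := by
          rw [← sq_abs]; ring
      _ ≤ 2 * R * (F1 x + G x) := mul_le_mul hpq hab (by positivity) (by positivity)
  have hint1 := sq_diff_integrable (S := Kh) hKhc.measure_lt_top.ne hP hQ bP bQ k
  have j1 : IntegrableOn F1 Kh := cont_intOn hK hsub c1
  have j2 : IntegrableOn G Kh := hGi.mono_set hsub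
  have hint2 : IntegrableOn (fun x => (2 * R * (F1 x + G x)) / h) Kh :=
    ((j1.add j2).const_mul _).div_const _
  refine (integral_mono_ae hint1 hint2 hpt).trans ?_
  rw [integral_div, integral_const_mul, integral_add j1 j2]
  have t2 : ∫ x in Kh, G x ≤ ∫ x in K, G x :=
    setIntegral_mono_set hGi (Filter.Eventually.of_forall hG0) (LE.le.eventuallyLE hsub)
  gcongr

end Vale.Agent.P074
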