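import Vale.Agent.P074.Semi

/-!
# P074: transporting an absolutely continuous measure to an arbitrary measure by a Borel map
-/

namespace Vale.Agent.P074

open MeasureTheory ProbabilityTheory
open scoped ENNReal NNReal RealInnerProductSpace unitInterval

/-- the distribution function as a map to the unit interval -/
noncomputable def cdfI (P : Measure ℝ) (x : ℝ) : I :=
  ⟨cdf P x, cdf_nonneg P x, cdf_le_one P x⟩

lemma measurable_cdfI (P : Measure ℝ) : Measurable (cdfI P) := by
  unfold cdfI
  exact Measurable.subtype_mk (monotone_cdf P).measurable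

/-- sublevel sets of the distribution function of an atomless measure -/
lemma cdf_sublevel (P : Measure ℝ) [IsProbabilityMeasure P] (hP : ∀ a, P {a} = 0)
    {t : ℝ} (ht0 : 0 ≤ t) (ht1 : t ≤ 1) : P {x | cdf P x ≤ t} = ENNReal.ofReal t := by
  rcases eq_or_lt_of_le ht1 with h1 | h1
  · subst h1
    have : {x | cdf P x ≤ 1} = Set.univ := by
      ext x; simp [cdf_le_one P x]
    rw [this]
    simp
  set A : Set ℝ := {x | cdf P x ≤ t} with hA
  have hmono := monotone_cdf P
  have hdown : ∀ x ∈ A, ∀ y ≤ x, y ∈ A := fun x hx y hy => (hmono hy).trans hx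
  by_cases hne : A.Nonempty
  · -- bounded above
    have hbdd : BddAbove A := by
      have h2 : ∀ᶠ x in Filter.atTop, t < cdf P x := (tendsto_cdf_atTop P).eventually_const_lt h1
      obtain ⟨b, hb⟩ := h2.exists
      refine ⟨b, fun x hx => ?_⟩
      by_contra hcon
      push Not at hcon
      have := hdown x hx b hcon.le
      exact absurd this (not_le.2 hb)
    set s := sSup A with hs
    have hIic : A ⊆ Set.Iic s := fun x hx => le_csSup hbdd hx
    have hIio : Set.Iio s ⊆ A := by
      intro x hx
      obtain ⟨y, hy, hxy⟩ := exists_lt_of_lt_csSup hne hx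
      exact hdown y hy x hxy.le
    have hPs : P (Set.Iic s) = P (Set.Iio s) := by
      apply le_antisymm _ (measure_mono Set.Iio_subset_Iic_self)
      rw [← Set.Iio_union_right]
      refine (measure_union_le _ _).trans ?_
      rw [hP s, add_zero]
    have hge : t ≤ cdf P s := by
      have hrc : Filter.Tendsto (cdf P) (nhdsWithin s (Set.Ioi s)) (nhds (cdf P s)) :=
        ((cdf P).right_continuous s).mono_left (nhdsWithin_mono _ Set.Ioi_subset_Ici_self)
      refine ge_of_tendsto hrc ?_
      filter_upwards [self_mem_nhdsWithin] with x hx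
      by_contra hcon
      push Not at hcon
      have hxs : x ≤ s := hIic hcon.le
      exact absurd hxs (not_le.2 hx)
    have hle : P (Set.Iio s) ≤ ENNReal.ofReal t := by
      have h2 := StieltjesFunction.measure_Iio (cdf P) (tendsto_cdf_atBot P) s
      rw [measure_cdf] at h2
      rw [h2, sub_zero]
      apply ENNReal.ofReal_le_ofReal
      have h3 := hmono.tendsto_leftLim s
      refine le_of_tendsto h3 ?_
      filter_upwards [self_mem_nhdsWithin] with x hx
      exact hIio hx
    apply le_antisymm
    · exact (measure_mono hIic).trans (hPs.le.trans hle)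
    · calc ENNReal.ofReal t ≤ ENNReal.ofReal (cdf P s) := ENNReal.ofReal_le_ofReal hge
        _ = P (Set.Iic s) := ofReal_cdf P s
        _ = P (Set.Iio s) := hPs
        _ ≤ P A := measure_mono hIio
  · have hA0 : A = ∅ := Set.not_nonempty_iff_eq_empty.1 hne
    rw [hA0, measure_empty]
    have : t ≤ 0 := by
      refine ge_of_tendsto (tendsto_cdf_atBot P) (Filter.Eventually.of_forall (fun x => ?_))
      by_contra hcon
      push Not at hcon
      exact hne ⟨x, hcon.le⟩
    rw [le_antisymm this ht0]
    simp

lemma map_cdfI (P : Measure ℝ) [IsProbabilityMeasure P] (hP : ∀ a, P {a} = 0) :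
    P.map (cdfI P) = (volume : Measure I) := by
  have := Measure.isProbabilityMeasure_map (μ := P) (measurable_cdfI P).aemeasurable
  refine Measure.ext_of_Iic _ _ (fun t => ?_)
  rw [Measure.map_apply (measurable_cdfI P) measurableSet_Iic, unitInterval.volume_Iic]
  have : cdfI P ⁻¹' Set.Iic t = {x | cdf P x ≤ (t : ℝ)} := by
    ext x
    simp only [Set.mem_preimage, Set.mem_Iic, Set.mem_ofPred_eq]
    rfl
  rw [this]
  exact cdf_sublevel P hP t.2.1 t.2.2

variable {d : ℕ}

/-- transport of an absolutely continuous probability measure -/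
lemma exists_transport_prob (hd : 0 < d) (η θ : Measure (EuclideanSpace ℝ (Fin d)))
    [IsProbabilityMeasure η] [IsProbabilityMeasure θ] (hη : η ≪ volume) :
    ∃ S : EuclideanSpace ℝ (Fin d) → EuclideanSpace ℝ (Fin d), Measurable S ∧ η.map S = θ := by
  set i0 : Fin d := ⟨0, hd⟩
  have hc : Measurable (fun x : EuclideanSpace ℝ (Fin d) => x i0) :=
    (EuclideanSpace.proj i0 : EuclideanSpace ℝ (Fin d) →L[ℝ] ℝ).continuous.measurable
  set P : Measure ℝ := η.map (fun x => x i0) with hP
  have hPprob : IsProbabilityMeasure P := Measure.isProbabilityMeasure_map hc.aemeasurable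
  have hPat : ∀ a, P {a} = 0 := by
    intro a
    rw [hP, Measure.map_apply hc (measurableSet_singleton a)]
    apply hη
    have : (fun x : EuclideanSpace ℝ (Fin d) => x i0) ⁻¹' {a} =
        {x | ⟪EuclideanSpace.single i0 (1 : ℝ), x⟫ = a} := by
      ext x
      simp only [Set.mem_preimage, Set.mem_singleton_iff, Set.mem_ofPred_eq]
      rw [EuclideanSpace.inner_single_left]
      simp
    rw [this]
    apply hyperplane_null
    intro h
    have : (EuclideanSpace.single i0 (1 : ℝ) : EuclideanSpace ℝ (Fin d)) i0 = 0 := by rw [h]; rfl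
    simp at this
  obtain ⟨f, hf, hfm⟩ := Measure.exists_measurable_map_eq θ
  refine ⟨fun x => f (cdfI P (x i0)), hf.comp ((measurable_cdfI P).comp hc), ?_⟩
  have e1 : η.map (fun x => f (cdfI P (x i0))) = ((η.map (fun x => x i0)).map (cdfI P)).map f := by
    rw [Measure.map_map (measurable_cdfI P) hc, Measure.map_map hf ((measurable_cdfI P).comp hc)]
    rfl
  rw [e1, ← hP, map_cdfI P hPat, hfm]

/-- transport of an absolutely continuous finite measure -/
lemma exists_transport (hd : 0 < d) (η θ : Measure (EuclideanSpace ℝ (Fin d)))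
    [IsFiniteMeasure η] [IsFiniteMeasure θ] (hη : η ≪ volume)
    (hmass : η Set.univ = θ Set.univ) :
    ∃ S : EuclideanSpace ℝ (Fin d) → EuclideanSpace ℝ (Fin d), Measurable S ∧ η.map S = θ := by
  by_cases h0 : η Set.univ = 0
  · have h1 : η = 0 := Measure.measure_univ_eq_zero.1 h0
    have h2 : θ = 0 := Measure.measure_univ_eq_zero.1 (hmass ▸ h0)
    exact ⟨id, measurable_id, by rw [h1, h2]; simp⟩
  have hfin : η Set.univ ≠ ∞ := measure_ne_top _ _
  set c := η Set.univ with hc
  have p1 : IsProbabilityMeasure (c⁻¹ • η) := ⟨by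
    rw [Measure.smul_apply, smul_eq_mul, ← hc]; exact ENNReal.inv_mul_cancel h0 hfin⟩
  have p2 : IsProbabilityMeasure (c⁻¹ • θ) := ⟨by
    rw [Measure.smul_apply, smul_eq_mul, ← hmass]; exact ENNReal.inv_mul_cancel h0 hfin⟩
  obtain ⟨S, hS, hSm⟩ := exists_transport_prob hd (c⁻¹ • η) (c⁻¹ • θ)
    ((Measure.smul_absolutelyContinuous).trans hη)
  refine ⟨S, hS, ?_⟩
  rw [Measure.map_smul] at hSm
  have h3 : c • (c⁻¹ • η.map S) = c • (c⁻¹ • θ) := by rw [hSm]
  rw [smul_smul, smul_smul, ENNReal.mul_inv_cancel h0 hfin, one_smul, one_smul] at h3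
  exact h3

end Vale.Agent.P074
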