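import Vale.Agent.P074.Pot
import Vale.Agent.P074.Interp2
import Vale.Agent.P074.Transport

/-!
# P074: approximating a general optimal map by semi-discrete ones
-/

namespace Vale.Agent.P074

open MeasureTheory
open scoped ENNReal NNReal RealInnerProductSpace

variable {d : ℕ} {ι : Type*} [Fintype ι] [Nonempty ι]

/-- semi-discrete optimal map -/
noncomputable def Ty (y : ι → EuclideanSpace ℝ (Fin d)) (ψ : ι → ℝ)
    (x : EuclideanSpace ℝ (Fin d)) : EuclideanSpace ℝ (Fin d) :=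
  ∑ k, (scell y ψ k).indicator (fun _ => y k) x

section Ty

variable {y : ι → EuclideanSpace ℝ (Fin d)} {ψ : ι → ℝ}

omit [Nonempty ι] in
lemma measurable_Ty : Measurable (Ty y ψ) := by
  unfold Ty
  exact Finset.measurable_fun_sum _
    (fun k _ => measurable_const.indicator (measurableSet_scell y ψ k))

omit [Nonempty ι] in
lemma Ty_of_mem {k : ι} {x : EuclideanSpace ℝ (Fin d)} (hx : x ∈ scell y ψ k) :
    Ty y ψ x = y k := by
  unfold Ty
  rw [Finset.sum_eq_single k]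
  · rw [Set.indicator_of_mem hx]
  · intro j _ hj
    rw [Set.indicator_of_notMem]
    intro hxj
    exact Set.disjoint_left.1 (scell_disjoint y ψ hj) hxj hx
  · simp

omit [Nonempty ι] in
lemma Ty_of_notMem {x : EuclideanSpace ℝ (Fin d)} (hx : ∀ k, x ∉ scell y ψ k) :
    Ty y ψ x = 0 := by
  unfold Ty
  exact Finset.sum_eq_zero (fun k _ => Set.indicator_of_notMem (hx k) _)

omit [Nonempty ι] in
lemma Ty_norm {R : ℝ} (hR : 0 ≤ R) (hy : ∀ i, ‖y i‖ ≤ R) (x : EuclideanSpace ℝ (Fin d)) :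
    ‖Ty y ψ x‖ ≤ R := by
  by_cases h : ∃ k, x ∈ scell y ψ k
  · obtain ⟨k, hk⟩ := h
    rw [Ty_of_mem hk]; exact hy k
  · push Not at h
    rw [Ty_of_notMem h, norm_zero]; exact hR

lemma Ty_sub {k : ι} {x : EuclideanSpace ℝ (Fin d)} (hx : x ∈ scell y ψ k)
    (x' : EuclideanSpace ℝ (Fin d)) : mx y ψ x + ⟪Ty y ψ x, x' - x⟫ ≤ mx y ψ x' := by
  rw [Ty_of_mem hx, mx_eq_of_scell hx, inner_sub_right]
  have := le_mx y ψ x' k
  linarith

omit [Nonempty ι] in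
lemma ae_mem_scell [Nonempty ι] {κ : Measure (EuclideanSpace ℝ (Fin d))} {R : ℝ} (h : GoodMeas R κ)
    (hinj : Function.Injective y) : ∀ᵐ x ∂κ, ∃ k, x ∈ scell y ψ k := by
  have h1 : κ (⋃ i, scell y ψ i)ᶜ = 0 := h.ac (ties_null hinj ψ)
  rw [← mem_ae_iff] at h1
  filter_upwards [h1] with x hx
  simpa using hx

end Ty

section stuff

variable {K : Set (EuclideanSpace ℝ (Fin d))} {R : ℝ}
  {y : ι → EuclideanSpace ℝ (Fin d)} {m ψ : ι → ℝ}

lemma inner_integrable {T : EuclideanSpace ℝ (Fin d) → EuclideanSpace ℝ (Fin d)}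
    (hK : MeasurableSet K) (hKR : K ⊆ Metric.closedBall 0 R) (hT : Measurable T)
    (bT : ∀ᵐ x ∂(volume.restrict K), ‖T x‖ ≤ R) : IntegrableOn (fun x => ⟪T x, x⟫) K := by
  refine Measure.integrableOn_of_bounded (finite_of_sub hKR le_rfl)
    (by fun_prop : Measurable (fun x => ⟪T x, x⟫)).aestronglyMeasurable (M := R * R) ?_
  filter_upwards [bT, ae_restrict_mem hK] with x hx hxK
  have h1 : ‖x‖ ≤ R := by simpa using hKR hxK
  rw [Real.norm_eq_abs]
  exact (abs_real_inner_le_norm _ _).trans (mul_le_mul hx h1 (norm_nonneg _)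
    ((norm_nonneg _).trans hx))

lemma inner_close {S T : EuclideanSpace ℝ (Fin d) → EuclideanSpace ℝ (Fin d)}
    (hK : MeasurableSet K) (hKR : K ⊆ Metric.closedBall 0 R) (hS : Measurable S) (hT : Measurable T)
    (bS : ∀ᵐ x ∂(volume.restrict K), ‖S x‖ ≤ R) (bT : ∀ᵐ x ∂(volume.restrict K), ‖T x‖ ≤ R)
    {ε : ℝ} (hST : ∀ᵐ x ∂(volume.restrict K), ‖S x - T x‖ ≤ ε) :
    (∫ x in K, ⟪T x, x⟫) - ε * R * volume.real K ≤ ∫ x in K, ⟪S x, x⟫ := by
  have i1 := inner_integrable hK hKR hS bS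
  have i2 := inner_integrable hK hKR hT bT
  have g0 := good_restrict hKR
  have := g0.fin
  have h1 : (∫ x in K, ⟪T x, x⟫) - ε * R * volume.real K = ∫ x in K, (⟪T x, x⟫ - ε * R) := by
    rw [integral_sub i2 (integrable_const _), setIntegral_const, smul_eq_mul]
    ring
  rw [h1]
  refine integral_mono_ae (i2.sub (integrable_const _)) i1 ?_
  filter_upwards [hST, ae_restrict_mem hK] with x hx hxK
  have h2 : ‖x‖ ≤ R := by simpa using hKR hxK
  have h3 := abs_real_inner_le_norm (S x - T x) x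
  have h4 : ‖S x - T x‖ * ‖x‖ ≤ ε * R := mul_le_mul hx h2 (norm_nonneg _)
    ((norm_nonneg _).trans hx)
  rw [inner_sub_left] at h3
  have h5 := (abs_le.1 (h3.trans h4)).1
  linarith

/-- optimality for the unnormalized source -/
def OptK (K : Set (EuclideanSpace ℝ (Fin d)))
    (T : EuclideanSpace ℝ (Fin d) → EuclideanSpace ℝ (Fin d)) : Prop :=
  ∀ S : EuclideanSpace ℝ (Fin d) → EuclideanSpace ℝ (Fin d), Measurable S →
    (volume.restrict K).map S = (volume.restrict K).map T →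
      ∫⁻ x in K, ‖x - T x‖ₑ ^ 2 ≤ ∫⁻ x in K, ‖x - S x‖ₑ ^ 2

lemma enorm_sq_eq (v : EuclideanSpace ℝ (Fin d)) : ‖v‖ₑ ^ 2 = ENNReal.ofReal (‖v‖ ^ 2) := by
  rw [← ofReal_norm, ENNReal.ofReal_pow (norm_nonneg _)]

lemma cost_expand {U : EuclideanSpace ℝ (Fin d) → EuclideanSpace ℝ (Fin d)}
    (hK : MeasurableSet K) (hKR : K ⊆ Metric.closedBall 0 R) (hU : Measurable U)
    (bU : ∀ᵐ x ∂(volume.restrict K), ‖U x‖ ≤ R) :
    0 ≤ (∫ x in K, ‖x‖ ^ 2) - 2 * (∫ x in K, ⟪U x, x⟫) + (∫ x in K, ‖U x‖ ^ 2) ∧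
    ∫⁻ x in K, ‖x - U x‖ₑ ^ 2 =
      ENNReal.ofReal ((∫ x in K, ‖x‖ ^ 2) - 2 * (∫ x in K, ⟪U x, x⟫) + ∫ x in K, ‖U x‖ ^ 2) := by
  have g0 := good_restrict hKR
  have hfin : volume K ≠ ∞ := finite_of_sub hKR le_rfl
  have i1 : IntegrableOn (fun x : EuclideanSpace ℝ (Fin d) => ‖x‖ ^ 2) K :=
    g0.integrable (by fun_prop)
  have i2 := inner_integrable hK hKR hU bU
  have i2' : IntegrableOn (fun x => 2 * ⟪U x, x⟫) K := i2.const_mul 2
  have i3 : IntegrableOn (fun x => ‖U x‖ ^ 2) K := by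
    refine Measure.integrableOn_of_bounded hfin
      (by fun_prop : Measurable (fun x => ‖U x‖ ^ 2)).aestronglyMeasurable (M := R ^ 2) ?_
    filter_upwards [bU] with x hx
    rw [Real.norm_of_nonneg (by positivity)]
    exact pow_le_pow_left₀ (norm_nonneg _) hx 2
  have h1 : ∀ x, ‖x - U x‖ ^ 2 = ‖x‖ ^ 2 - 2 * ⟪U x, x⟫ + ‖U x‖ ^ 2 := by
    intro x
    rw [@norm_sub_sq_real, real_inner_comm]
  have i12 : IntegrableOn (fun x => ‖x‖ ^ 2 - 2 * ⟪U x, x⟫) K := i1.sub i2'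
  have i123 : IntegrableOn (fun x => ‖x‖ ^ 2 - 2 * ⟪U x, x⟫ + ‖U x‖ ^ 2) K := i12.add i3
  have e3 : ∫ x in K, ‖x - U x‖ ^ 2 =
      (∫ x in K, ‖x‖ ^ 2) - 2 * (∫ x in K, ⟪U x, x⟫) + ∫ x in K, ‖U x‖ ^ 2 := by
    simp_rw [h1]
    rw [integral_add i12 i3, integral_sub i1 i2', integral_const_mul]
  have i4 : IntegrableOn (fun x => ‖x - U x‖ ^ 2) K := by
    simp_rw [h1]; exact i123
  constructor
  · rw [← e3]
    exact integral_nonneg (fun x => sq_nonneg _)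
  · rw [← e3, ofReal_integral_eq_lintegral_ofReal i4
      (Filter.Eventually.of_forall (fun x => sq_nonneg _))]
    exact lintegral_congr (fun x => enorm_sq_eq _)

/-- optimality in terms of correlations -/
lemma OptK.inner_le {T S : EuclideanSpace ℝ (Fin d) → EuclideanSpace ℝ (Fin d)} (h : OptK K T)
    (hK : MeasurableSet K) (hKR : K ⊆ Metric.closedBall 0 R) (hT : Measurable T)
    (hS : Measurable S)
    (hmap : (volume.restrict K).map S = (volume.restrict K).map T)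
    (bT : ∀ᵐ x ∂(volume.restrict K), ‖T x‖ ≤ R) :
    (∀ᵐ x ∂(volume.restrict K), ‖S x‖ ≤ R) ∧ ∫ x in K, ⟪S x, x⟫ ≤ ∫ x in K, ⟪T x, x⟫ := by
  have hm : MeasurableSet {p : EuclideanSpace ℝ (Fin d) | ‖p‖ ≤ R} :=
    measurableSet_le measurable_norm measurable_const
  have bS : ∀ᵐ x ∂(volume.restrict K), ‖S x‖ ≤ R := by
    have h1 : ∀ᵐ p ∂((volume.restrict K).map T), ‖p‖ ≤ R := (ae_map_iff hT.aemeasurable hm).2 bT
    rw [← hmap] at h1
    exact (ae_map_iff hS.aemeasurable hm).1 h1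
  refine ⟨bS, ?_⟩
  have h0 := h S hS hmap
  obtain ⟨_, cT⟩ := cost_expand hK hKR hT bT
  obtain ⟨hpos, cS⟩ := cost_expand hK hKR hS bS
  have hsq : ∫ x in K, ‖S x‖ ^ 2 = ∫ x in K, ‖T x‖ ^ 2 := by
    have e1 : ∫ x in K, ‖S x‖ ^ 2 = ∫ p, ‖p‖ ^ 2 ∂((volume.restrict K).map S) := by
      rw [integral_map hS.aemeasurable (by fun_prop)]
    have e2 : ∫ x in K, ‖T x‖ ^ 2 = ∫ p, ‖p‖ ^ 2 ∂((volume.restrict K).map T) := by
      rw [integral_map hT.aemeasurable (by fun_prop)]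
    rw [e1, e2, hmap]
  rw [cT, cS] at h0
  rw [ENNReal.ofReal_le_ofReal_iff hpos] at h0
  linarith

end stuff

end Vale.Agent.P074
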