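import Vale.Agent.P074.Approx

/-!
# P074: the competitor map and the approximation lemma
-/

namespace Vale.Agent.P074

open MeasureTheory
open scoped ENNReal NNReal RealInnerProductSpace

variable {d : ℕ} {ι : Type*} [Fintype ι] [Nonempty ι]
  {K : Set (EuclideanSpace ℝ (Fin d))} {R ε : ℝ}
  {y : ι → EuclideanSpace ℝ (Fin d)} {m ψ : ι → ℝ}

/-- value of the dual problem through the semi-discrete map -/
lemma inner_Ty (hK : MeasurableSet K) (hKR : K ⊆ Metric.closedBall 0 R) (hR : 0 ≤ R)
    (hy : ∀ i, ‖y i‖ ≤ R)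
    (hinj : Function.Injective y) (hm0 : ∀ i, 0 < m i)
    (hm : ∑ i, m i = volume.real K) (hψ : IsMinP (volume.restrict K) y m ψ) :
    ∫ x in K, ⟪Ty y ψ x, x⟫ = Psi (volume.restrict K) y m ψ := by
  have g0 := good_restrict hKR
  have := g0.fin
  have hmass := scell_mass g0 hinj hm0 (hm.trans restrict_real_univ.symm) hψ
  have hin : ∀ v : EuclideanSpace ℝ (Fin d), Integrable (fun x => ⟪v, x⟫) (volume.restrict K) :=
    fun v => g0.integrable (by fun_prop)
  have hmy := g0.integrable (continuous_mx (y := y) (ψ := ψ))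
  have i1 : Integrable (fun x => ⟪Ty y ψ x, x⟫) (volume.restrict K) :=
    inner_integrable hK hKR measurable_Ty (Filter.Eventually.of_forall (Ty_norm hR hy))
  rw [← sum_scell g0 hinj ψ i1]
  unfold Psi
  rw [← sum_scell g0 hinj ψ hmy, ← Finset.sum_add_distrib]
  refine Finset.sum_congr rfl (fun i _ => ?_)
  have h1 : ∫ x in scell y ψ i, mx y ψ x ∂(volume.restrict K) =
      ∫ x in scell y ψ i, (⟪y i, x⟫ - ψ i) ∂(volume.restrict K) :=
    setIntegral_congr_fun (measurableSet_scell y ψ i) (fun x hx => mx_eq_of_scell hx)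
  have h2 : ∫ x in scell y ψ i, ⟪Ty y ψ x, x⟫ ∂(volume.restrict K) =
      ∫ x in scell y ψ i, ⟪y i, x⟫ ∂(volume.restrict K) :=
    setIntegral_congr_fun (measurableSet_scell y ψ i) (fun x hx => by
      simp only [Ty_of_mem hx])
  rw [h1, h2, integral_sub (hin _).integrableOn (integrable_const _), setIntegral_const, hmass i,
    smul_eq_mul]
  ring

lemma measure_split {κ : Measure (EuclideanSpace ℝ (Fin d))} (h : GoodMeas R κ)
    (hinj : Function.Injective y) (ψ : ι → ℝ) {B : Set (EuclideanSpace ℝ (Fin d))}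
    (hB : MeasurableSet B) : κ B = ∑ k, κ (B ∩ scell y ψ k) := by
  have h1 : κ (⋃ i, scell y ψ i)ᶜ = 0 := h.ac (ties_null hinj ψ)
  have h2 : κ B = κ (⋃ k, B ∩ scell y ψ k) := by
    rw [← Set.inter_iUnion]
    rw [measure_inter_conull h1]
  rw [h2, measure_iUnion]
  · exact tsum_fintype _
  · intro i j hij
    exact (scell_disjoint y ψ hij).mono Set.inter_subset_right Set.inter_subset_right
  · exact fun k => hB.inter (measurableSet_scell y ψ k)

/-- an optimal Borel map is nearly as good as the semi-discrete plan -/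
lemma competitor (hd : 0 < d) (hK : MeasurableSet K) (hKR : K ⊆ Metric.closedBall 0 R) (hR : 0 ≤ R)
    (hy : ∀ i, ‖y i‖ ≤ R)
    (hinj : Function.Injective y) (hm0 : ∀ i, 0 < m i)
    (hm : ∑ i, m i = volume.real K) (hψ : IsMinP (volume.restrict K) y m ψ)
    {θ : ι → Measure (EuclideanSpace ℝ (Fin d))} (hθf : ∀ k, IsFiniteMeasure (θ k))
    (hθm : ∀ k, (θ k).real Set.univ = m k)
    (hθε : ∀ k, θ k {p | ε < ‖y k - p‖} = 0)
    {T : EuclideanSpace ℝ (Fin d) → EuclideanSpace ℝ (Fin d)} (hT : Measurable T)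
    (hopt : OptK K T) (hsum : (volume.restrict K).map T = ∑ k, θ k)
    (bT : ∀ᵐ x ∂(volume.restrict K), ‖T x‖ ≤ R) :
    Psi (volume.restrict K) y m ψ - ε * R * volume.real K ≤ ∫ x in K, ⟪T x, x⟫ := by
  have g0 := good_restrict hKR
  have := g0.fin
  have hmass := scell_mass g0 hinj hm0 (hm.trans restrict_real_univ.symm) hψ
  set κ := volume.restrict K with hκ
  have hex : ∀ k, ∃ S : EuclideanSpace ℝ (Fin d) → EuclideanSpace ℝ (Fin d), Measurable S ∧
      (κ.restrict (scell y ψ k)).map S = θ k := by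
    intro k
    have := hθf k
    refine exists_transport hd _ _ (Measure.absolutelyContinuous_of_le
      (Measure.restrict_le_self.trans Measure.restrict_le_self)) ?_
    rw [Measure.restrict_apply_univ, ← ofReal_measureReal (μ := κ), hmass k,
      ← ofReal_measureReal (μ := θ k), hθm k]
  choose Sk hSk hSkm using hex
  set S : EuclideanSpace ℝ (Fin d) → EuclideanSpace ℝ (Fin d) :=
    fun x => ∑ k, (scell y ψ k).indicator (Sk k) x with hS
  have hSm : Measurable S := Finset.measurable_fun_sum _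
    (fun k _ => (hSk k).indicator (measurableSet_scell y ψ k))
  have hSval : ∀ k, ∀ x ∈ scell y ψ k, S x = Sk k x := by
    intro k x hx
    rw [hS]
    simp only
    rw [Finset.sum_eq_single k]
    · rw [Set.indicator_of_mem hx]
    · intro j _ hj
      rw [Set.indicator_of_notMem]
      intro hxj
      exact Set.disjoint_left.1 (scell_disjoint y ψ hj) hxj hx
    · simp
  have hmap : κ.map S = κ.map T := by
    rw [hsum]
    ext B hB
    rw [Measure.map_apply hSm hB, measure_split g0 hinj ψ (hSm hB), Measure.finsetSum_apply]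
    refine Finset.sum_congr rfl (fun k _ => ?_)
    rw [← hSkm k, Measure.map_apply (hSk k) hB, Measure.restrict_apply (hSk k hB)]
    congr 1
    ext x
    simp only [Set.mem_inter_iff, Set.mem_preimage]
    constructor
    · rintro ⟨h1, h2⟩
      exact ⟨(hSval k x h2) ▸ h1, h2⟩
    · rintro ⟨h1, h2⟩
      exact ⟨(hSval k x h2).symm ▸ h1, h2⟩
  obtain ⟨bS, hle⟩ := hopt.inner_le hK hKR hT hSm hmap bT
  have hclose : ∀ᵐ x ∂κ, ‖S x - Ty y ψ x‖ ≤ ε := by
    have h1 : ∀ k, ∀ᵐ x ∂κ, x ∈ scell y ψ k → ‖y k - Sk k x‖ ≤ ε := by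
      intro k
      rw [← ae_restrict_iff' (measurableSet_scell y ψ k)]
      have hms : MeasurableSet {p : EuclideanSpace ℝ (Fin d) | ε < ‖y k - p‖} :=
        measurableSet_lt measurable_const (by fun_prop)
      have h2 := hθε k
      rw [← hSkm k, Measure.map_apply (hSk k) hms] at h2
      rw [ae_iff]
      refine measure_mono_null ?_ h2
      intro x hx
      simpa using hx
    have h3 : ∀ᵐ x ∂κ, ∀ k, x ∈ scell y ψ k → ‖y k - Sk k x‖ ≤ ε := ae_all_iff.2 h1
    filter_upwards [h3, ae_mem_scell g0 hinj (ψ := ψ)] with x hx hx2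
    obtain ⟨k, hk⟩ := hx2
    rw [hSval k x hk, Ty_of_mem hk, norm_sub_rev]
    exact hx k hk
  have h1 := inner_close hK hKR hSm measurable_Ty bS
    (Filter.Eventually.of_forall (Ty_norm (y := y) (ψ := ψ) hR hy)) hclose
  rw [inner_Ty hK hKR hR hy hinj hm0 hm hψ] at h1
  exact h1.trans hle

/-- densities of the pieces -/
lemma exists_density {μ : Measure (EuclideanSpace ℝ (Fin d))} [IsFiniteMeasure μ]
    {θ : ι → Measure (EuclideanSpace ℝ (Fin d))} (hθf : ∀ k, IsFiniteMeasure (θ k))
    (hθε : ∀ k, θ k {p | ε < ‖y k - p‖} = 0) (hsum : μ = ∑ k, θ k) :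
    ∃ r : ι → EuclideanSpace ℝ (Fin d) → ℝ, (∀ k, Measurable (r k)) ∧ (∀ k p, 0 ≤ r k p) ∧
      (∀ p, ∑ k, r k p ≤ 1) ∧ (∀ᵐ p ∂μ, ∑ k, r k p = 1) ∧
      (∀ k p, r k p ≠ 0 → ‖y k - p‖ ≤ ε) ∧ (∀ k, ∫ p, r k p ∂μ = (θ k).real Set.univ) := by
  have hle : ∀ k, θ k ≤ μ := by
    intro k
    rw [hsum]
    exact Finset.single_le_sum (f := θ) (fun i _ => Measure.zero_le (θ i)) (Finset.mem_univ k)
  have hac : ∀ k, θ k ≪ μ := fun k => Measure.absolutelyContinuous_of_le (hle k)
  set q : ι → EuclideanSpace ℝ (Fin d) → ℝ≥0∞ := fun k => (θ k).rnDeriv μ with hq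
  have hqm : ∀ k, Measurable (q k) := fun k => Measure.measurable_rnDeriv _ _
  have hqd : ∀ k, μ.withDensity (q k) = θ k := fun k => by
    have := hθf k
    have := Measure.haveLebesgueDecomposition_of_sigmaFinite (θ k) μ
    exact Measure.withDensity_rnDeriv_eq _ _ (hac k)
  have hqint : ∀ k (B : Set (EuclideanSpace ℝ (Fin d))), MeasurableSet B →
      ∫⁻ p in B, q k p ∂μ = θ k B := by
    intro k B hB
    rw [← withDensity_apply _ hB, hqd k]
  -- sum is one
  have hsum1 : ∀ᵐ p ∂μ, ∑ k, q k p = 1 := by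
    have h1 : (fun p => ∑ k, q k p) =ᵐ[μ] fun _ => 1 := by
      refine ae_eq_of_forall_setLIntegral_eq_of_sigmaFinite
        (Finset.measurable_fun_sum _ (fun k _ => hqm k)) measurable_const (fun B hB _ => ?_)
      rw [lintegral_finsetSum _ (fun k _ => hqm k)]
      simp_rw [hqint _ B hB]
      rw [setLIntegral_const, one_mul]
      conv_rhs => rw [hsum]
      rw [Measure.finsetSum_apply]
    exact h1
  have hms : ∀ k, MeasurableSet {p : EuclideanSpace ℝ (Fin d) | ε < ‖y k - p‖} := fun k =>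
    measurableSet_lt measurable_const (by fun_prop)
  have hzero : ∀ k, ∀ᵐ p ∂μ, ε < ‖y k - p‖ → q k p = 0 := by
    intro k
    have h1 : ∀ᵐ p ∂(μ.restrict {p | ε < ‖y k - p‖}), q k p = 0 := by
      have h2 := hqint k _ (hms k)
      rw [hθε k] at h2
      exact (lintegral_eq_zero_iff (hqm k)).1 h2
    exact (ae_restrict_iff' (hms k)).1 h1
  set Good : Set (EuclideanSpace ℝ (Fin d)) :=
    {p | ∑ k, q k p = 1} ∩ ⋂ k, ({p | ε < ‖y k - p‖}ᶜ ∪ {p | q k p = 0}) with hGood
  have hGm : MeasurableSet Good := by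
    refine MeasurableSet.inter ?_ (MeasurableSet.iInter (fun k => (hms k).compl.union ?_))
    · exact measurableSet_eq_fun (Finset.measurable_fun_sum _ (fun k _ => hqm k)) measurable_const
    · exact measurableSet_eq_fun (hqm k) measurable_const
  have hGae : ∀ᵐ p ∂μ, p ∈ Good := by
    filter_upwards [hsum1, ae_all_iff.2 hzero] with p h1 h2
    refine ⟨h1, Set.mem_iInter.2 (fun k => ?_)⟩
    by_cases h3 : ε < ‖y k - p‖
    · exact Or.inr (h2 k h3)
    · exact Or.inl h3
  have hqfin : ∀ p ∈ Good, ∀ k, q k p ≠ ∞ := by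
    intro p hp k
    have h1 : q k p ≤ ∑ k, q k p := Finset.single_le_sum (f := fun k => q k p)
      (fun i _ => zero_le) (Finset.mem_univ k)
    have h2 : ∑ k, q k p = 1 := hp.1
    rw [h2] at h1
    exact ne_top_of_le_ne_top ENNReal.one_ne_top h1
  have hsumG : ∀ p ∈ Good, ∑ k, (q k p).toReal = 1 := by
    intro p hp
    rw [← ENNReal.toReal_sum (fun k _ => hqfin p hp k)]
    have h2 : ∑ k, q k p = 1 := hp.1
    rw [h2]; rfl
  refine ⟨fun k => Good.indicator (fun p => (q k p).toReal), fun k => (hqm k).ennreal_toReal.indicator hGm,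
    fun k p => Set.indicator_nonneg (fun p _ => ENNReal.toReal_nonneg) p, ?_, ?_, ?_, ?_⟩
  · intro p
    by_cases hp : p ∈ Good
    · simp only [Set.indicator_of_mem hp]
      exact (hsumG p hp).le
    · simp only [Set.indicator_of_notMem hp, Finset.sum_const_zero]
      norm_num
  · filter_upwards [hGae] with p hp
    simp only [Set.indicator_of_mem hp]
    exact hsumG p hp
  · intro k p hkp
    have hp : p ∈ Good := by
      by_contra hcon
      exact hkp (Set.indicator_of_notMem hcon _)
    simp only [Set.indicator_of_mem hp] at hkp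
    have h1 := Set.mem_iInter.1 hp.2 k
    rcases h1 with h | h
    · exact not_lt.1 h
    · exfalso
      apply hkp
      have : q k p = 0 := h
      rw [this]; rfl
  · intro k
    have h1 : ∫ p, Good.indicator (fun p => (q k p).toReal) p ∂μ = ∫ p, (q k p).toReal ∂μ := by
      refine integral_congr_ae ?_
      filter_upwards [hGae] with p hp
      rw [Set.indicator_of_mem hp]
    rw [h1, integral_toReal (hqm k).aemeasurable]
    · rw [measureReal_def]
      congr 1
      have := hqint k Set.univ MeasurableSet.univ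
      rwa [Measure.restrict_univ] at this
    · filter_upwards [hGae] with p hp
      exact (hqfin p hp k).lt_top

end Vale.Agent.P074
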