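import Vale.Agent.P074.Approx2

/-!
# P074: closeness of an optimal map to a semi-discrete one
-/

namespace Vale.Agent.P074

open MeasureTheory
open scoped ENNReal NNReal RealInnerProductSpace

variable {d : ℕ} {ι : Type*} [Fintype ι] [Nonempty ι]
  {K : Set (EuclideanSpace ℝ (Fin d))} {R ε : ℝ}
  {y : ι → EuclideanSpace ℝ (Fin d)} {m ψ : ι → ℝ}

section pointwise

omit [Nonempty ι] in
lemma norm_comb_le {w : ι → ℝ} (hw0 : ∀ k, 0 ≤ w k) (hw1 : ∑ k, w k ≤ 1) (hR : 0 ≤ R)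
    (hy : ∀ i, ‖y i‖ ≤ R) : ‖∑ k, w k • y k‖ ≤ R := by
  refine (norm_sum_le _ _).trans ?_
  have h1 : ∀ k, ‖w k • y k‖ ≤ w k * R := by
    intro k
    rw [norm_smul, Real.norm_of_nonneg (hw0 k)]
    exact mul_le_mul_of_nonneg_left (hy k) (hw0 k)
  refine (Finset.sum_le_sum (fun k _ => h1 k)).trans ?_
  rw [← Finset.sum_mul]
  nlinarith

omit [Nonempty ι] in
lemma comb_close {w : ι → ℝ} (hw0 : ∀ k, 0 ≤ w k) (hw1 : ∑ k, w k = 1)
    {p : EuclideanSpace ℝ (Fin d)} (hp : ∀ k, w k ≠ 0 → ‖y k - p‖ ≤ ε) :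
    ‖∑ k, w k • y k - p‖ ≤ ε := by
  have h1 : ∑ k, w k • y k - p = ∑ k, w k • (y k - p) := by
    simp_rw [smul_sub]
    rw [Finset.sum_sub_distrib, ← Finset.sum_smul, hw1, one_smul]
  rw [h1]
  refine (norm_sum_le _ _).trans ?_
  have h2 : ∀ k, ‖w k • (y k - p)‖ ≤ w k * ε := by
    intro k
    rw [norm_smul, Real.norm_of_nonneg (hw0 k)]
    by_cases hk : w k = 0
    · rw [hk]; simp
    · exact mul_le_mul_of_nonneg_left (hp k hk) (hw0 k)
  refine (Finset.sum_le_sum (fun k _ => h2 k)).trans ?_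
  rw [← Finset.sum_mul, hw1, one_mul]

lemma comb_G {w : ι → ℝ} (hw1 : ∑ k, w k = 1) (x : EuclideanSpace ℝ (Fin d)) :
    ∑ k, (mx y ψ x - ⟪y k, x⟫ + ψ k) * w k =
      mx y ψ x - ⟪∑ k, w k • y k, x⟫ + ∑ k, ψ k * w k := by
  have h1 : ∀ k, (mx y ψ x - ⟪y k, x⟫ + ψ k) * w k =
      w k * mx y ψ x - w k * ⟪y k, x⟫ + ψ k * w k := fun k => by ring
  simp_rw [h1]
  rw [Finset.sum_add_distrib, Finset.sum_sub_distrib, ← Finset.sum_mul, hw1, one_mul, sum_inner]
  simp_rw [real_inner_smul_left]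

lemma comb_sub {w : ι → ℝ} (hw0 : ∀ k, 0 ≤ w k) (hw1 : ∑ k, w k = 1)
    (x x' : EuclideanSpace ℝ (Fin d)) :
    mx y ψ x + ⟪∑ k, w k • y k, x' - x⟫ - ∑ k, (mx y ψ x - ⟪y k, x⟫ + ψ k) * w k ≤
      mx y ψ x' := by
  rw [comb_G hw1, inner_sub_right]
  have h1 : ∑ k, w k * (⟪y k, x'⟫ - ψ k) ≤ ∑ k, w k * mx y ψ x' :=
    Finset.sum_le_sum (fun k _ => mul_le_mul_of_nonneg_left (le_mx y ψ x' k) (hw0 k))
  rw [← Finset.sum_mul, hw1, one_mul] at h1
  have h2 : ∑ k, w k * (⟪y k, x'⟫ - ψ k) = ⟪∑ k, w k • y k, x'⟫ - ∑ k, ψ k * w k := by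
    rw [sum_inner, ← Finset.sum_sub_distrib]
    refine Finset.sum_congr rfl (fun k _ => ?_)
    rw [real_inner_smul_left]
    ring
  linarith

end pointwise

/-- **An optimal map is close to semi-discrete optimal maps.** -/
theorem approx_close (hd : 0 < d) (hK : IsCompact K) (hKc : Convex ℝ K)
    (hKR : K ⊆ Metric.closedBall 0 R) (hR : 0 ≤ R) {x0 : EuclideanSpace ℝ (Fin d)} {r h : ℝ}
    (hr : 0 < r) (hball : Metric.closedBall x0 r ⊆ K) (hh : 0 < h) (hhr : h ≤ r)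
    (hy : ∀ i, ‖y i‖ ≤ R)
    (hinj : Function.Injective y) (hm0 : ∀ i, 0 < m i)
    (hm : ∑ i, m i = volume.real K) (hψ : IsMinP (volume.restrict K) y m ψ)
    {θ : ι → Measure (EuclideanSpace ℝ (Fin d))} (hθf : ∀ k, IsFiniteMeasure (θ k))
    (hθm : ∀ k, (θ k).real Set.univ = m k)
    (hθε : ∀ k, θ k {p | ε < ‖y k - p‖} = 0)
    {T : EuclideanSpace ℝ (Fin d) → EuclideanSpace ℝ (Fin d)} (hT : Measurable T)
    (hopt : OptK K T) (hsum : (volume.restrict K).map T = ∑ k, θ k)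
    (bT : ∀ᵐ x ∂(volume.restrict K), ‖T x‖ ≤ R) :
    ∫ x in K, ‖T x - Ty y ψ x‖ ^ 2 ≤ 2 * (ε ^ 2 * volume.real K) +
      2 * (d * (2 * R * (2 * R * h * (d * (h / r) * volume.real K) +
        2 * ε * R * volume.real K) / h) + 4 * R ^ 2 * (d * (h / r) * volume.real K)) := by
  have hKm := hK.measurableSet
  have g0 := good_restrict hKR
  have := g0.fin
  have hcomp := competitor hd hKm hKR hR hy hinj hm0 hm hψ hθf hθm hθε hT hopt hsum bT
  have hfinmap : IsFiniteMeasure ((volume.restrict K).map T) := by infer_instance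
  obtain ⟨w, hwm, hw0, hw1, hwae, hwε, hwint⟩ := exists_density hθf hθε hsum
  have hwae' : ∀ᵐ x ∂(volume.restrict K), ∑ k, w k (T x) = 1 := ae_of_ae_map hT.aemeasurable hwae
  set P : EuclideanSpace ℝ (Fin d) → EuclideanSpace ℝ (Fin d) := fun x => ∑ k, w k (T x) • y k
    with hP
  have hwT : ∀ k, Measurable (fun x => w k (T x)) := fun k => (hwm k).comp hT
  have hPm : Measurable P := Finset.measurable_fun_sum _ (fun k _ => (hwT k).smul_const _)
  have bP : ∀ x, ‖P x‖ ≤ R := fun x => norm_comb_le (fun k => hw0 k _) (hw1 _) hR hy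
  have hwb : ∀ k x, |w k (T x)| ≤ 1 := by
    intro k x
    rw [abs_of_nonneg (hw0 k _)]
    exact (Finset.single_le_sum (f := fun k => w k (T x)) (fun i _ => hw0 i _)
      (Finset.mem_univ k)).trans (hw1 _)
  set G : EuclideanSpace ℝ (Fin d) → ℝ :=
    fun x => ∑ k, (mx y ψ x - ⟪y k, x⟫ + ψ k) * w k (T x) with hG
  have hG0 : ∀ x, 0 ≤ G x := fun x => Finset.sum_nonneg (fun k _ =>
    mul_nonneg (by linarith [le_mx y ψ x k]) (hw0 k _))
  have cmx := continuous_mx (y := y) (ψ := ψ)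
  have hGi : IntegrableOn G K := integrable_finsetSum _ (fun k _ =>
    integrableOn_mul_bdd hKm hKR (hwT k) (hwb k) (by fun_prop))
  have hPclose : ∀ᵐ x ∂(volume.restrict K), ‖P x - T x‖ ≤ ε := by
    filter_upwards [hwae'] with x hx
    exact comb_close (fun k => hw0 k _) hx (fun k hk => hwε k _ hk)
  have hinP := inner_integrable hKm hKR hPm (Filter.Eventually.of_forall bP)
  have hPT := inner_close hKm hKR hPm hT (Filter.Eventually.of_forall bP) bT hPclose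
  have hGint : ∫ x in K, G x = Psi (volume.restrict K) y m ψ - ∫ x in K, ⟪P x, x⟫ := by
    have hiw : ∀ k, IntegrableOn (fun x => ψ k * w k (T x)) K := fun k =>
      integrableOn_mul_bdd hKm hKR (hwT k) (hwb k) continuous_const
    have e1 : ∫ x in K, G x = ∫ x in K, (mx y ψ x - ⟪P x, x⟫ + ∑ k, ψ k * w k (T x)) := by
      refine integral_congr_ae ?_
      filter_upwards [hwae'] with x hx
      exact comb_G hx x
    have i1 : IntegrableOn (mx y ψ) K := g0.integrable cmx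
    have i12 : IntegrableOn (fun x => mx y ψ x - ⟪P x, x⟫) K := i1.sub hinP
    have i3 : IntegrableOn (fun x => ∑ k, ψ k * w k (T x)) K :=
      integrable_finsetSum _ (fun k _ => hiw k)
    rw [e1, integral_add i12 i3, integral_sub i1 hinP, integral_finsetSum _ (fun k _ => hiw k)]
    have e2 : ∀ k, ∫ x in K, ψ k * w k (T x) = m k * ψ k := by
      intro k
      rw [integral_const_mul, ← hθm k, ← hwint k, integral_map hT.aemeasurable
        (hwm k).aestronglyMeasurable, mul_comm]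
    simp_rw [e2]
    unfold Psi
    ring
  have hgap : ∫ x in K, G x ≤ 2 * ε * R * volume.real K := by
    rw [hGint]; linarith
  have hsub1 : ∀ᵐ x ∂(volume.restrict K), ∀ x', mx y ψ x + ⟪P x, x' - x⟫ - G x ≤ mx y ψ x' := by
    filter_upwards [hwae'] with x hx
    intro x'
    exact comb_sub (fun k => hw0 k _) hx x x'
  have hsub2 : ∀ᵐ x ∂(volume.restrict K), ∀ x', mx y ψ x + ⟪Ty y ψ x, x' - x⟫ ≤ mx y ψ x' := by
    filter_upwards [ae_mem_scell g0 hinj (ψ := ψ)] with x hx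
    obtain ⟨k, hk⟩ := hx
    exact fun x' => Ty_sub hk x'
  have hmain := approx_sub hK hKc hr hball hh hhr hR (abs_mx_sub_le hy) cmx hPm measurable_Ty bP
    (Ty_norm hR hy) hG0 hGi hsub1 hsub2
  have hint : ∀ (U V : EuclideanSpace ℝ (Fin d) → EuclideanSpace ℝ (Fin d)), Measurable U →
      Measurable V → (∀ᵐ x ∂(volume.restrict K), ‖U x‖ ≤ R) →
      (∀ᵐ x ∂(volume.restrict K), ‖V x‖ ≤ R) → IntegrableOn (fun x => ‖U x - V x‖ ^ 2) K := by
    intro U V hU hV bU bV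
    refine Measure.integrableOn_of_bounded (finite_of_sub hKR le_rfl)
      (by fun_prop : Measurable (fun x => ‖U x - V x‖ ^ 2)).aestronglyMeasurable
      (M := (R + R) ^ 2) ?_
    filter_upwards [bU, bV] with x h1 h2
    rw [Real.norm_of_nonneg (by positivity)]
    exact pow_le_pow_left₀ (norm_nonneg _) ((norm_sub_le _ _).trans (add_le_add h1 h2)) 2
  have bTy : ∀ᵐ x ∂(volume.restrict K), ‖Ty y ψ x‖ ≤ R := Filter.Eventually.of_forall (Ty_norm hR hy)
  have bP' : ∀ᵐ x ∂(volume.restrict K), ‖P x‖ ≤ R := Filter.Eventually.of_forall bP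
  have i1 := hint T (Ty y ψ) hT measurable_Ty bT bTy
  have i2 := hint P (Ty y ψ) hPm measurable_Ty bP' bTy
  have i3 : IntegrableOn (fun x => 2 * ε ^ 2 + 2 * ‖P x - Ty y ψ x‖ ^ 2) K :=
    (integrable_const _).add (i2.const_mul 2)
  have hle : ∀ᵐ x ∂(volume.restrict K), ‖T x - Ty y ψ x‖ ^ 2 ≤
      2 * ε ^ 2 + 2 * ‖P x - Ty y ψ x‖ ^ 2 := by
    filter_upwards [hPclose] with x hx
    have h1 : ‖T x - Ty y ψ x‖ ≤ ‖P x - T x‖ + ‖P x - Ty y ψ x‖ := by
      have : T x - Ty y ψ x = -(P x - T x) + (P x - Ty y ψ x) := by abel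
      rw [this]
      refine (norm_add_le _ _).trans ?_
      rw [norm_neg]
    have h2 : ‖T x - Ty y ψ x‖ ^ 2 ≤ (‖P x - T x‖ + ‖P x - Ty y ψ x‖) ^ 2 :=
      pow_le_pow_left₀ (norm_nonneg _) h1 2
    have h3 : ‖P x - T x‖ ^ 2 ≤ ε ^ 2 := pow_le_pow_left₀ (norm_nonneg _) hx 2
    nlinarith [sq_nonneg (‖P x - T x‖ - ‖P x - Ty y ψ x‖)]
  have hfin := integral_mono_ae i1 i3 hle
  rw [integral_add (integrable_const _) (i2.const_mul 2), setIntegral_const, smul_eq_mul,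
    integral_const_mul] at hfin
  have hlast : d * (2 * R * (2 * R * h * (d * (h / r) * volume.real K) + ∫ x in K, G x) / h) ≤
      d * (2 * R * (2 * R * h * (d * (h / r) * volume.real K) +
        2 * ε * R * volume.real K) / h) := by
    gcongr
  calc _ ≤ _ := hfin
    _ ≤ _ := by linarith

end Vale.Agent.P074
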