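import Vale.Agent.P074.CellSum

/-!
# P074: Lipschitz dependence of cells on the source density
-/

namespace Vale.Agent.P074

open MeasureTheory
open scoped ENNReal NNReal RealInnerProductSpace

variable {d : ℕ} {ι : Type*} [Fintype ι]
  {K : Set (EuclideanSpace ℝ (Fin d))} {f : EuclideanSpace ℝ (Fin d) → ℝ} {m : ι → ℝ}
  {A B C : ι → Set (EuclideanSpace ℝ (Fin d))} {R lam : ℝ}

/-- weighted masses of cells -/
noncomputable def wm (lam : ℝ) (S : Set (EuclideanSpace ℝ (Fin d))) : ℝ := ∫ x in S, gw lam x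

/-- difference of weighted averages -/
noncomputable def wD (lam : ℝ) (S T : Set (EuclideanSpace ℝ (Fin d)))
    (g : EuclideanSpace ℝ (Fin d) → ℝ) : ℝ :=
  (∫ x in S, gw lam x * g x) / wm lam S - (∫ x in T, gw lam x * g x) / wm lam T

lemma CellData.main_g (h : CellData K f m A B C) (hKR : K ⊆ Metric.closedBall 0 R)
    (hf : Measurable f) (hf2 : ∀ x, |f x| ≤ 1 / 2) (hlam : 0 < lam)
    (hlR : lam * R ^ 2 ≤ 1 / 512) (g : ι → EuclideanSpace ℝ (Fin d) → ℝ)
    (hg : ∀ i, Continuous (g i)) (hlip : ∀ i, ∀ x ∈ K, ∀ y ∈ K, |g i x - g i y| ≤ ‖x - y‖) :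
    ∑ i, wm lam (A i) * (lam * wD lam (A i) (B i) (g i) ^ 2 / 16) ≤
      ∑ i, (wm lam (A i) - wm lam (B i)) ^ 2 / (2 * wm lam (A i)) := by
  have hF := fun i => h.facts hKR hf hf2 hlam hlR i
  have ha : ∀ i, 0 < wm lam (A i) := fun i => by
    have := h.pos i
    have := (hF i).1
    unfold wm
    linarith
  have hb : ∀ i, 0 < wm lam (B i) := fun i => by
    have := h.pos i
    have := (hF i).2.2.2.2.1
    unfold wm
    linarith
  have igK : IntegrableOn (gw lam : EuclideanSpace ℝ (Fin d) → ℝ) K :=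
    integrableOn_of_continuous (continuous_gw lam) hKR
  have sA : ∑ i, wm lam (A i) = ∫ x in K, gw lam x := sum_integral_eq h.mA h.subA h.dA h.fullA igK
  have sB : ∑ i, wm lam (B i) = ∫ x in K, gw lam x := sum_integral_eq h.mB h.subB h.dB h.fullB igK
  refine num_sum (c := fun i => wm lam (C i)) hlam ha ?_ (sA.trans sB.symm) ?_ ?_
  · intro i
    have h1 := (hF i).2.1
    have h2 := (hF i).2.2.2.2.1
    have := h.pos i
    unfold wm
    linarith
  · rw [sA]
    have : ∑ i, wm lam (C i) = ∫ x in ⋃ i, C i, gw lam x :=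
      (integral_iUnion_fintype h.mC h.dC (fun i => igK.mono_set (h.subC i))).symm
    rw [this]
    exact setIntegral_mono_set igK (Filter.Eventually.of_forall (fun x => (gw_pos lam x).le))
      (LE.le.eventuallyLE (Set.iUnion_subset h.subC))
  · intro i
    exact cell_ineq (h.mA i) (h.mB i) (h.mC i) ((h.subA i).trans hKR) ((h.subB i).trans hKR)
      ((h.subC i).trans hKR) (h.mid i) hlam (hg i)
      (fun x hx y hy => hlip i x (h.subA i hx) y (h.subB i hy)) (ha i) (hb i)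

lemma exp_sub_exp_le (p q : ℝ) : Real.exp p - Real.exp q ≤ Real.exp p * (p - q) := by
  have h1 := Real.add_one_le_exp (q - p)
  have h2 : Real.exp q = Real.exp p * Real.exp (q - p) := by
    rw [← Real.exp_add]; congr 1; ring
  rw [h2]
  have := Real.exp_pos p
  nlinarith

/-- inverse weight -/
noncomputable def iw (lam : ℝ) (x : EuclideanSpace ℝ (Fin d)) : ℝ :=
  Real.exp (lam * ‖x‖ ^ 2 / 2)

lemma continuous_iw (lam : ℝ) : Continuous (iw lam : EuclideanSpace ℝ (Fin d) → ℝ) := by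
  unfold iw; fun_prop

lemma gw_mul_iw (lam : ℝ) (x : EuclideanSpace ℝ (Fin d)) : gw lam x * iw lam x = 1 := by
  unfold gw iw
  rw [← Real.exp_add]
  simp

lemma iw_bounds {R lam : ℝ} (hlam : 0 < lam) (hlR : lam * R ^ 2 ≤ 1 / 512)
    {x : EuclideanSpace ℝ (Fin d)} (hx : ‖x‖ ≤ R) : 0 < iw lam x ∧ iw lam x ≤ 102 / 100 := by
  refine ⟨Real.exp_pos _, ?_⟩
  have h1 := (gw_bounds hlam hlR hx).1
  have h2 := gw_mul_iw lam x
  have h3 : 0 < iw lam x := Real.exp_pos _
  by_contra hcon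
  push Not at hcon
  nlinarith

lemma iw_lip {R lam : ℝ} (hlam : 0 < lam) (hlR : lam * R ^ 2 ≤ 1 / 512)
    {x y : EuclideanSpace ℝ (Fin d)} (hx : ‖x‖ ≤ R) (hy : ‖y‖ ≤ R) :
    |iw lam x - iw lam y| ≤ 102 / 100 * (lam * R) * ‖x - y‖ := by
  have aux : ∀ x y : EuclideanSpace ℝ (Fin d), ‖x‖ ≤ R → ‖y‖ ≤ R →
      iw lam x - iw lam y ≤ 102 / 100 * (lam * R) * ‖x - y‖ := by
    intro x y hx hy
    have hR0 : 0 ≤ R := (norm_nonneg x).trans hx
    have h1 : iw lam x - iw lam y ≤ iw lam x * (lam * ‖x‖ ^ 2 / 2 - lam * ‖y‖ ^ 2 / 2) :=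
      exp_sub_exp_le _ _
    have h2 := iw_bounds hlam hlR hx
    have h3 : ‖x‖ ^ 2 - ‖y‖ ^ 2 ≤ 2 * R * ‖x - y‖ := by
      have h4 : ‖x‖ - ‖y‖ ≤ ‖x - y‖ := norm_sub_norm_le x y
      have h5 : ‖x‖ ^ 2 - ‖y‖ ^ 2 = (‖x‖ - ‖y‖) * (‖x‖ + ‖y‖) := by ring
      rw [h5]
      have h6 : 0 ≤ ‖x‖ + ‖y‖ := by positivity
      have h7 : ‖x‖ + ‖y‖ ≤ 2 * R := by linarith
      calc (‖x‖ - ‖y‖) * (‖x‖ + ‖y‖) ≤ ‖x - y‖ * (‖x‖ + ‖y‖) :=
            mul_le_mul_of_nonneg_right h4 h6
        _ ≤ ‖x - y‖ * (2 * R) := mul_le_mul_of_nonneg_left h7 (norm_nonneg _)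
        _ = _ := by ring
    have h8 : lam * ‖x‖ ^ 2 / 2 - lam * ‖y‖ ^ 2 / 2 ≤ lam * R * ‖x - y‖ := by
      nlinarith
    have h9 : 0 ≤ lam * R * ‖x - y‖ := by positivity
    calc iw lam x - iw lam y ≤ iw lam x * (lam * ‖x‖ ^ 2 / 2 - lam * ‖y‖ ^ 2 / 2) := h1
      _ ≤ iw lam x * (lam * R * ‖x - y‖) := mul_le_mul_of_nonneg_left h8 h2.1.le
      _ ≤ 102 / 100 * (lam * R * ‖x - y‖) := mul_le_mul_of_nonneg_right h2.2 h9
      _ = _ := by ring
  rw [abs_le]
  constructor
  · have := aux y x hy hx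
    rw [norm_sub_rev] at this
    linarith
  · exact aux x y hx hy

/-- the basic bound on the difference of the weighted masses -/
lemma CellData.mass_diff (h : CellData K f m A B C) (hK : MeasurableSet K)
    (hKR : K ⊆ Metric.closedBall 0 R) (hR : 0 < R)
    (hf : Measurable f) (hf2 : ∀ x, |f x| ≤ 1 / 2) (hlam : 0 < lam)
    (hlR : lam * R ^ 2 ≤ 1 / 512) :
    ∑ i, (wm lam (A i) - wm lam (B i)) ^ 2 / (2 * wm lam (A i)) ≤
      4 * ∫ x in K, f x ^ 2 := by
  set g0 : EuclideanSpace ℝ (Fin d) → ℝ := fun x => iw lam x / (2 * lam * R) with hg0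
  have hF := fun i => h.facts hKR hf hf2 hlam hlR i
  have hmain := h.main_g hKR hf hf2 hlam hlR (fun _ => g0) (fun _ => by
    have := continuous_iw (d := d) lam
    fun_prop) (fun _ x hx y hy => by
      have h1 : ‖x‖ ≤ R := by simpa using hKR hx
      have h2 : ‖y‖ ≤ R := by simpa using hKR hy
      have h3 := iw_lip hlam hlR h1 h2
      rw [hg0]
      simp only
      rw [← sub_div, abs_div, abs_of_pos (by positivity : 0 < 2 * lam * R),
        div_le_iff₀ (by positivity)]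
      have : 0 ≤ lam * R * ‖x - y‖ := by positivity
      linarith)
  have hfK : IntegrableOn (fun x => f x ^ 2) K := by
    refine integrableOn_bdd hK (finite_of_sub hKR le_rfl) (by fun_prop) (q := 1) (fun x _ => ?_)
    have := abs_le.1 (hf2 x)
    rw [abs_le]; constructor <;> nlinarith
  -- per-cell inequality
  have key : ∀ i, (wm lam (A i) - wm lam (B i)) ^ 2 / (2 * wm lam (A i)) ≤
      wm lam (A i) * (lam * wD lam (A i) (B i) g0 ^ 2 / 16) / 2 + 2 * ∫ x in B i, f x ^ 2 := by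
    intro i
    obtain ⟨f1, f2, f3, f4, f5, f6⟩ := hF i
    have hm := h.pos i
    have hBfin := finite_of_sub hKR (h.subB i)
    change 99 / 100 * m i ≤ wm lam (A i) at f1
    change wm lam (A i) ≤ m i at f2
    change 66 / 100 * m i ≤ wm lam (B i) at f5
    change wm lam (B i) ≤ 2 * m i at f6
    set a := wm lam (A i) with ha
    set b := wm lam (B i) with hb
    have ha0 : 0 < a := by linarith
    have hb0 : 0 < b := by linarith
    have hbf : IntegrableOn f (B i) := integrableOn_bdd (h.mB i) hBfin hf (fun x _ => hf2 x)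
    set β := ∫ x in B i, f x with hβ
    have hβ1 : volume.real (B i) + β = m i := by
      have ic : IntegrableOn (fun _ : EuclideanSpace ℝ (Fin d) => (1 : ℝ)) (B i) :=
        integrableOn_const (hs := hBfin)
      rw [← h.massB i, integral_add ic hbf, setIntegral_const, smul_eq_mul, mul_one]
    have hβ2 : β ^ 2 ≤ volume.real (B i) * ∫ x in B i, f x ^ 2 := by
      have hfin : IsFiniteMeasure (volume.restrict (B i)) := ⟨by
        rw [Measure.restrict_apply_univ]; exact hBfin.lt_top⟩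
      have := cs_const (volume.restrict (B i)) hbf (hfK.mono_set (h.subB i))
      rwa [measureReal_def, Measure.restrict_apply_univ, ← measureReal_def] at this
    set Q := ∫ x in B i, f x ^ 2 with hQ
    have hQ0 : 0 ≤ Q := integral_nonneg (fun x => sq_nonneg _)
    have hD : wD lam (A i) (B i) g0 = (m i / a - volume.real (B i) / b) / (2 * lam * R) := by
      have e1 : ∀ S : Set (EuclideanSpace ℝ (Fin d)), ∫ x in S, gw lam x * g0 x =
          volume.real S / (2 * lam * R) := by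
        intro S
        have : ∀ x : EuclideanSpace ℝ (Fin d), gw lam x * g0 x = 1 / (2 * lam * R) := by
          intro x
          rw [hg0]
          simp only
          rw [← mul_div_assoc, gw_mul_iw]
        simp_rw [this]
        rw [setIntegral_const, smul_eq_mul]
        ring
      unfold wD
      rw [e1, e1, h.massA i, ← ha, ← hb]
      ring
    set Dd := wD lam (A i) (B i) g0 with hDd
    -- b - a = 2 lam R a b D / m - a β / m
    have e2 : b - a = 2 * lam * R * (a * b / m i) * Dd - a * β / m i := by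
      rw [hD]
      have : volume.real (B i) = m i - β := by linarith
      rw [this]
      field_simp
      ring
    have e3 : (a - b) ^ 2 ≤ 2 * (2 * lam * R * (a * b / m i) * Dd) ^ 2 + 2 * (a * β / m i) ^ 2 := by
      have : (a - b) ^ 2 = (b - a) ^ 2 := by ring
      rw [this, e2]
      nlinarith [sq_nonneg (2 * lam * R * (a * b / m i) * Dd + a * β / m i)]
    have e4 : a * b / m i ≤ 2 * a := by
      rw [div_le_iff₀ hm]
      nlinarith
    have e5 : (2 * lam * R * (a * b / m i) * Dd) ^ 2 ≤ (4 * lam * R * a * Dd) ^ 2 := by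
      have h1 : 2 * lam * R * (a * b / m i) ≤ 4 * lam * R * a := by
        calc 2 * lam * R * (a * b / m i) ≤ 2 * lam * R * (2 * a) := by gcongr
          _ = _ := by ring
      rw [mul_pow, mul_pow (4 * lam * R * a)]
      gcongr
    have e6 : (4 * lam * R * a * Dd) ^ 2 ≤ lam * a ^ 2 * Dd ^ 2 / 32 := by
      have h1 : (4 * lam * R * a * Dd) ^ 2 = 16 * (lam * R ^ 2) * (lam * a ^ 2 * Dd ^ 2) := by ring
      rw [h1]
      have : 0 ≤ lam * a ^ 2 * Dd ^ 2 := by positivity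
      nlinarith
    have e7 : (a * β / m i) ^ 2 ≤ 2 * a * Q := by
      rw [div_pow, div_le_iff₀ (by positivity), mul_pow]
      have h1 : β ^ 2 ≤ 2 * m i * Q := by
        calc β ^ 2 ≤ volume.real (B i) * Q := hβ2
          _ ≤ 2 * m i * Q := by gcongr
      calc a ^ 2 * β ^ 2 ≤ a ^ 2 * (2 * m i * Q) := by gcongr
        _ = 2 * a * Q * (a * m i) := by ring
        _ ≤ 2 * a * Q * (m i ^ 2) := by
            apply mul_le_mul_of_nonneg_left _ (by positivity)
            nlinarith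
    rw [div_le_iff₀ (by positivity)]
    calc (a - b) ^ 2 ≤ 2 * (2 * lam * R * (a * b / m i) * Dd) ^ 2 + 2 * (a * β / m i) ^ 2 := e3
      _ ≤ 2 * (lam * a ^ 2 * Dd ^ 2 / 32) + 2 * (2 * a * Q) := by linarith
      _ = (a * (lam * Dd ^ 2 / 16) / 2 + 2 * Q) * (2 * a) := by ring
  have hsum := Finset.sum_le_sum (fun i (_ : i ∈ Finset.univ) => key i)
  rw [Finset.sum_add_distrib, ← Finset.sum_div, ← Finset.mul_sum,
    sum_integral_eq h.mB h.subB h.dB h.fullB hfK] at hsum
  linarith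

/-- the test functions -/
noncomputable def gtest (lam : ℝ) (e : EuclideanSpace ℝ (Fin d)) (x : EuclideanSpace ℝ (Fin d)) : ℝ :=
  iw lam x * ⟪e, x⟫ / 2

lemma gtest_lip {R lam : ℝ} (hlam : 0 < lam) (hlR : lam * R ^ 2 ≤ 1 / 512)
    {e : EuclideanSpace ℝ (Fin d)} (he : ‖e‖ ≤ 1)
    {x y : EuclideanSpace ℝ (Fin d)} (hx : ‖x‖ ≤ R) (hy : ‖y‖ ≤ R) :
    |gtest lam e x - gtest lam e y| ≤ ‖x - y‖ := by
  have h1 := iw_lip hlam hlR hx hy
  have h2 := iw_bounds hlam hlR hx
  have h3 : |⟪e, x - y⟫| ≤ ‖x - y‖ := by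
    refine (abs_real_inner_le_norm _ _).trans ?_
    calc ‖e‖ * ‖x - y‖ ≤ 1 * ‖x - y‖ := by gcongr
      _ = _ := one_mul _
  have h4 : |⟪e, y⟫| ≤ R := by
    refine (abs_real_inner_le_norm _ _).trans ?_
    calc ‖e‖ * ‖y‖ ≤ 1 * R := by gcongr
      _ = _ := one_mul _
  have hR0 : 0 ≤ R := (norm_nonneg x).trans hx
  have h5 : gtest lam e x - gtest lam e y =
      iw lam x * ⟪e, x - y⟫ / 2 + (iw lam x - iw lam y) * ⟪e, y⟫ / 2 := by
    unfold gtest
    rw [inner_sub_right]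
    ring
  have h6 : |iw lam x * ⟪e, x - y⟫ / 2| ≤ 102 / 100 * ‖x - y‖ / 2 := by
    rw [abs_div, abs_mul, abs_of_pos h2.1, abs_of_pos (by norm_num : (0 : ℝ) < 2)]
    have : iw lam x * |⟪e, x - y⟫| ≤ 102 / 100 * ‖x - y‖ :=
      mul_le_mul h2.2 h3 (abs_nonneg _) (by norm_num)
    linarith
  have h7 : |(iw lam x - iw lam y) * ⟪e, y⟫ / 2| ≤ 102 / 100 * (1 / 512) * ‖x - y‖ / 2 := by
    rw [abs_div, abs_mul, abs_of_pos (by norm_num : (0 : ℝ) < 2)]
    have : |iw lam x - iw lam y| * |⟪e, y⟫| ≤ (102 / 100 * (lam * R) * ‖x - y‖) * R :=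
      mul_le_mul h1 h4 (abs_nonneg _) (by positivity)
    have h8 : (102 / 100 * (lam * R) * ‖x - y‖) * R ≤ 102 / 100 * (1 / 512) * ‖x - y‖ := by
      calc (102 / 100 * (lam * R) * ‖x - y‖) * R = 102 / 100 * (lam * R ^ 2) * ‖x - y‖ := by ring
        _ ≤ _ := by gcongr
    linarith
  rw [h5]
  refine (abs_add_le _ _).trans ?_
  have := norm_nonneg (x - y)
  linarith

lemma gtest_bound {R lam : ℝ} (hlam : 0 < lam) (hlR : lam * R ^ 2 ≤ 1 / 512)
    {e : EuclideanSpace ℝ (Fin d)} (he : ‖e‖ ≤ 1)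
    {x : EuclideanSpace ℝ (Fin d)} (hx : ‖x‖ ≤ R) : |gtest lam e x| ≤ R := by
  have h2 := iw_bounds hlam hlR hx
  have hR0 : 0 ≤ R := (norm_nonneg x).trans hx
  have h4 : |⟪e, x⟫| ≤ R := by
    refine (abs_real_inner_le_norm _ _).trans ?_
    calc ‖e‖ * ‖x‖ ≤ 1 * R := by gcongr
      _ = _ := one_mul _
  unfold gtest
  rw [abs_div, abs_mul, abs_of_pos h2.1, abs_of_pos (by norm_num : (0 : ℝ) < 2)]
  have : iw lam x * |⟪e, x⟫| ≤ 102 / 100 * R := mul_le_mul h2.2 h4 (abs_nonneg _) (by norm_num)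
  linarith

lemma continuous_gtest (lam : ℝ) (e : EuclideanSpace ℝ (Fin d)) : Continuous (gtest lam e) := by
  unfold gtest
  have := continuous_iw (d := d) lam
  fun_prop

end Vale.Agent.P074
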