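import Vale.Agent.P074.PL

/-!
# P074: the basic inequality for a pair of cells
-/

namespace Vale.Agent.P074

open MeasureTheory
open scoped ENNReal NNReal RealInnerProductSpace

variable {d : ℕ}

/-- gaussian weight -/
noncomputable def gw (lam : ℝ) (x : EuclideanSpace ℝ (Fin d)) : ℝ :=
  Real.exp (-(lam * ‖x‖ ^ 2 / 2))

lemma gw_pos (lam : ℝ) (x : EuclideanSpace ℝ (Fin d)) : 0 < gw lam x := Real.exp_pos _

lemma continuous_gw (lam : ℝ) : Continuous (gw lam : EuclideanSpace ℝ (Fin d) → ℝ) := by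
  unfold gw; fun_prop

lemma integrableOn_of_continuous {f : EuclideanSpace ℝ (Fin d) → ℝ} (hf : Continuous f)
    {A : Set (EuclideanSpace ℝ (Fin d))} {R : ℝ} (hA : A ⊆ Metric.closedBall 0 R) :
    IntegrableOn f A := by
  refine IntegrableOn.mono_set ?_ hA
  exact hf.continuousOn.integrableOn_compact (isCompact_closedBall _ _)

lemma jensen_exp {A : Set (EuclideanSpace ℝ (Fin d))} {R : ℝ}
    (hA : A ⊆ Metric.closedBall 0 R) {w g : EuclideanSpace ℝ (Fin d) → ℝ} (hw : Continuous w)
    (hg : Continuous g) (hw0 : ∀ x, 0 ≤ w x) (ha : 0 < ∫ x in A, w x) (t : ℝ) :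
    (∫ x in A, w x) * Real.exp (t * ((∫ x in A, w x * g x) / ∫ x in A, w x)) ≤
      ∫ x in A, w x * Real.exp (t * g x) := by
  set a := ∫ x in A, w x with hadef
  set G := (∫ x in A, w x * g x) / a with hGdef
  have h1 : ∀ x, Real.exp (t * G) * (w x * (1 + t * g x - t * G)) ≤ w x * Real.exp (t * g x) := by
    intro x
    have h2 : Real.exp (t * g x) = Real.exp (t * G) * Real.exp (t * g x - t * G) := by
      rw [← Real.exp_add]; congr 1; ring
    have h3 := Real.add_one_le_exp (t * g x - t * G)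
    rw [h2]
    have h4 := Real.exp_pos (t * G)
    have h5 : w x * (1 + t * g x - t * G) ≤ w x * Real.exp (t * g x - t * G) :=
      mul_le_mul_of_nonneg_left (by linarith) (hw0 x)
    calc Real.exp (t * G) * (w x * (1 + t * g x - t * G))
        ≤ Real.exp (t * G) * (w x * Real.exp (t * g x - t * G)) :=
          mul_le_mul_of_nonneg_left h5 h4.le
      _ = _ := by ring
  have i1 : IntegrableOn (fun x => Real.exp (t * G) * (w x * (1 + t * g x - t * G))) A :=
    integrableOn_of_continuous (by fun_prop) hA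
  have i2 : IntegrableOn (fun x => w x * Real.exp (t * g x)) A :=
    integrableOn_of_continuous (by fun_prop) hA
  have iw : IntegrableOn (fun x => w x) A := integrableOn_of_continuous hw hA
  have iwg : IntegrableOn (fun x => w x * g x) A := integrableOn_of_continuous (by fun_prop) hA
  have h6 := integral_mono i1 i2 h1
  have h7 : ∫ x in A, Real.exp (t * G) * (w x * (1 + t * g x - t * G)) =
      Real.exp (t * G) * a := by
    rw [integral_const_mul]
    congr 1
    have : ∀ x, w x * (1 + t * g x - t * G) = (1 - t * G) * w x + t * (w x * g x) := by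
      intro x; ring
    simp_rw [this]
    rw [integral_add (iw.const_mul _) (iwg.const_mul _), integral_const_mul, integral_const_mul,
      ← hadef]
    have : ∫ x in A, w x * g x = G * a := by
      rw [hGdef, div_mul_cancel₀ _ ha.ne']
    rw [this]; ring
  rw [h7] at h6
  linarith

/-- The basic inequality: if midpoints of points of `A` and `B` lie in `C`, then the weighted masses
satisfy a strengthened geometric-mean inequality. -/
lemma cell_ineq {A B C : Set (EuclideanSpace ℝ (Fin d))} (hAm : MeasurableSet A)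
    (hBm : MeasurableSet B) (hCm : MeasurableSet C) {R : ℝ} (hA : A ⊆ Metric.closedBall 0 R)
    (hB : B ⊆ Metric.closedBall 0 R) (hC : C ⊆ Metric.closedBall 0 R)
    (hmid : ∀ x ∈ A, ∀ y ∈ B, (1 / 2 : ℝ) • (x + y) ∈ C) {lam : ℝ} (hlam : 0 < lam)
    {g : EuclideanSpace ℝ (Fin d) → ℝ} (hg : Continuous g)
    (hlip : ∀ x ∈ A, ∀ y ∈ B, |g x - g y| ≤ ‖x - y‖)
    (ha : 0 < ∫ x in A, gw lam x) (hb : 0 < ∫ x in B, gw lam x) :
    √((∫ x in A, gw lam x) * ∫ x in B, gw lam x) *
      Real.exp (lam * ((∫ x in A, gw lam x * g x) / (∫ x in A, gw lam x) -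
        (∫ x in B, gw lam x * g x) / (∫ x in B, gw lam x)) ^ 2 / 8) ≤ ∫ x in C, gw lam x := by
  set a := ∫ x in A, gw lam x with hadef
  set b := ∫ x in B, gw lam x with hbdef
  set c := ∫ x in C, gw lam x with hcdef
  set D := (∫ x in A, gw lam x * g x) / a - (∫ x in B, gw lam x * g x) / b with hD
  set t := lam * D / 2 with ht
  have hcont := continuous_gw (d := d) lam
  have hw0 : ∀ x : EuclideanSpace ℝ (Fin d), 0 ≤ gw lam x := fun x => (gw_pos lam x).le
  have hc0 : 0 ≤ c := integral_nonneg (fun x => hw0 x)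
  -- Jensen
  have j1 := jensen_exp hA hcont hg hw0 ha t
  have j2 := jensen_exp hB hcont hg hw0 hb (-t)
  -- Prekopa-Leindler
  set F : EuclideanSpace ℝ (Fin d) → ℝ≥0∞ :=
    A.indicator (fun x => ENNReal.ofReal (gw lam x * Real.exp (t * g x))) with hF
  set G : EuclideanSpace ℝ (Fin d) → ℝ≥0∞ :=
    B.indicator (fun x => ENNReal.ofReal (gw lam x * Real.exp (-t * g x))) with hG
  set H : EuclideanSpace ℝ (Fin d) → ℝ≥0∞ :=
    C.indicator (fun x => ENNReal.ofReal (Real.exp (t ^ 2 / (2 * lam)) * gw lam x)) with hH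
  have mF : Measurable F := by
    refine Measurable.indicator ?_ hAm
    exact ENNReal.measurable_ofReal.comp (by fun_prop : Continuous _).measurable
  have mG : Measurable G := by
    refine Measurable.indicator ?_ hBm
    exact ENNReal.measurable_ofReal.comp (by fun_prop : Continuous _).measurable
  have mH : Measurable H := by
    refine Measurable.indicator ?_ hCm
    exact ENNReal.measurable_ofReal.comp (by fun_prop : Continuous _).measurable
  have hpl := pl_euclid d F G H mF mG mH (by
    intro x y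
    by_cases hx : x ∈ A
    swap
    · rw [hF, Set.indicator_of_notMem hx, zero_mul]; exact zero_le
    by_cases hy : y ∈ B
    swap
    · rw [hG, Set.indicator_of_notMem hy, mul_zero]; exact zero_le
    rw [hF, hG, hH, Set.indicator_of_mem hx, Set.indicator_of_mem hy,
      Set.indicator_of_mem (hmid x hx y hy),
      ← ENNReal.ofReal_mul (mul_nonneg (hw0 x) (Real.exp_pos _).le),
      ← ENNReal.ofReal_pow (mul_nonneg (Real.exp_pos _).le (hw0 _))]
    apply ENNReal.ofReal_le_ofReal
    unfold gw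
    rw [← Real.exp_add, ← Real.exp_add, ← Real.exp_add, ← Real.exp_add, ← Real.exp_nat_mul]
    apply Real.exp_le_exp.2
    have e1 : ‖(1 / 2 : ℝ) • (x + y)‖ ^ 2 = (‖x‖ ^ 2 + ‖y‖ ^ 2) / 2 - ‖x - y‖ ^ 2 / 4 := by
      rw [norm_smul, mul_pow, @norm_add_sq_real, @norm_sub_sq_real]
      norm_num
      ring
    have e2 := hlip x hx y hy
    have e3 : t * (g x - g y) ≤ |t| * ‖x - y‖ := by
      calc t * (g x - g y) ≤ |t * (g x - g y)| := le_abs_self _
        _ = |t| * |g x - g y| := abs_mul _ _
        _ ≤ |t| * ‖x - y‖ := by gcongr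
    have e4 : |t| * ‖x - y‖ ≤ t ^ 2 / lam + lam * ‖x - y‖ ^ 2 / 4 := by
      have h1 : 0 ≤ (|t| - lam * ‖x - y‖ / 2) ^ 2 / lam := by positivity
      have h2 : (|t| - lam * ‖x - y‖ / 2) ^ 2 / lam =
          t ^ 2 / lam + lam * ‖x - y‖ ^ 2 / 4 - |t| * ‖x - y‖ := by
        have : |t| ^ 2 = t ^ 2 := sq_abs t
        field_simp
        nlinarith [this]
      linarith
    have e5 : t ^ 2 / (2 * lam) = t ^ 2 / lam / 2 := by field_simp
    rw [e1, e5]
    push_cast
    nlinarith [e3, e4])
  have conv : ∀ (S : Set (EuclideanSpace ℝ (Fin d))) (f : EuclideanSpace ℝ (Fin d) → ℝ),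
      MeasurableSet S → S ⊆ Metric.closedBall 0 R → Continuous f → (∀ x, 0 ≤ f x) →
      ∫⁻ x, S.indicator (fun x => ENNReal.ofReal (f x)) x = ENNReal.ofReal (∫ x in S, f x) := by
    intro S f hS hSR hf hf0
    rw [lintegral_indicator hS, ofReal_integral_eq_lintegral_ofReal
      (integrableOn_of_continuous hf hSR) (Filter.Eventually.of_forall hf0)]
  have cF := conv A (fun x => gw lam x * Real.exp (t * g x)) hAm hA (by fun_prop)
    (fun x => mul_nonneg (hw0 x) (Real.exp_pos _).le)
  have cG := conv B (fun x => gw lam x * Real.exp (-t * g x)) hBm hB (by fun_prop)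
    (fun x => mul_nonneg (hw0 x) (Real.exp_pos _).le)
  have cH := conv C (fun x => Real.exp (t ^ 2 / (2 * lam)) * gw lam x) hCm hC (by fun_prop)
    (fun x => mul_nonneg (Real.exp_pos _).le (hw0 x))
  rw [cF, cG, cH, ← ENNReal.ofReal_mul (integral_nonneg (fun x => mul_nonneg (hw0 x)
    (Real.exp_pos _).le)), ← ENNReal.ofReal_pow (integral_nonneg (fun x =>
    mul_nonneg (Real.exp_pos _).le (hw0 x))), ENNReal.ofReal_le_ofReal_iff (by positivity),
    integral_const_mul, ← hcdef] at hpl
  have e6 : a * b * Real.exp (lam * D ^ 2 / 4) ≤ c ^ 2 := by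
    have h1 : (a * Real.exp (t * ((∫ x in A, gw lam x * g x) / a))) *
        (b * Real.exp (-t * ((∫ x in B, gw lam x * g x) / b))) ≤
        (Real.exp (t ^ 2 / (2 * lam)) * c) ^ 2 :=
      (mul_le_mul j1 j2 (by positivity) (integral_nonneg (fun x => mul_nonneg (hw0 x)
        (Real.exp_pos _).le))).trans hpl
    have h2 : (a * Real.exp (t * ((∫ x in A, gw lam x * g x) / a))) *
        (b * Real.exp (-t * ((∫ x in B, gw lam x * g x) / b))) =
        a * b * Real.exp (t * D) := by
      rw [hD, mul_sub, sub_eq_add_neg, Real.exp_add]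
      rw [neg_mul]
      ring
    have h3 : (Real.exp (t ^ 2 / (2 * lam)) * c) ^ 2 = Real.exp (t ^ 2 / lam) * c ^ 2 := by
      rw [mul_pow, ← Real.exp_nat_mul]
      congr 2
      push_cast
      field_simp
    rw [h2, h3] at h1
    have h4 : t * D = t ^ 2 / lam + lam * D ^ 2 / 4 := by
      rw [ht]; field_simp; ring
    rw [h4, Real.exp_add] at h1
    have h5 := Real.exp_pos (t ^ 2 / lam)
    have h6 : Real.exp (t ^ 2 / lam) * (a * b * Real.exp (lam * D ^ 2 / 4)) ≤
        Real.exp (t ^ 2 / lam) * c ^ 2 := by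
      calc _ = a * b * (Real.exp (t ^ 2 / lam) * Real.exp (lam * D ^ 2 / 4)) := by ring
        _ ≤ _ := h1
    exact le_of_mul_le_mul_left h6 h5
  have e7 : (√(a * b) * Real.exp (lam * D ^ 2 / 8)) ^ 2 ≤ c ^ 2 := by
    rw [mul_pow, Real.sq_sqrt (by positivity), ← Real.exp_nat_mul]
    refine le_trans (le_of_eq ?_) e6
    congr 2
    push_cast
    ring
  exact le_of_sq_le_sq e7 hc0

end Vale.Agent.P074
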