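import Vale.Agent.P074.CellPL

/-!
# P074: summing the cell inequality
-/

namespace Vale.Agent.P074

open MeasureTheory
open scoped ENNReal NNReal RealInnerProductSpace

variable {d : ℕ} {ι : Type*} [Fintype ι]

/-- purely numerical consequence of the cell inequality -/
lemma num_sum {a b c D : ι → ℝ} {lam : ℝ} (hlam : 0 < lam) (ha : ∀ i, 0 < a i)
    (hba : ∀ i, a i / 4 ≤ b i) (hsum : ∑ i, a i = ∑ i, b i) (hc : ∑ i, c i ≤ ∑ i, a i)
    (h : ∀ i, √(a i * b i) * Real.exp (lam * D i ^ 2 / 8) ≤ c i) :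
    ∑ i, a i * (lam * D i ^ 2 / 16) ≤ ∑ i, (a i - b i) ^ 2 / (2 * a i) := by
  have hb : ∀ i, 0 < b i := fun i => lt_of_lt_of_le (by have := ha i; positivity) (hba i)
  have key : ∀ i, a i * (lam * D i ^ 2 / 16) ≤ (a i - b i) ^ 2 / (2 * a i) +
      (c i - (a i + b i) / 2) := by
    intro i
    have hai := ha i
    have hbi := hb i
    have hs0 : 0 ≤ √(a i * b i) := Real.sqrt_nonneg _
    have hs2 : √(a i * b i) ^ 2 = a i * b i := Real.sq_sqrt (by positivity)
    set s := √(a i * b i) with hs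
    have h1 : s * (1 + lam * D i ^ 2 / 8) ≤ c i := by
      refine le_trans ?_ (h i)
      have := Real.add_one_le_exp (lam * D i ^ 2 / 8)
      exact mul_le_mul_of_nonneg_left (by linarith) hs0
    have h2 : a i / 2 ≤ s := by
      apply le_of_sq_le_sq _ hs0
      rw [hs2]
      nlinarith [hba i]
    have h3 : (a i + b i) / 2 - s ≤ (a i - b i) ^ 2 / (2 * a i) := by
      rw [le_div_iff₀ (by positivity)]
      -- (a+b-2s) * a <= (a-b)^2, where s^2 = ab
      have h4 : (a i - b i) ^ 2 = (a i + b i - 2 * s) * (a i + b i + 2 * s) := by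
        nlinarith [hs2]
      have h5 : 0 ≤ a i + b i - 2 * s := by
        by_contra hcon
        push Not at hcon
        have : (a i + b i) ^ 2 < (2 * s) ^ 2 := by
          apply pow_lt_pow_left₀ (by linarith) (by positivity) (by norm_num)
        nlinarith [sq_nonneg (a i - b i), hs2]
      rw [h4]
      nlinarith
    have h6 : a i * (lam * D i ^ 2 / 16) ≤ s * (lam * D i ^ 2 / 8) := by
      have : 0 ≤ lam * D i ^ 2 := by positivity
      nlinarith
    linarith
  have h1 := Finset.sum_le_sum (fun i (_ : i ∈ Finset.univ) => key i)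
  rw [Finset.sum_add_distrib, Finset.sum_sub_distrib, ← Finset.sum_div, Finset.sum_add_distrib] at h1
  linarith

/-- Cauchy-Schwarz against the constant -/
lemma cs_const {α : Type*} {mα : MeasurableSpace α} (ν : Measure α) [IsFiniteMeasure ν]
    {h : α → ℝ} (h1 : Integrable h ν) (h2 : Integrable (fun x => h x ^ 2) ν) :
    (∫ x, h x ∂ν) ^ 2 ≤ ν.real Set.univ * ∫ x, h x ^ 2 ∂ν := by
  set V := ν.real Set.univ with hV
  set I := ∫ x, h x ∂ν with hI
  have hV0 : 0 ≤ V := measureReal_nonneg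
  by_cases hV1 : V = 0
  · have hν : ν = 0 := by
      rw [← Measure.measure_univ_eq_zero]
      rw [hV, measureReal_def, ENNReal.toReal_eq_zero_iff] at hV1
      rcases hV1 with h | h
      · exact h
      · exact absurd h (measure_ne_top _ _)
    rw [hI, hV1, hν]
    simp
  have hVpos : 0 < V := lt_of_le_of_ne hV0 (Ne.symm hV1)
  have h3 : 0 ≤ ∫ x, (V * h x - I) ^ 2 ∂ν := integral_nonneg (fun x => sq_nonneg _)
  have h4 : ∀ x, (V * h x - I) ^ 2 = V ^ 2 * h x ^ 2 + (-(2 * V * I)) * h x + I ^ 2 := by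
    intro x; ring
  simp_rw [h4] at h3
  have i1 : Integrable (fun x => V ^ 2 * h x ^ 2) ν := h2.const_mul _
  have i2 : Integrable (fun x => -(2 * V * I) * h x) ν := h1.const_mul _
  have i3 : Integrable (fun x => V ^ 2 * h x ^ 2 + -(2 * V * I) * h x) ν := i1.add i2
  rw [integral_add i3 (integrable_const _), integral_add i1 i2, integral_const_mul,
    integral_const_mul, integral_const, smul_eq_mul, ← hV, ← hI] at h3
  have h5 : 0 ≤ V * (V * ∫ x, h x ^ 2 ∂ν - I ^ 2) := by
    calc 0 ≤ _ := h3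
      _ = _ := by ring
  have h6 := nonneg_of_mul_nonneg_right h5 hVpos
  linarith

/-- data of two partitions `A`, `B` of `K` and a family `C` containing their midpoints -/
structure CellData (K : Set (EuclideanSpace ℝ (Fin d))) (f : EuclideanSpace ℝ (Fin d) → ℝ)
    (m : ι → ℝ) (A B C : ι → Set (EuclideanSpace ℝ (Fin d))) : Prop where
  mA : ∀ i, MeasurableSet (A i)
  mB : ∀ i, MeasurableSet (B i)
  mC : ∀ i, MeasurableSet (C i)
  subA : ∀ i, A i ⊆ K
  subB : ∀ i, B i ⊆ K
  subC : ∀ i, C i ⊆ K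
  dA : Pairwise (Function.onFun Disjoint A)
  dB : Pairwise (Function.onFun Disjoint B)
  dC : Pairwise (Function.onFun Disjoint C)
  fullA : volume (K \ ⋃ i, A i) = 0
  fullB : volume (K \ ⋃ i, B i) = 0
  mid : ∀ i, ∀ x ∈ A i, ∀ y ∈ B i, (1 / 2 : ℝ) • (x + y) ∈ C i
  massA : ∀ i, volume.real (A i) = m i
  massB : ∀ i, ∫ x in B i, (1 + f x) = m i
  pos : ∀ i, 0 < m i

lemma sum_integral_eq {K : Set (EuclideanSpace ℝ (Fin d))} {A : ι → Set (EuclideanSpace ℝ (Fin d))}
    (mA : ∀ i, MeasurableSet (A i)) (subA : ∀ i, A i ⊆ K)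
    (dA : Pairwise (Function.onFun Disjoint A)) (fullA : volume (K \ ⋃ i, A i) = 0)
    {u : EuclideanSpace ℝ (Fin d) → ℝ} (hu : IntegrableOn u K) :
    ∑ i, ∫ x in A i, u x = ∫ x in K, u x := by
  rw [← integral_iUnion_fintype mA dA (fun i => hu.mono_set (subA i))]
  refine setIntegral_congr_set ?_
  refine Filter.EventuallyLE.antisymm ?_ ?_
  · exact LE.le.eventuallyLE (Set.iUnion_subset subA)
  · exact ae_le_set.2 fullA

lemma gw_bounds {R lam : ℝ} (hlam : 0 < lam) (hlR : lam * R ^ 2 ≤ 1 / 512)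
    {x : EuclideanSpace ℝ (Fin d)} (hx : ‖x‖ ≤ R) : 99 / 100 ≤ gw lam x ∧ gw lam x ≤ 1 := by
  have h1 : lam * ‖x‖ ^ 2 ≤ 1 / 512 := by
    refine le_trans ?_ hlR
    gcongr
  have h2 : 0 ≤ lam * ‖x‖ ^ 2 := by positivity
  constructor
  · unfold gw
    have := Real.add_one_le_exp (-(lam * ‖x‖ ^ 2 / 2))
    linarith
  · unfold gw
    rw [Real.exp_le_one_iff]
    linarith

section facts

variable {K : Set (EuclideanSpace ℝ (Fin d))} {f : EuclideanSpace ℝ (Fin d) → ℝ} {m : ι → ℝ}
  {A B C : ι → Set (EuclideanSpace ℝ (Fin d))} {R lam : ℝ}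

lemma setIntegral_bounds {S : Set (EuclideanSpace ℝ (Fin d))} (hS : MeasurableSet S)
    (hfin : volume S ≠ ∞) {u : EuclideanSpace ℝ (Fin d) → ℝ} (hu : IntegrableOn u S)
    {p q : ℝ} (h : ∀ x ∈ S, p ≤ u x ∧ u x ≤ q) :
    p * volume.real S ≤ ∫ x in S, u x ∧ ∫ x in S, u x ≤ q * volume.real S := by
  have h1 : ∫ _ in S, p = p * volume.real S := by
    rw [setIntegral_const, smul_eq_mul, mul_comm]
  have h2 : ∫ _ in S, q = q * volume.real S := by
    rw [setIntegral_const, smul_eq_mul, mul_comm]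
  constructor
  · rw [← h1]
    exact setIntegral_mono_on (integrableOn_const (hs := hfin)) hu hS (fun x hx => (h x hx).1)
  · rw [← h2]
    exact setIntegral_mono_on hu (integrableOn_const (hs := hfin)) hS (fun x hx => (h x hx).2)

lemma integrableOn_bdd {S : Set (EuclideanSpace ℝ (Fin d))} (hS : MeasurableSet S)
    (hfin : volume S ≠ ∞) {u : EuclideanSpace ℝ (Fin d) → ℝ} (hu : Measurable u)
    {q : ℝ} (h : ∀ x ∈ S, |u x| ≤ q) : IntegrableOn u S := by
  refine Measure.integrableOn_of_bounded hfin hu.aestronglyMeasurable (M := q) ?_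
  filter_upwards [ae_restrict_mem hS] with x hx
  rw [Real.norm_eq_abs]
  exact h x hx

lemma finite_of_sub (hKR : K ⊆ Metric.closedBall 0 R) {S : Set (EuclideanSpace ℝ (Fin d))}
    (hS : S ⊆ K) : volume S ≠ ∞ :=
  ne_top_of_le_ne_top (isCompact_closedBall (0 : EuclideanSpace ℝ (Fin d)) R).measure_lt_top.ne
    (measure_mono (hS.trans hKR))

lemma CellData.facts (h : CellData K f m A B C) (hKR : K ⊆ Metric.closedBall 0 R)
    (hf : Measurable f) (hf2 : ∀ x, |f x| ≤ 1 / 2) (hlam : 0 < lam)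
    (hlR : lam * R ^ 2 ≤ 1 / 512) (i : ι) :
    (99 / 100 * m i ≤ ∫ x in A i, gw lam x) ∧ (∫ x in A i, gw lam x ≤ m i) ∧
    (2 / 3 * m i ≤ volume.real (B i)) ∧ (volume.real (B i) ≤ 2 * m i) ∧
    (66 / 100 * m i ≤ ∫ x in B i, gw lam x) ∧ (∫ x in B i, gw lam x ≤ 2 * m i) := by
  have hAfin := finite_of_sub hKR (h.subA i)
  have hBfin := finite_of_sub hKR (h.subB i)
  have hgwA : ∀ x ∈ A i, 99 / 100 ≤ gw lam x ∧ gw lam x ≤ 1 := fun x hx =>
    gw_bounds hlam hlR (by simpa using hKR (h.subA i hx))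
  have hgwB : ∀ x ∈ B i, 99 / 100 ≤ gw lam x ∧ gw lam x ≤ 1 := fun x hx =>
    gw_bounds hlam hlR (by simpa using hKR (h.subB i hx))
  have h1 := setIntegral_bounds (h.mA i) hAfin (integrableOn_of_continuous (continuous_gw lam)
    ((h.subA i).trans hKR)) hgwA
  have h2 := setIntegral_bounds (h.mB i) hBfin (integrableOn_of_continuous (continuous_gw lam)
    ((h.subB i).trans hKR)) hgwB
  have h3 := setIntegral_bounds (u := fun x => 1 + f x) (h.mB i) hBfin
    (integrableOn_bdd (h.mB i) hBfin (by fun_prop) (q := 3 / 2) (fun x _ => by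
      have := abs_le.1 (hf2 x)
      rw [abs_le]; constructor <;> linarith)) (p := 1 / 2) (q := 3 / 2) (fun x _ => by
      have := abs_le.1 (hf2 x)
      constructor <;> linarith)
  rw [h.massA i] at h1
  rw [h.massB i] at h3
  have hpos := h.pos i
  refine ⟨h1.1, by linarith [h1.2], by linarith [h3.2], by linarith [h3.1], ?_, ?_⟩
  · nlinarith [h2.1, h3.2]
  · nlinarith [h2.2, h3.1]

end facts

end Vale.Agent.P074
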