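import Vale.Agent.P074.CellMain

/-!
# P074: Lipschitz dependence of cells on the source density, conclusion
-/

namespace Vale.Agent.P074

open MeasureTheory
open scoped ENNReal NNReal RealInnerProductSpace

variable {d : ℕ} {ι : Type*} [Fintype ι]
  {K : Set (EuclideanSpace ℝ (Fin d))} {f : EuclideanSpace ℝ (Fin d) → ℝ} {m : ι → ℝ}
  {A B C : ι → Set (EuclideanSpace ℝ (Fin d))} {R lam : ℝ}

/-- direction of a vector -/
noncomputable def dirv (v : EuclideanSpace ℝ (Fin d)) : EuclideanSpace ℝ (Fin d) := ‖v‖⁻¹ • v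

lemma dirv_norm (v : EuclideanSpace ℝ (Fin d)) : ‖dirv v‖ ≤ 1 := by
  unfold dirv
  rw [norm_smul, norm_inv, norm_norm]
  exact inv_mul_le_one

lemma norm_smul_dirv (v : EuclideanSpace ℝ (Fin d)) : ‖v‖ • dirv v = v := by
  unfold dirv
  by_cases h : v = 0
  · simp [h]
  · rw [smul_smul, mul_inv_cancel₀ (norm_ne_zero_iff.2 h), one_smul]

lemma gw_gtest (lam : ℝ) (e x : EuclideanSpace ℝ (Fin d)) :
    gw lam x * gtest lam e x = ⟪e, x⟫ / 2 := by
  unfold gtest
  calc gw lam x * (iw lam x * ⟪e, x⟫ / 2) = (gw lam x * iw lam x) * ⟪e, x⟫ / 2 := by ring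
    _ = _ := by rw [gw_mul_iw, one_mul]

lemma CellData.cell_bound (h : CellData K f m A B C)
    (hKR : K ⊆ Metric.closedBall 0 R) (hR : 0 < R)
    (hf : Measurable f) (hf2 : ∀ x, |f x| ≤ 1 / 2) (hlam : 0 < lam)
    (hlR : lam * R ^ 2 ≤ 1 / 512) (v : EuclideanSpace ℝ (Fin d)) (i : ι) :
    |(∫ x in A i, ⟪v, x⟫) - ∫ x in B i, ⟪v, x⟫ * (1 + f x)| ≤
      ‖v‖ * (2 * wm lam (A i) * |wD lam (A i) (B i) (gtest lam (dirv v))| +
        2 * R * |wm lam (A i) - wm lam (B i)| + R * ∫ x in B i, |f x|) := by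
  obtain ⟨f1, f2, f3, f4, f5, f6⟩ := h.facts hKR hf hf2 hlam hlR i
  have hm := h.pos i
  have hAfin := finite_of_sub hKR (h.subA i)
  have hBfin := finite_of_sub hKR (h.subB i)
  change 99 / 100 * m i ≤ wm lam (A i) at f1
  change wm lam (A i) ≤ m i at f2
  change 66 / 100 * m i ≤ wm lam (B i) at f5
  change wm lam (B i) ≤ 2 * m i at f6
  have hbdef : wm lam (B i) = ∫ x in B i, gw lam x := rfl
  set a := wm lam (A i) with ha
  set b := wm lam (B i) with hb
  have ha0 : 0 < a := by linarith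
  have hb0 : 0 < b := by linarith
  set e := dirv v with he
  have he1 : ‖e‖ ≤ 1 := dirv_norm v
  have hve : v = ‖v‖ • e := (norm_smul_dirv v).symm
  have hinner : ∀ x, ⟪v, x⟫ = ‖v‖ * (2 * (gw lam x * gtest lam e x)) := by
    intro x
    rw [gw_gtest]
    conv_lhs => rw [hve, inner_smul_left]
    rw [mul_div_cancel₀ _ (by norm_num : (2 : ℝ) ≠ 0)]
    rfl
  have hKRB := (h.subB i).trans hKR
  have hKRA := (h.subA i).trans hKR
  have cg := continuous_gtest lam e
  have cw := continuous_gw (d := d) lam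
  have iB : IntegrableOn (fun x => gw lam x * gtest lam e x) (B i) :=
    integrableOn_of_continuous (by fun_prop) hKRB
  have iBi : IntegrableOn (fun x => ⟪v, x⟫) (B i) :=
    integrableOn_of_continuous (by fun_prop) hKRB
  have iBf : IntegrableOn (fun x => ⟪v, x⟫ * f x) (B i) := by
    refine integrableOn_bdd (h.mB i) hBfin (by fun_prop) (q := ‖v‖ * R * (1 / 2)) (fun x hx => ?_)
    rw [abs_mul]
    have h1 : ‖x‖ ≤ R := by simpa using hKRB hx
    have h2 := abs_real_inner_le_norm v x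
    have h3 : |⟪v, x⟫| ≤ ‖v‖ * R := h2.trans (by gcongr)
    exact mul_le_mul h3 (hf2 x) (abs_nonneg _) (by positivity)
  have hBf : IntegrableOn (fun x => |f x|) (B i) :=
    (integrableOn_bdd (h.mB i) hBfin hf (fun x _ => hf2 x)).abs
  have e1 : ∫ x in A i, ⟪v, x⟫ = ‖v‖ * (2 * ∫ x in A i, gw lam x * gtest lam e x) := by
    simp_rw [hinner]
    rw [integral_const_mul, integral_const_mul]
  have e2 : ∫ x in B i, ⟪v, x⟫ * (1 + f x) =
      ‖v‖ * (2 * ∫ x in B i, gw lam x * gtest lam e x) + ∫ x in B i, ⟪v, x⟫ * f x := by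
    have : ∀ x, ⟪v, x⟫ * (1 + f x) = ⟪v, x⟫ + ⟪v, x⟫ * f x := fun x => by ring
    simp_rw [this]
    rw [integral_add iBi iBf]
    congr 1
    simp_rw [hinner]
    rw [integral_const_mul, integral_const_mul]
  set P := ∫ x in A i, gw lam x * gtest lam e x with hP
  set Q := ∫ x in B i, gw lam x * gtest lam e x with hQ
  set Dd := wD lam (A i) (B i) (gtest lam e) with hDd
  have hDd2 : Dd = P / a - Q / b := rfl
  have e3 : P - Q = a * Dd + (a - b) * (Q / b) := by
    rw [hDd2]; field_simp; ring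
  have e4 : |Q / b| ≤ R := by
    rw [abs_div, abs_of_pos hb0, div_le_iff₀ hb0]
    have h1 : |Q| ≤ ∫ x in B i, |gw lam x * gtest lam e x| := abs_integral_le_integral_abs
    refine h1.trans ?_
    rw [hbdef, ← integral_const_mul]
    refine setIntegral_mono_on iB.abs (integrableOn_of_continuous (by fun_prop) hKRB) (h.mB i) ?_
    intro x hx
    have h2 : ‖x‖ ≤ R := by simpa using hKRB hx
    have h3 := gtest_bound hlam hlR he1 h2
    rw [abs_mul, abs_of_pos (gw_pos lam x)]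
    have := gw_pos lam x
    nlinarith
  have e5 : |∫ x in B i, ⟪v, x⟫ * f x| ≤ ‖v‖ * (R * ∫ x in B i, |f x|) := by
    refine abs_integral_le_integral_abs.trans ?_
    rw [← integral_const_mul, ← integral_const_mul]
    refine setIntegral_mono_on iBf.abs ((hBf.const_mul _).const_mul _) (h.mB i) ?_
    intro x hx
    have h1 : ‖x‖ ≤ R := by simpa using hKRB hx
    rw [abs_mul]
    have h2 := abs_real_inner_le_norm v x
    have h3 : |⟪v, x⟫| ≤ ‖v‖ * R := h2.trans (by gcongr)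
    calc |⟪v, x⟫| * |f x| ≤ (‖v‖ * R) * |f x| := by gcongr
      _ = _ := by ring
  rw [e1, e2]
  have e6 : ‖v‖ * (2 * P) - (‖v‖ * (2 * Q) + ∫ x in B i, ⟪v, x⟫ * f x) =
      ‖v‖ * (2 * (a * Dd + (a - b) * (Q / b))) - ∫ x in B i, ⟪v, x⟫ * f x := by
    rw [← e3]; ring
  rw [e6]
  refine (abs_sub _ _).trans ?_
  have e7 : |‖v‖ * (2 * (a * Dd + (a - b) * (Q / b)))| ≤
      ‖v‖ * (2 * a * |Dd| + 2 * R * |a - b|) := by
    rw [abs_mul, abs_norm]
    refine mul_le_mul_of_nonneg_left ?_ (norm_nonneg _)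
    rw [abs_mul, abs_of_pos (by norm_num : (0 : ℝ) < 2)]
    have h1 : |a * Dd + (a - b) * (Q / b)| ≤ a * |Dd| + |a - b| * R := by
      refine (abs_add_le _ _).trans ?_
      rw [abs_mul, abs_mul, abs_of_pos ha0]
      gcongr
    linarith
  calc _ ≤ ‖v‖ * (2 * a * |Dd| + 2 * R * |a - b|) + ‖v‖ * (R * ∫ x in B i, |f x|) :=
        add_le_add e7 e5
    _ = _ := by ring

lemma CellData.sq_bound (h : CellData K f m A B C)
    (hKR : K ⊆ Metric.closedBall 0 R) (hR : 0 < R)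
    (hf : Measurable f) (hf2 : ∀ x, |f x| ≤ 1 / 2) (hlam : 0 < lam)
    (hlR : lam * R ^ 2 ≤ 1 / 512) (D : ι → ℝ) (i : ι) :
    (2 * wm lam (A i) * |D i| +
        2 * R * |wm lam (A i) - wm lam (B i)| + R * ∫ x in B i, |f x|) ^ 2 / m i ≤
      3 * (64 / lam * (wm lam (A i) * (lam * D i ^ 2 / 16)) +
        8 * R ^ 2 * ((wm lam (A i) - wm lam (B i)) ^ 2 / (2 * wm lam (A i))) +
        2 * R ^ 2 * ∫ x in B i, f x ^ 2) := by
  obtain ⟨f1, f2, f3, f4, f5, f6⟩ := h.facts hKR hf hf2 hlam hlR i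
  have hm := h.pos i
  have hBfin := finite_of_sub hKR (h.subB i)
  change 99 / 100 * m i ≤ wm lam (A i) at f1
  change wm lam (A i) ≤ m i at f2
  set a := wm lam (A i) with ha
  set b := wm lam (B i) with hb
  have ha0 : 0 < a := by linarith
  have hbf : IntegrableOn (fun x => |f x|) (B i) :=
    (integrableOn_bdd (h.mB i) hBfin hf (fun x _ => hf2 x)).abs
  have hbf2 : IntegrableOn (fun x => |f x| ^ 2) (B i) := by
    refine integrableOn_bdd (h.mB i) hBfin (by fun_prop) (q := 1) (fun x _ => ?_)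
    have := abs_le.1 (hf2 x)
    rw [sq_abs, abs_le]; constructor <;> nlinarith
  have hfin : IsFiniteMeasure (volume.restrict (B i)) := ⟨by
    rw [Measure.restrict_apply_univ]; exact hBfin.lt_top⟩
  have hcs := cs_const (volume.restrict (B i)) hbf hbf2
  rw [measureReal_def, Measure.restrict_apply_univ, ← measureReal_def] at hcs
  simp_rw [sq_abs] at hcs
  set F := ∫ x in B i, |f x| with hF
  set Q := ∫ x in B i, f x ^ 2 with hQ
  have hQ0 : 0 ≤ Q := integral_nonneg (fun x => sq_nonneg _)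
  have hF2 : F ^ 2 ≤ 2 * m i * Q := hcs.trans (by gcongr)
  have e1 : (2 * a * |D i| + 2 * R * |a - b| + R * F) ^ 2 ≤
      3 * (4 * a ^ 2 * D i ^ 2 + 4 * R ^ 2 * (a - b) ^ 2 + R ^ 2 * F ^ 2) := by
    have h1 : |D i| ^ 2 = D i ^ 2 := sq_abs _
    have h2 : |a - b| ^ 2 = (a - b) ^ 2 := sq_abs _
    rw [← h1, ← h2]
    nlinarith [sq_nonneg (2 * a * |D i| - 2 * R * |a - b|), sq_nonneg (2 * a * |D i| - R * F),
      sq_nonneg (2 * R * |a - b| - R * F)]
  have e2 : 4 * a ^ 2 * D i ^ 2 ≤ (64 / lam * (a * (lam * D i ^ 2 / 16))) * m i := by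
    have : 64 / lam * (a * (lam * D i ^ 2 / 16)) = 4 * a * D i ^ 2 := by
      field_simp; ring
    rw [this]
    have h3 : 0 ≤ a * D i ^ 2 := by positivity
    nlinarith
  have e3 : 4 * R ^ 2 * (a - b) ^ 2 ≤ (8 * R ^ 2 * ((a - b) ^ 2 / (2 * a))) * m i := by
    have h3 : 8 * R ^ 2 * ((a - b) ^ 2 / (2 * a)) * m i = 4 * R ^ 2 * (a - b) ^ 2 * (m i / a) := by
      field_simp; ring
    rw [h3]
    have h4 : 1 ≤ m i / a := by rw [one_le_div ha0]; exact f2
    have h5 : 0 ≤ 4 * R ^ 2 * (a - b) ^ 2 := by positivity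
    nlinarith
  have e4 : R ^ 2 * F ^ 2 ≤ (2 * R ^ 2 * Q) * m i := by
    calc R ^ 2 * F ^ 2 ≤ R ^ 2 * (2 * m i * Q) := by gcongr
      _ = _ := by ring
  rw [div_le_iff₀ hm]
  calc _ ≤ _ := e1
    _ ≤ 3 * ((64 / lam * (a * (lam * D i ^ 2 / 16))) * m i +
      (8 * R ^ 2 * ((a - b) ^ 2 / (2 * a))) * m i + (2 * R ^ 2 * Q) * m i) := by linarith
    _ = _ := by ring

/-- **Lipschitz dependence of the cells on the source density** (in `L²` norm). -/
theorem CellData.main (h : CellData K f m A B C) (hK : MeasurableSet K)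
    (hKR : K ⊆ Metric.closedBall 0 R) (hR : 0 < R)
    (hf : Measurable f) (hf2 : ∀ x, |f x| ≤ 1 / 2) (v : ι → EuclideanSpace ℝ (Fin d)) :
    |∑ i, ((∫ x in A i, ⟪v i, x⟫) - ∫ x in B i, ⟪v i, x⟫ * (1 + f x))| ≤
      640 * R * √(∑ i, m i * ‖v i‖ ^ 2) * √(∫ x in K, f x ^ 2) := by
  set lam : ℝ := 1 / (512 * R ^ 2) with hlam'
  have hlam : 0 < lam := by positivity
  have hlR : lam * R ^ 2 ≤ 1 / 512 := by
    rw [hlam']
    apply le_of_eq
    field_simp
  set D : ι → ℝ := fun i => wD lam (A i) (B i) (gtest lam (dirv (v i))) with hD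
  set P : ι → ℝ := fun i => 2 * wm lam (A i) * |D i| +
        2 * R * |wm lam (A i) - wm lam (B i)| + R * ∫ x in B i, |f x| with hP
  have h1 : |∑ i, ((∫ x in A i, ⟪v i, x⟫) - ∫ x in B i, ⟪v i, x⟫ * (1 + f x))| ≤
      ∑ i, ‖v i‖ * P i := by
    refine (Finset.abs_sum_le_sum_abs _ _).trans ?_
    exact Finset.sum_le_sum (fun i _ => h.cell_bound hKR hR hf hf2 hlam hlR (v i) i)
  have h2 : ∑ i, ‖v i‖ * P i ≤ √(∑ i, m i * ‖v i‖ ^ 2) * √(∑ i, P i ^ 2 / m i) := by
    have h3 : ∀ i, ‖v i‖ * P i = (√(m i) * ‖v i‖) * (P i / √(m i)) := by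
      intro i
      have := Real.sqrt_pos.2 (h.pos i)
      field_simp
    simp_rw [h3]
    refine (Real.sum_mul_le_sqrt_mul_sqrt _ _ _).trans (le_of_eq ?_)
    congr 2
    · refine Finset.sum_congr rfl (fun i _ => ?_)
      rw [mul_pow, Real.sq_sqrt (h.pos i).le]
    · refine Finset.sum_congr rfl (fun i _ => ?_)
      rw [div_pow, Real.sq_sqrt (h.pos i).le]
  have hfK : IntegrableOn (fun x => f x ^ 2) K := by
    refine integrableOn_bdd hK (finite_of_sub hKR le_rfl) (by fun_prop) (q := 1) (fun x _ => ?_)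
    have := abs_le.1 (hf2 x)
    rw [abs_le]; constructor <;> nlinarith
  have hS := h.mass_diff hK hKR hR hf hf2 hlam hlR
  have hG := h.main_g hKR hf hf2 hlam hlR (fun i => gtest lam (dirv (v i)))
    (fun i => continuous_gtest _ _) (fun i x hx y hy => gtest_lip hlam hlR (dirv_norm _)
      (by simpa using hKR hx) (by simpa using hKR hy))
  set N := ∫ x in K, f x ^ 2 with hN
  have hN0 : 0 ≤ N := integral_nonneg (fun x => sq_nonneg _)
  have h4 : ∑ i, P i ^ 2 / m i ≤ (640 * R) ^ 2 * N := by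
    have h5 := Finset.sum_le_sum (fun i (_ : i ∈ Finset.univ) =>
      h.sq_bound hKR hR hf hf2 hlam hlR D i)
    rw [← Finset.mul_sum, Finset.sum_add_distrib, Finset.sum_add_distrib, ← Finset.mul_sum,
      ← Finset.mul_sum, ← Finset.mul_sum, sum_integral_eq h.mB h.subB h.dB h.fullB hfK] at h5
    refine h5.trans ?_
    have h6 : 64 / lam = 64 * 512 * R ^ 2 := by
      rw [hlam']; field_simp
    rw [h6, ← hN]
    have h7 : ∑ i, wm lam (A i) * (lam * D i ^ 2 / 16) ≤ 4 * N := hG.trans hS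
    have hR2 : 0 < R ^ 2 := by positivity
    calc 3 * (64 * 512 * R ^ 2 * ∑ i, wm lam (A i) * (lam * D i ^ 2 / 16) +
          8 * R ^ 2 * ∑ i, (wm lam (A i) - wm lam (B i)) ^ 2 / (2 * wm lam (A i)) +
          2 * R ^ 2 * N) ≤ 3 * (64 * 512 * R ^ 2 * (4 * N) + 8 * R ^ 2 * (4 * N) +
          2 * R ^ 2 * N) := by gcongr
      _ ≤ (640 * R) ^ 2 * N := by
        have : 0 ≤ R ^ 2 * N := by positivity
        nlinarith
  calc _ ≤ ∑ i, ‖v i‖ * P i := h1
    _ ≤ √(∑ i, m i * ‖v i‖ ^ 2) * √(∑ i, P i ^ 2 / m i) := h2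
    _ ≤ √(∑ i, m i * ‖v i‖ ^ 2) * √((640 * R) ^ 2 * N) := by gcongr
    _ = 640 * R * √(∑ i, m i * ‖v i‖ ^ 2) * √N := by
        rw [Real.sqrt_mul (by positivity), Real.sqrt_sq (by positivity)]
        ring

end Vale.Agent.P074
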