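import Mathlib

/-!
# P074: quantization of a coupling
-/

namespace Vale.Agent.P074

open MeasureTheory
open scoped ENNReal NNReal RealInnerProductSpace

variable {d : ℕ}

/-- a measurable finite quantization of a ball -/
lemma exists_quant {R0 ε : ℝ} (hR0 : 0 ≤ R0) (hε : 0 < ε) :
    ∃ (N : ℕ) (e : ℕ → EuclideanSpace ℝ (Fin d)) (q : EuclideanSpace ℝ (Fin d) → ℕ),
      Measurable q ∧ (∀ p, q p ≤ N) ∧ (∀ n, ‖e n‖ ≤ R0) ∧
      (∀ p, ‖p‖ ≤ R0 → ‖e (q p) - p‖ ≤ ε) := by
  obtain ⟨t, htsub, htfin, htcov⟩ :=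
    (isCompact_closedBall (0 : EuclideanSpace ℝ (Fin d)) R0).finite_cover_balls hε
  set l := htfin.toFinset.toList with hl
  set e : ℕ → EuclideanSpace ℝ (Fin d) := fun n => l.getD n 0 with he
  have hmem : ∀ c ∈ t, ∃ n < l.length, e n = c := by
    intro c hc
    have hcl : c ∈ l := by
      rw [hl, Finset.mem_toList, Set.Finite.mem_toFinset]; exact hc
    obtain ⟨n, hn, hnc⟩ := List.mem_iff_getElem.1 hcl
    refine ⟨n, hn, ?_⟩
    rw [he]
    simp only
    rw [List.getD_eq_getElem _ _ hn, hnc]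
  have hlt : ∀ x ∈ l, x ∈ t := by
    intro x hx
    rw [hl, Finset.mem_toList, Set.Finite.mem_toFinset] at hx
    exact hx
  have hbound : ∀ n, ‖e n‖ ≤ R0 := by
    intro n
    by_cases hn : n < l.length
    · rw [he]
      simp only
      rw [List.getD_eq_getElem _ _ hn]
      have h1 : l[n] ∈ l := List.getElem_mem hn
      have h2 : l[n] ∈ t := hlt _ h1
      simpa using htsub h2
    · rw [he]
      simp only
      rw [List.getD_eq_default _ _ (not_lt.1 hn), norm_zero]
      exact hR0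
  refine ⟨l.length, e, SimpleFunc.nearestPtInd e l.length, (SimpleFunc.nearestPtInd e l.length).measurable,
    fun p => SimpleFunc.nearestPtInd_le e l.length p, hbound, ?_⟩
  intro p hp
  have hp' : p ∈ Metric.closedBall (0 : EuclideanSpace ℝ (Fin d)) R0 := by simpa using hp
  have h1 := htcov hp'
  simp only [Set.mem_iUnion] at h1
  obtain ⟨c, hc, hpc⟩ := h1
  obtain ⟨n, hn, hnc⟩ := hmem c hc
  have h2 := SimpleFunc.edist_nearestPt_le e p hn.le
  have h3 : edist (SimpleFunc.nearestPt e l.length p) p ≤ ENNReal.ofReal ε := by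
    refine h2.trans ?_
    rw [hnc, edist_comm, edist_dist]
    exact ENNReal.ofReal_le_ofReal (Metric.mem_ball.1 hpc).le
  rw [edist_dist, ENNReal.ofReal_le_ofReal_iff hε.le, dist_eq_norm] at h3
  exact h3

/-- small injective perturbation -/
lemma exists_injective_perturb {ι : Type*} [Fintype ι] (hd : 0 < d)
    (b : ι → EuclideanSpace ℝ (Fin d)) {ε : ℝ} (hε : 0 < ε) :
    ∃ y : ι → EuclideanSpace ℝ (Fin d), Function.Injective y ∧ ∀ k, ‖y k - b k‖ ≤ ε := by
  classical
  set u : EuclideanSpace ℝ (Fin d) := EuclideanSpace.single ⟨0, hd⟩ 1 with hu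
  have hun : ‖u‖ = 1 := by rw [hu, PiLp.norm_single]; simp
  have hu0 : u ≠ 0 := by intro h; rw [h, norm_zero] at hun; exact zero_ne_one hun
  set f := Fintype.equivFin ι with hf
  set a : ι → ℝ := fun k => 1 / (1 + ((f k : ℕ) : ℝ)) with ha
  have ha0 : ∀ k, 0 < a k := fun k => by rw [ha]; positivity
  have ha1 : ∀ k, a k ≤ 1 := fun k => by
    rw [ha]
    simp only
    rw [div_le_one (by positivity)]
    have : (0 : ℝ) ≤ ((f k : ℕ) : ℝ) := by positivity
    linarith
  have hainj : Function.Injective a := by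
    intro k l hkl
    rw [ha] at hkl
    simp only at hkl
    have h1 : (1 + ((f k : ℕ) : ℝ)) = 1 + ((f l : ℕ) : ℝ) := by
      have h2 := congrArg (fun t : ℝ => 1 / t) hkl
      simpa using h2
    have h2 : ((f k : ℕ) : ℝ) = ((f l : ℕ) : ℝ) := by linarith
    have h3 : (f k : ℕ) = (f l : ℕ) := by exact_mod_cast h2
    exact f.injective (Fin.ext h3)
  have hfin : {s : ℝ | ¬ Function.Injective (fun k => b k + s • (a k • u))}.Finite := by
    have h1 : {s : ℝ | ¬ Function.Injective (fun k => b k + s • (a k • u))} ⊆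
        ⋃ i, ⋃ j, {s : ℝ | i ≠ j ∧ b i + s • (a i • u) = b j + s • (a j • u)} := by
      intro τ hτ
      simp only [Function.Injective, Set.mem_ofPred_eq, not_forall] at hτ
      obtain ⟨i, j, h, hij⟩ := hτ
      simp only [Set.mem_iUnion]
      exact ⟨i, j, hij, h⟩
    refine Set.Finite.subset ?_ h1
    refine Set.finite_iUnion (fun i => Set.finite_iUnion (fun j => ?_))
    refine Set.Subsingleton.finite ?_
    rintro τ ⟨hij, h1⟩ σ ⟨_, h2⟩
    by_contra hne
    have e1 : τ • ((a i - a j) • u) = b j - b i := by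
      rw [sub_smul, smul_sub, sub_eq_sub_iff_add_eq_add, add_comm]
      exact h1
    have e2 : σ • ((a i - a j) • u) = b j - b i := by
      rw [sub_smul, smul_sub, sub_eq_sub_iff_add_eq_add, add_comm]
      exact h2
    have h3 : (τ - σ) • ((a i - a j) • u) = 0 := by rw [sub_smul, e1, e2, sub_self]
    rcases smul_eq_zero.1 h3 with h | h
    · exact hne (sub_eq_zero.1 h)
    · rcases smul_eq_zero.1 h with h | h
      · exact hij (hainj (sub_eq_zero.1 h))
      · exact hu0 h
  have hinf : (Set.Ioo 0 ε).Infinite := Set.Ioo_infinite hε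
  obtain ⟨s, hs, hs'⟩ := hinf.exists_notMem_finite hfin
  simp only [Set.mem_ofPred_eq, not_not] at hs'
  refine ⟨fun k => b k + s • (a k • u), hs', fun k => ?_⟩
  rw [add_sub_cancel_left, norm_smul, norm_smul, hun, Real.norm_of_nonneg hs.1.le,
    Real.norm_of_nonneg (ha0 k).le, mul_one]
  have h1 := ha1 k
  have h2 := hs.1
  have h3 := hs.2
  nlinarith [ha0 k]

/-- **Quantization of a coupling.** -/
theorem quantize (hd : 0 < d)
    (γ : Measure (EuclideanSpace ℝ (Fin d) × EuclideanSpace ℝ (Fin d))) [IsFiniteMeasure γ]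
    (hγ : γ ≠ 0) {R0 ε : ℝ} (hR0 : 0 ≤ R0) (hε : 0 < ε)
    (h1 : γ {p | R0 < ‖p.1‖} = 0) (h2 : γ {p | R0 < ‖p.2‖} = 0) :
    ∃ (ι : Type) (_ : Fintype ι) (_ : Nonempty ι) (y z : ι → EuclideanSpace ℝ (Fin d))
      (g : ι → Measure (EuclideanSpace ℝ (Fin d) × EuclideanSpace ℝ (Fin d))),
      Function.Injective y ∧ Function.Injective z ∧ (∀ k, ‖y k‖ ≤ R0 + ε) ∧
      (∀ k, ‖z k‖ ≤ R0 + ε) ∧ γ = ∑ k, g k ∧ (∀ k, g k ≠ 0) ∧
      (∀ k, g k {p | ε < ‖y k - p.1‖} = 0) ∧ (∀ k, g k {p | ε < ‖z k - p.2‖} = 0) := by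
  classical
  obtain ⟨N, e, q, hqm, hqN, heR, heq⟩ := exists_quant (d := d) hR0 (half_pos hε)
  set A : Fin (N + 1) × Fin (N + 1) → Set (EuclideanSpace ℝ (Fin d) × EuclideanSpace ℝ (Fin d)) :=
    fun j => {p | q p.1 = j.1 ∧ q p.2 = j.2} with hA
  have hAm : ∀ j, MeasurableSet (A j) := by
    intro j
    have m1 : Measurable (fun p : EuclideanSpace ℝ (Fin d) × EuclideanSpace ℝ (Fin d) => q p.1) :=
      hqm.comp measurable_fst
    have m2 : Measurable (fun p : EuclideanSpace ℝ (Fin d) × EuclideanSpace ℝ (Fin d) => q p.2) :=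
      hqm.comp measurable_snd
    exact (m1 (measurableSet_singleton (j.1 : ℕ))).inter (m2 (measurableSet_singleton (j.2 : ℕ)))
  have hAd : Pairwise (Function.onFun Disjoint A) := by
    intro i j hij
    rw [Function.onFun, Set.disjoint_left]
    rintro p ⟨h1, h2⟩ ⟨h3, h4⟩
    apply hij
    ext
    · exact h1.symm.trans h3
    · exact h2.symm.trans h4
  have hAU : (⋃ j, A j) = Set.univ := by
    ext p
    simp only [Set.mem_iUnion, Set.mem_univ, iff_true]
    exact ⟨(⟨q p.1, Nat.lt_succ_of_le (hqN _)⟩, ⟨q p.2, Nat.lt_succ_of_le (hqN _)⟩), rfl, rfl⟩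
  have hsumall : γ = ∑ j, γ.restrict (A j) := by
    have h3 : γ.restrict (⋃ j, A j) = Measure.sum (fun j => γ.restrict (A j)) :=
      Measure.restrict_iUnion hAd hAm
    rw [hAU, Measure.restrict_univ, Measure.sum_fintype] at h3
    exact h3
  set ι := {j : Fin (N + 1) × Fin (N + 1) // γ.restrict (A j) ≠ 0} with hι
  have hsum : γ = ∑ k : ι, γ.restrict (A k.1) := by
    have h3 : ∑ j, γ.restrict (A j) =
        ∑ j ∈ Finset.univ.filter (fun j => γ.restrict (A j) ≠ 0), γ.restrict (A j) :=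
      (Finset.sum_filter_ne_zero _).symm
    have h4 : ∑ j ∈ Finset.univ.filter (fun j => γ.restrict (A j) ≠ 0), γ.restrict (A j) =
        ∑ k : ι, γ.restrict (A k.1) :=
      Finset.sum_subtype _ (by intro x; simp) _
    exact hsumall.trans (h3.trans h4)
  have hne : Nonempty ι := by
    by_contra hcon
    rw [not_nonempty_iff] at hcon
    apply hγ
    rw [hsum]
    exact Finset.sum_of_isEmpty _
  obtain ⟨y, hyinj, hy⟩ := exists_injective_perturb hd (fun k : ι => e k.1.1) (half_pos hε)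
  obtain ⟨z, hzinj, hz⟩ := exists_injective_perturb hd (fun k : ι => e k.1.2) (half_pos hε)
  have hbd : ∀ (v : EuclideanSpace ℝ (Fin d)) (n : ℕ), ‖v - e n‖ ≤ ε / 2 → ‖v‖ ≤ R0 + ε := by
    intro v n hv
    have h3 : ‖v‖ ≤ ‖v - e n‖ + ‖e n‖ := by
      have := norm_add_le (v - e n) (e n)
      rwa [sub_add_cancel] at this
    linarith [heR n]
  refine ⟨ι, inferInstance, hne, y, z, fun k => γ.restrict (A k.1), hyinj, hzinj,
    fun k => hbd _ _ (hy k), fun k => hbd _ _ (hz k), hsum, fun k => k.2, ?_, ?_⟩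
  · intro k
    refine measure_mono_null (t := {p | R0 < ‖p.1‖} ∪ (A k.1)ᶜ) ?_ ?_
    · intro p hp
      by_contra hcon
      simp only [Set.mem_union, Set.mem_ofPred_eq, Set.mem_compl_iff, not_or, not_lt, not_not] at hcon
      obtain ⟨hp1, hpA⟩ := hcon
      have h3 := heq p.1 hp1
      have h4 : q p.1 = (k.1.1 : ℕ) := hpA.1
      rw [h4] at h3
      have h5 := hy k
      have h6 : ‖y k - p.1‖ ≤ ‖y k - e k.1.1‖ + ‖e k.1.1 - p.1‖ := by
        have := norm_add_le (y k - e k.1.1) (e k.1.1 - p.1)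
        rwa [sub_add_sub_cancel] at this
      have h7 : ε < ‖y k - p.1‖ := hp
      linarith
    · refine measure_union_null ?_ ?_
      · exact Measure.absolutelyContinuous_of_le Measure.restrict_le_self h1
      · rw [Measure.restrict_apply (hAm _).compl, Set.compl_inter_self, measure_empty]
  · intro k
    refine measure_mono_null (t := {p | R0 < ‖p.2‖} ∪ (A k.1)ᶜ) ?_ ?_
    · intro p hp
      by_contra hcon
      simp only [Set.mem_union, Set.mem_ofPred_eq, Set.mem_compl_iff, not_or, not_lt, not_not] at hcon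
      obtain ⟨hp1, hpA⟩ := hcon
      have h3 := heq p.2 hp1
      have h4 : q p.2 = (k.1.2 : ℕ) := hpA.2
      rw [h4] at h3
      have h5 := hz k
      have h6 : ‖z k - p.2‖ ≤ ‖z k - e k.1.2‖ + ‖e k.1.2 - p.2‖ := by
        have := norm_add_le (z k - e k.1.2) (e k.1.2 - p.2)
        rwa [sub_add_sub_cancel] at this
      have h7 : ε < ‖z k - p.2‖ := hp
      linarith
    · refine measure_union_null ?_ ?_
      · exact Measure.absolutelyContinuous_of_le Measure.restrict_le_self h2
      · rw [Measure.restrict_apply (hAm _).compl, Set.compl_inter_self, measure_empty]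

end Vale.Agent.P074
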