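import Vale.Agent.P074.Approx3
import Vale.Agent.P074.Quant

/-!
# P074: stability estimate for general optimal maps
-/

namespace Vale.Agent.P074

open MeasureTheory
open scoped ENNReal NNReal RealInnerProductSpace

variable {d : ℕ} {K : Set (EuclideanSpace ℝ (Fin d))} {R : ℝ}

lemma map_sum_fin {α β ι : Type*} [MeasurableSpace α] [MeasurableSpace β] [Fintype ι]
    (g : ι → Measure α) {f : α → β} (hf : Measurable f) :
    (∑ k, g k).map f = ∑ k, (g k).map f := by
  ext s hs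
  rw [Measure.map_apply hf hs, Measure.finsetSum_apply, Measure.finsetSum_apply]
  refine Finset.sum_congr rfl (fun k _ => ?_)
  rw [Measure.map_apply hf hs]

/-- bound of the discrete transport cost -/
lemma cost_bound {ι : Type*} [Fintype ι]
    {γ : Measure (EuclideanSpace ℝ (Fin d) × EuclideanSpace ℝ (Fin d))} [IsFiniteMeasure γ]
    {g : ι → Measure (EuclideanSpace ℝ (Fin d) × EuclideanSpace ℝ (Fin d))}
    (hsum : γ = ∑ k, g k) {y z : ι → EuclideanSpace ℝ (Fin d)} {ε : ℝ}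
    (hint : Integrable (fun p : EuclideanSpace ℝ (Fin d) × EuclideanSpace ℝ (Fin d) =>
      ‖p.1 - p.2‖ ^ 2) γ)
    (h1 : ∀ k, g k {p | ε < ‖y k - p.1‖} = 0) (h2 : ∀ k, g k {p | ε < ‖z k - p.2‖} = 0) :
    ∑ k, (g k).real Set.univ * ‖z k - y k‖ ^ 2 ≤
      2 * (∫ p, ‖p.1 - p.2‖ ^ 2 ∂γ) + 8 * ε ^ 2 * γ.real Set.univ := by
  have hle : ∀ k, g k ≤ γ := by
    intro k
    rw [hsum]
    exact Finset.single_le_sum (f := g) (fun i _ => Measure.zero_le (g i)) (Finset.mem_univ k)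
  have hfin : ∀ k, IsFiniteMeasure (g k) := fun k => isFiniteMeasure_of_le γ (hle k)
  have hintk : ∀ k, Integrable (fun p : EuclideanSpace ℝ (Fin d) × EuclideanSpace ℝ (Fin d) =>
      ‖p.1 - p.2‖ ^ 2) (g k) := fun k => hint.mono_measure (hle k)
  have key : ∀ k, (g k).real Set.univ * ‖z k - y k‖ ^ 2 ≤
      2 * (∫ p, ‖p.1 - p.2‖ ^ 2 ∂(g k)) + 8 * ε ^ 2 * (g k).real Set.univ := by
    intro k
    have e1 : (g k).real Set.univ * ‖z k - y k‖ ^ 2 = ∫ _, ‖z k - y k‖ ^ 2 ∂(g k) := by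
      rw [integral_const, smul_eq_mul]
    have e2 : 2 * (∫ p, ‖p.1 - p.2‖ ^ 2 ∂(g k)) + 8 * ε ^ 2 * (g k).real Set.univ =
        ∫ p, (2 * ‖p.1 - p.2‖ ^ 2 + 8 * ε ^ 2) ∂(g k) := by
      rw [integral_add ((hintk k).const_mul 2) (integrable_const _), integral_const_mul,
        integral_const, smul_eq_mul]
      ring
    rw [e1, e2]
    refine integral_mono_ae (integrable_const _) (((hintk k).const_mul 2).add (integrable_const _)) ?_
    have a1 : ∀ᵐ p ∂(g k), ‖y k - p.1‖ ≤ ε := by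
      rw [ae_iff]; simpa using h1 k
    have a2 : ∀ᵐ p ∂(g k), ‖z k - p.2‖ ≤ ε := by
      rw [ae_iff]; simpa using h2 k
    filter_upwards [a1, a2] with p hp1 hp2
    have h3 : ‖z k - y k‖ ≤ 2 * ε + ‖p.1 - p.2‖ := by
      have e3 : z k - y k = (z k - p.2) + (-(p.1 - p.2)) + (-(y k - p.1)) := by abel
      rw [e3]
      refine (norm_add_le _ _).trans ?_
      refine (add_le_add (norm_add_le _ _) le_rfl).trans ?_
      rw [norm_neg, norm_neg]
      linarith
    have h4 : ‖z k - y k‖ ^ 2 ≤ (2 * ε + ‖p.1 - p.2‖) ^ 2 :=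
      pow_le_pow_left₀ (norm_nonneg _) h3 2
    nlinarith [sq_nonneg (2 * ε - ‖p.1 - p.2‖)]
  have hs := Finset.sum_le_sum (fun k (_ : k ∈ Finset.univ) => key k)
  rw [Finset.sum_add_distrib, ← Finset.mul_sum, ← Finset.mul_sum] at hs
  have e3 : ∑ k, ∫ p, ‖p.1 - p.2‖ ^ 2 ∂(g k) = ∫ p, ‖p.1 - p.2‖ ^ 2 ∂γ := by
    rw [hsum, integral_finsetSum_measure (fun k _ => hintk k)]
  have e4 : ∑ k, (g k).real Set.univ = γ.real Set.univ := by
    rw [hsum, measureReal_def, Measure.finsetSum_apply, ENNReal.toReal_sum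
      (fun k _ => measure_ne_top _ _)]
    rfl
  rw [e3, e4] at hs
  exact hs

/-- value of the approximation error -/
noncomputable def errA (d : ℕ) (R r V s : ℝ) : ℝ :=
  2 * ((s ^ 2) ^ 2 * V) + 2 * (d * (2 * R * (2 * R * s * (d * (s / r) * V) +
    2 * s ^ 2 * R * V) / s) + 4 * R ^ 2 * (d * (s / r) * V))

/-- main term -/
noncomputable def mainI (d : ℕ) (R r V h A : ℝ) : ℝ :=
  d * ((8 * A + 32 * R ^ 2 * h ^ 2 * (d * (h / r) * V)) / h ^ 2) +
    4 * R ^ 2 * (d * (h / r) * V)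

lemma errA_le {d : ℕ} {R r V s : ℝ} (hs : 0 < s) (hs1 : s ≤ 1) (hV : 0 ≤ V) :
    errA d R r V s ≤ s * (2 * V + 2 * (d * (2 * R * (2 * R * (d * V / r) + 2 * R * V)) +
      4 * R ^ 2 * (d * V / r))) := by
  unfold errA
  have h1 : (s ^ 2) ^ 2 * V ≤ s * V := by
    have : (s ^ 2) ^ 2 ≤ s := by
      calc (s ^ 2) ^ 2 = s ^ 4 := by ring
        _ ≤ s ^ 1 := pow_le_pow_of_le_one hs.le hs1 (by norm_num)
        _ = s := pow_one s
    gcongr
  have h2 : 2 * R * (2 * R * s * (d * (s / r) * V) + 2 * s ^ 2 * R * V) / s =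
      s * (2 * R * (2 * R * (d * V / r) + 2 * R * V)) := by
    field_simp
  rw [h2]
  have h3 : 4 * R ^ 2 * (d * (s / r) * V) = s * (4 * R ^ 2 * (d * V / r)) := by ring
  rw [h3]
  nlinarith

/-- **Stability estimate for general optimal maps.** -/
theorem core (hd : 0 < d) (hK : IsCompact K) (hKc : Convex ℝ K) (hR : 0 < R)
    (hKR : K ⊆ Metric.closedBall 0 R) {x0 : EuclideanSpace ℝ (Fin d)} {r h : ℝ}
    (hr : 0 < r) (hball : Metric.closedBall x0 r ⊆ K) (hh : 0 < h) (hhr : h ≤ r)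
    (hV : 0 < volume.real K)
    {T1 T2 : EuclideanSpace ℝ (Fin d) → EuclideanSpace ℝ (Fin d)} (hT1 : Measurable T1)
    (hT2 : Measurable T2) (b1 : ∀ᵐ x ∂(volume.restrict K), ‖T1 x‖ ≤ R)
    (b2 : ∀ᵐ x ∂(volume.restrict K), ‖T2 x‖ ≤ R) (o1 : OptK K T1) (o2 : OptK K T2)
    (γ : Measure (EuclideanSpace ℝ (Fin d) × EuclideanSpace ℝ (Fin d)))
    (hγ1 : γ.map Prod.fst = (volume.restrict K).map T1)
    (hγ2 : γ.map Prod.snd = (volume.restrict K).map T2) :
    ∫ x in K, ‖T1 x - T2 x‖ ^ 2 ≤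
      3 * mainI d (R + 1) r (volume.real K) h ((640 * (R + 1)) ^ 2 *
        (2 * ∫ p, ‖p.1 - p.2‖ ^ 2 ∂γ)) := by
  have hKR' : K ⊆ Metric.closedBall 0 (R + 1) :=
    hKR.trans (Metric.closedBall_subset_closedBall (by linarith))
  have hR' : 0 < R + 1 := by linarith
  have hKm := hK.measurableSet
  have g0 := good_restrict hKR'
  have := g0.fin
  -- finiteness of γ
  have hγu : γ Set.univ = volume K := by
    have h1 : (γ.map Prod.fst) Set.univ = γ Set.univ := by
      rw [Measure.map_apply measurable_fst MeasurableSet.univ, Set.preimage_univ]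
    rw [← h1, hγ1, Measure.map_apply hT1 MeasurableSet.univ, Set.preimage_univ,
      Measure.restrict_apply_univ]
  have hγfin : IsFiniteMeasure γ := ⟨by rw [hγu]; exact hK.measure_lt_top⟩
  have hγne : γ ≠ 0 := by
    intro h0
    rw [h0] at hγu
    simp only [Measure.coe_zero, Pi.zero_apply] at hγu
    rw [measureReal_def, ← hγu] at hV
    simp at hV
  have hm : MeasurableSet {p : EuclideanSpace ℝ (Fin d) | R < ‖p‖} :=
    measurableSet_lt measurable_const measurable_norm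
  have hs1 : γ {p | R < ‖p.1‖} = 0 := by
    have h1 : (γ.map Prod.fst) {p | R < ‖p‖} = γ {p | R < ‖p.1‖} := by
      rw [Measure.map_apply measurable_fst hm]; rfl
    rw [← h1, hγ1, Measure.map_apply hT1 hm]
    rw [ae_iff] at b1
    simpa using b1
  have hs2 : γ {p | R < ‖p.2‖} = 0 := by
    have h1 : (γ.map Prod.snd) {p | R < ‖p‖} = γ {p | R < ‖p.2‖} := by
      rw [Measure.map_apply measurable_snd hm]; rfl
    rw [← h1, hγ2, Measure.map_apply hT2 hm]
    rw [ae_iff] at b2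
    simpa using b2
  have hint : Integrable (fun p : EuclideanSpace ℝ (Fin d) × EuclideanSpace ℝ (Fin d) =>
      ‖p.1 - p.2‖ ^ 2) γ := by
    refine Integrable.of_bound (by fun_prop) ((2 * R) ^ 2) ?_
    have a1 : ∀ᵐ p ∂γ, ‖p.1‖ ≤ R := by rw [ae_iff]; simpa using hs1
    have a2 : ∀ᵐ p ∂γ, ‖p.2‖ ≤ R := by rw [ae_iff]; simpa using hs2
    filter_upwards [a1, a2] with p h1 h2
    rw [Real.norm_of_nonneg (by positivity)]
    exact pow_le_pow_left₀ (norm_nonneg _) ((norm_sub_le _ _).trans (by linarith)) 2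
  set V := volume.real K with hVdef
  set w := ∫ p, ‖p.1 - p.2‖ ^ 2 ∂γ with hw
  have b1' : ∀ᵐ x ∂(volume.restrict K), ‖T1 x‖ ≤ R + 1 := b1.mono (fun x hx => by linarith)
  have b2' : ∀ᵐ x ∂(volume.restrict K), ‖T2 x‖ ≤ R + 1 := b2.mono (fun x hx => by linarith)
  have hγV : γ.real Set.univ = V := by rw [measureReal_def, hγu]; rfl
  set C1 := 2 * V + 2 * (d * (2 * (R + 1) * (2 * (R + 1) * (d * V / r) + 2 * (R + 1) * V)) +
      4 * (R + 1) ^ 2 * (d * V / r)) with hC1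
  set C2 := d * (8 * ((640 * (R + 1)) ^ 2 * (8 * V)) / h ^ 2) with hC2
  -- the estimate for every small s
  have key : ∀ s : ℝ, 0 < s → s ≤ 1 → s ≤ r → ∫ x in K, ‖T1 x - T2 x‖ ^ 2 ≤
      3 * mainI d (R + 1) r V h ((640 * (R + 1)) ^ 2 * (2 * w)) + s * (3 * (2 * C1 + C2)) := by
    intro s hs hs1' hsr
    have hε : 0 < s ^ 2 := by positivity
    have hε1 : s ^ 2 ≤ 1 := by nlinarith
    obtain ⟨ι, _, _, y, z, g, hyi, hzi, hy, hz, hgsum, hgne, hgy, hgz⟩ :=
      quantize hd γ hγne hR.le hε hs1 hs2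
    have hgle : ∀ k, g k ≤ γ := by
      intro k
      conv_rhs => rw [hgsum]
      exact Finset.single_le_sum (f := g) (fun i _ => Measure.zero_le (g i)) (Finset.mem_univ k)
    have hgfin : ∀ k, IsFiniteMeasure (g k) := fun k => isFiniteMeasure_of_le γ (hgle k)
    set m : ι → ℝ := fun k => (g k).real Set.univ with hmdef
    have hm0 : ∀ k, 0 < m k := by
      intro k
      rw [hmdef]
      simp only
      rw [measureReal_def, ENNReal.toReal_pos_iff]
      refine ⟨?_, measure_lt_top _ _⟩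
      rw [pos_iff_ne_zero]
      intro h0
      exact hgne k (Measure.measure_univ_eq_zero.1 h0)
    have hmsum : ∑ k, m k = V := by
      rw [← hγV]
      conv_rhs => rw [hgsum]
      rw [measureReal_def, Measure.finsetSum_apply, ENNReal.toReal_sum
        (fun k _ => measure_ne_top _ _)]
      rfl
    have hyR : ∀ k, ‖y k‖ ≤ R + 1 := fun k => (hy k).trans (by linarith)
    have hzR : ∀ k, ‖z k‖ ≤ R + 1 := fun k => (hz k).trans (by linarith)
    obtain ⟨ψy, hψy⟩ := exists_minP g0 hR'.le hyR hm0 (hmsum.trans restrict_real_univ.symm)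
    obtain ⟨ψz, hψz⟩ := exists_minP g0 hR'.le hzR hm0 (hmsum.trans restrict_real_univ.symm)
    -- marginal pieces
    have hθ1f : ∀ k, IsFiniteMeasure ((g k).map Prod.fst) := fun k => by
      have := hgfin k; infer_instance
    have hθ2f : ∀ k, IsFiniteMeasure ((g k).map Prod.snd) := fun k => by
      have := hgfin k; infer_instance
    have hθ1m : ∀ k, ((g k).map Prod.fst).real Set.univ = m k := fun k => by
      rw [measureReal_def, Measure.map_apply measurable_fst MeasurableSet.univ, Set.preimage_univ]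
      rfl
    have hθ2m : ∀ k, ((g k).map Prod.snd).real Set.univ = m k := fun k => by
      rw [measureReal_def, Measure.map_apply measurable_snd MeasurableSet.univ, Set.preimage_univ]
      rfl
    have hms : ∀ v : EuclideanSpace ℝ (Fin d),
        MeasurableSet {p : EuclideanSpace ℝ (Fin d) | s ^ 2 < ‖v - p‖} := fun v =>
      measurableSet_lt measurable_const (by fun_prop)
    have hθ1ε : ∀ k, ((g k).map Prod.fst) {p | s ^ 2 < ‖y k - p‖} = 0 := fun k => by
      rw [Measure.map_apply measurable_fst (hms _)]; exact hgy k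
    have hθ2ε : ∀ k, ((g k).map Prod.snd) {p | s ^ 2 < ‖z k - p‖} = 0 := fun k => by
      rw [Measure.map_apply measurable_snd (hms _)]; exact hgz k
    have hθ1s : (volume.restrict K).map T1 = ∑ k, (g k).map Prod.fst := by
      rw [← hγ1, ← map_sum_fin g measurable_fst, ← hgsum]
    have hθ2s : (volume.restrict K).map T2 = ∑ k, (g k).map Prod.snd := by
      rw [← hγ2, ← map_sum_fin g measurable_snd, ← hgsum]
    have A1 : ∫ x in K, ‖T1 x - Ty y ψy x‖ ^ 2 ≤ errA d (R + 1) r V s :=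
      approx_close hd hK hKc hKR' hR'.le hr hball hs hsr hyR hyi hm0 hmsum hψy hθ1f hθ1m hθ1ε
        hT1 o1 hθ1s b1'
    have A2 : ∫ x in K, ‖T2 x - Ty z ψz x‖ ^ 2 ≤ errA d (R + 1) r V s :=
      approx_close hd hK hKc hKR' hR'.le hr hball hs hsr hzR hzi hm0 hmsum hψz hθ2f hθ2m hθ2ε
        hT2 o2 hθ2s b2'
    obtain ⟨c, hc⟩ := pot_L2 hKm hKc hKR' hR' hV hyR hzR hyi hzi hm0 hmsum hψy hψz
    have hcost := cost_bound hgsum hint hgy hgz
    rw [hγV] at hcost
    have hc' : ∫ x in K, (mx z ψz x - mx y ψy x - c) ^ 2 ≤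
        (640 * (R + 1)) ^ 2 * (2 * w + 8 * (s ^ 2) ^ 2 * V) :=
      hc.trans (mul_le_mul_of_nonneg_left hcost (by positivity))
    have hsubs : ∀ (v : ι → EuclideanSpace ℝ (Fin d)) (ψ : ι → ℝ), Function.Injective v →
        ∀ᵐ x ∂(volume.restrict K), ∀ x', mx v ψ x + ⟪Ty v ψ x, x' - x⟫ ≤ mx v ψ x' := by
      intro v ψ hv
      filter_upwards [ae_mem_scell g0 hv (ψ := ψ)] with x hx
      obtain ⟨k, hk⟩ := hx
      exact fun x' => Ty_sub hk x'
    have I1 := interp hK hKc hr hball hh hhr hR'.le (abs_mx_sub_le hzR) continuous_mx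
      (abs_mx_sub_le hyR) continuous_mx measurable_Ty measurable_Ty (Ty_norm hR'.le hzR)
      (Ty_norm hR'.le hyR) (hsubs z ψz hzi) (hsubs y ψy hyi) hc'
    change ∫ x in K, ‖Ty z ψz x - Ty y ψy x‖ ^ 2 ≤ mainI d (R + 1) r V h
      ((640 * (R + 1)) ^ 2 * (2 * w + 8 * (s ^ 2) ^ 2 * V)) at I1
    have I2 : mainI d (R + 1) r V h ((640 * (R + 1)) ^ 2 * (2 * w + 8 * (s ^ 2) ^ 2 * V)) ≤
        mainI d (R + 1) r V h ((640 * (R + 1)) ^ 2 * (2 * w)) + s * C2 := by
      have e1 : mainI d (R + 1) r V h ((640 * (R + 1)) ^ 2 * (2 * w + 8 * (s ^ 2) ^ 2 * V)) =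
          mainI d (R + 1) r V h ((640 * (R + 1)) ^ 2 * (2 * w)) + (s ^ 2) ^ 2 * C2 := by
        unfold mainI
        rw [hC2]
        ring
      rw [e1]
      have h4 : (s ^ 2) ^ 2 ≤ s := by
        calc (s ^ 2) ^ 2 = s ^ 4 := by ring
          _ ≤ s ^ 1 := pow_le_pow_of_le_one hs.le hs1' (by norm_num)
          _ = s := pow_one s
      have hC20 : 0 ≤ C2 := by rw [hC2]; positivity
      have := mul_le_mul_of_nonneg_right h4 hC20
      linarith
    have E1 := errA_le (d := d) (R := R + 1) (r := r) hs hs1' hV.le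
    -- combine
    have hfinK : volume K ≠ ∞ := hK.measure_lt_top.ne
    have hintg : ∀ (U W : EuclideanSpace ℝ (Fin d) → EuclideanSpace ℝ (Fin d)), Measurable U →
        Measurable W → (∀ᵐ x ∂(volume.restrict K), ‖U x‖ ≤ R + 1) →
        (∀ᵐ x ∂(volume.restrict K), ‖W x‖ ≤ R + 1) →
        IntegrableOn (fun x => ‖U x - W x‖ ^ 2) K := by
      intro U W hU hW bU bW
      refine Measure.integrableOn_of_bounded hfinK
        (by fun_prop : Measurable (fun x => ‖U x - W x‖ ^ 2)).aestronglyMeasurable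
        (M := ((R + 1) + (R + 1)) ^ 2) ?_
      filter_upwards [bU, bW] with x h1 h2
      rw [Real.norm_of_nonneg (by positivity)]
      exact pow_le_pow_left₀ (norm_nonneg _) ((norm_sub_le _ _).trans (add_le_add h1 h2)) 2
    have bTy : ∀ᵐ x ∂(volume.restrict K), ‖Ty y ψy x‖ ≤ R + 1 :=
      Filter.Eventually.of_forall (Ty_norm hR'.le hyR)
    have bTz : ∀ᵐ x ∂(volume.restrict K), ‖Ty z ψz x‖ ≤ R + 1 :=
      Filter.Eventually.of_forall (Ty_norm hR'.le hzR)
    have j1 := hintg T1 (Ty y ψy) hT1 measurable_Ty b1' bTy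
    have j2 := hintg T2 (Ty z ψz) hT2 measurable_Ty b2' bTz
    have j3 := hintg (Ty z ψz) (Ty y ψy) measurable_Ty measurable_Ty bTz bTy
    have j0 := hintg T1 T2 hT1 hT2 b1' b2'
    have j12 : IntegrableOn (fun x => ‖T1 x - Ty y ψy x‖ ^ 2 + ‖T2 x - Ty z ψz x‖ ^ 2) K :=
      j1.add j2
    have j123 : IntegrableOn (fun x => ‖T1 x - Ty y ψy x‖ ^ 2 + ‖T2 x - Ty z ψz x‖ ^ 2 +
        ‖Ty z ψz x - Ty y ψy x‖ ^ 2) K := j12.add j3
    have hpt : ∀ x, ‖T1 x - T2 x‖ ^ 2 ≤ 3 * (‖T1 x - Ty y ψy x‖ ^ 2 + ‖T2 x - Ty z ψz x‖ ^ 2 +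
        ‖Ty z ψz x - Ty y ψy x‖ ^ 2) := by
      intro x
      have e1 : T1 x - T2 x = (T1 x - Ty y ψy x) + (-(T2 x - Ty z ψz x)) +
          (-(Ty z ψz x - Ty y ψy x)) := by abel
      have e2 : ‖T1 x - T2 x‖ ≤ ‖T1 x - Ty y ψy x‖ + ‖T2 x - Ty z ψz x‖ +
          ‖Ty z ψz x - Ty y ψy x‖ := by
        rw [e1]
        refine (norm_add_le _ _).trans ?_
        refine (add_le_add (norm_add_le _ _) le_rfl).trans ?_
        rw [norm_neg, norm_neg]
      have e3 := pow_le_pow_left₀ (norm_nonneg _) e2 2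
      nlinarith [sq_nonneg (‖T1 x - Ty y ψy x‖ - ‖T2 x - Ty z ψz x‖),
        sq_nonneg (‖T1 x - Ty y ψy x‖ - ‖Ty z ψz x - Ty y ψy x‖),
        sq_nonneg (‖T2 x - Ty z ψz x‖ - ‖Ty z ψz x - Ty y ψy x‖)]
    have hfin := integral_mono j0 (j123.const_mul 3) hpt
    rw [integral_const_mul, integral_add j12 j3, integral_add j1 j2] at hfin
    calc _ ≤ _ := hfin
      _ ≤ 3 * (s * C1 + s * C1 + (mainI d (R + 1) r V h ((640 * (R + 1)) ^ 2 * (2 * w)) +
          s * C2)) := by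
        have := A1.trans E1
        have := A2.trans E1
        have := I1.trans I2
        linarith
      _ = _ := by ring
  -- let s → 0
  refine le_of_forall_pos_lt_add (fun η hη => ?_)
  set C3 := 3 * (2 * C1 + C2) with hC3
  set s := min (min 1 r) (η / (2 * (|C3| + 1))) with hsdef
  have hs0 : 0 < s := by
    rw [hsdef]
    refine lt_min (lt_min one_pos hr) ?_
    have : 0 ≤ |C3| := abs_nonneg _
    positivity
  have hk := key s hs0 ((min_le_left _ _).trans (min_le_left _ _))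
    ((min_le_left _ _).trans (min_le_right _ _))
  have h5 : s * C3 < η := by
    have h6 : s ≤ η / (2 * (|C3| + 1)) := min_le_right _ _
    have h7 : 0 ≤ |C3| := abs_nonneg _
    calc s * C3 ≤ s * |C3| := mul_le_mul_of_nonneg_left (le_abs_self _) hs0.le
      _ ≤ η / (2 * (|C3| + 1)) * |C3| := mul_le_mul_of_nonneg_right h6 h7
      _ < η := by
        rw [div_mul_eq_mul_div, div_lt_iff₀ (by positivity)]
        nlinarith
  linarith

end Vale.Agent.P074
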