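import Vale.Agent.P074.Defs

/-!
# P074: four-atom targets showing that no exponent above 1/3 is admissible
-/

namespace Vale.Agent.P074

open MeasureTheory
open scoped ENNReal NNReal RealInnerProductSpace

/-- the box with given coordinate bounds -/
def boxSet {d : ℕ} (a b : Fin d → ℝ) : Set (EuclideanSpace ℝ (Fin d)) :=
  {x | ∀ i, a i ≤ x i ∧ x i ≤ b i}

lemma boxSet_eq {d : ℕ} (a b : Fin d → ℝ) :
    boxSet a b = (MeasurableEquiv.toLp 2 (Fin d → ℝ)).symm ⁻¹' (Set.Icc a b) := by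
  ext x
  simp only [boxSet, Set.mem_ofPred_eq, Set.mem_preimage, Set.mem_Icc, Pi.le_def]
  constructor
  · intro h
    exact ⟨fun i => (h i).1, fun i => (h i).2⟩
  · intro h i
    exact ⟨h.1 i, h.2 i⟩

lemma measurableSet_boxSet {d : ℕ} (a b : Fin d → ℝ) : MeasurableSet (boxSet a b) := by
  rw [boxSet_eq]
  exact (MeasurableEquiv.toLp 2 (Fin d → ℝ)).symm.measurable measurableSet_Icc

lemma volume_boxSet {d : ℕ} (a b : Fin d → ℝ) :
    volume (boxSet a b) = ∏ i, ENNReal.ofReal (b i - a i) := by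
  rw [boxSet_eq, (EuclideanSpace.volume_preserving_symm_measurableEquiv_toLp
    (Fin d)).measure_preimage measurableSet_Icc.nullMeasurableSet, Real.volume_Icc_pi]

/-- the cube `[-1,1]^d` -/
def cube (d : ℕ) : Set (EuclideanSpace ℝ (Fin d)) := boxSet (fun _ => -1) (fun _ => 1)

lemma cube_isCompact (d : ℕ) : IsCompact (cube d) := by
  have h1 : cube d = (EuclideanSpace.equiv (Fin d) ℝ).toHomeomorph ⁻¹'
      (Set.Icc (fun _ => -1) (fun _ => 1)) := by
    ext x
    simp only [cube, boxSet, Set.mem_ofPred_eq, Set.mem_preimage, Set.mem_Icc, Pi.le_def]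
    constructor
    · intro h
      exact ⟨fun i => (h i).1, fun i => (h i).2⟩
    · intro h i
      exact ⟨h.1 i, h.2 i⟩
  rw [h1]
  exact (EuclideanSpace.equiv (Fin d) ℝ).toHomeomorph.isCompact_preimage.2 isCompact_Icc

lemma cube_convex (d : ℕ) : Convex ℝ (cube d) := by
  intro x hx y hy a b ha hb hab i
  have h1 := hx i
  have h2 := hy i
  have h3 : (a • x + b • y) i = a * x i + b * y i := by simp
  simp only at h1 h2
  constructor
  · rw [h3]; nlinarith
  · rw [h3]; nlinarith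

lemma cube_interior (d : ℕ) : (interior (cube d)).Nonempty := by
  refine ⟨0, ?_⟩
  rw [mem_interior]
  refine ⟨Metric.ball 0 1, ?_, Metric.isOpen_ball, Metric.mem_ball_self one_pos⟩
  intro x hx i
  have h1 : ‖x i‖ ≤ ‖x‖ := PiLp.norm_apply_le x i
  have h2 : ‖x‖ < 1 := by simpa using hx
  have h3 := abs_le.1 ((Real.norm_eq_abs (x i)).symm.le.trans (h1.trans h2.le))
  exact h3

lemma volume_cube (d : ℕ) : volume (cube d) = ENNReal.ofReal (2 ^ d) := by
  rw [cube, volume_boxSet]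
  rw [Finset.prod_const, ← ENNReal.ofReal_pow (by norm_num)]
  norm_num

section plane

variable {d : ℕ} (i0 i1 : Fin d)

/-- point with coordinates `a` and `b` in two directions -/
noncomputable def pt (a b : ℝ) : EuclideanSpace ℝ (Fin d) :=
  EuclideanSpace.single i0 a + EuclideanSpace.single i1 b

lemma inner_pt (a b : ℝ) (x : EuclideanSpace ℝ (Fin d)) :
    ⟪pt i0 i1 a b, x⟫ = a * x i0 + b * x i1 := by
  simp [pt, inner_add_left, EuclideanSpace.inner_single_left]

/-- the four-atom optimal map -/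
noncomputable def T4 (τ k : ℝ) (x : EuclideanSpace ℝ (Fin d)) : EuclideanSpace ℝ (Fin d) :=
  if x i0 ≤ -τ - k * x i1 then pt i0 i1 (-2) 0
  else if x i0 ≤ k * x i1 then pt i0 i1 (-1) k
  else if x i0 ≤ τ - k * x i1 then pt i0 i1 1 (-k)
  else pt i0 i1 2 0

lemma measurable_coord (i : Fin d) : Measurable (fun x : EuclideanSpace ℝ (Fin d) => x i) :=
  (EuclideanSpace.proj i : EuclideanSpace ℝ (Fin d) →L[ℝ] ℝ).continuous.measurable

lemma measurable_T4 (τ k : ℝ) : Measurable (T4 i0 i1 τ k) := by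
  have m0 := measurable_coord i0
  have m1 := measurable_coord i1
  unfold T4
  refine Measurable.ite (measurableSet_le m0 (by fun_prop)) measurable_const ?_
  refine Measurable.ite (measurableSet_le m0 (by fun_prop)) measurable_const ?_
  refine Measurable.ite (measurableSet_le m0 (by fun_prop)) measurable_const measurable_const

/-- the atoms -/
def atoms (k : ℝ) : Set (EuclideanSpace ℝ (Fin d)) :=
  {pt i0 i1 (-2) 0, pt i0 i1 (-1) k, pt i0 i1 1 (-k), pt i0 i1 2 0}

lemma T4_mem (τ k : ℝ) (x : EuclideanSpace ℝ (Fin d)) : T4 i0 i1 τ k x ∈ atoms i0 i1 k := by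
  unfold T4 atoms
  split_ifs <;> simp

variable {i0 i1}

lemma pt_apply_zero (h01 : i0 ≠ i1) (a b : ℝ) : pt i0 i1 a b i0 = a := by
  simp [pt, h01]

lemma pt_apply_one (h01 : i0 ≠ i1) (a b : ℝ) : pt i0 i1 a b i1 = b := by
  simp [pt, h01.symm]

lemma pt_norm_sq (h01 : i0 ≠ i1) (a b : ℝ) : ‖pt i0 i1 a b‖ ^ 2 = a ^ 2 + b ^ 2 := by
  rw [← real_inner_self_eq_norm_sq, inner_pt, pt_apply_zero h01, pt_apply_one h01]
  ring

/-- the dual price of a site -/
noncomputable def price (τ : ℝ) (i0 : Fin d) (y : EuclideanSpace ℝ (Fin d)) : ℝ :=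
  τ * (|y i0| - 1)

lemma T4_opt_pointwise (h01 : i0 ≠ i1) {τ k : ℝ} (hτ : 0 ≤ τ) (hk : |k| ≤ τ / 4)
    {x : EuclideanSpace ℝ (Fin d)} (hx : |x i1| ≤ 1) {y : EuclideanSpace ℝ (Fin d)}
    (hy : y ∈ atoms i0 i1 k) :
    ⟪y, x⟫ - price τ i0 y ≤ ⟪T4 i0 i1 τ k x, x⟫ - price τ i0 (T4 i0 i1 τ k x) := by
  have ht : |k * x i1| ≤ τ / 4 := by
    rw [abs_mul]
    calc |k| * |x i1| ≤ τ / 4 * 1 := by gcongr
      _ = τ / 4 := by ring
  have ht' := abs_le.1 ht
  set t := k * x i1 with htdef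
  have e1 : ⟪pt i0 i1 (-2) 0, x⟫ - price τ i0 (pt i0 i1 (-2) 0) = -2 * x i0 - τ := by
    rw [inner_pt, price, pt_apply_zero h01]; norm_num
  have e2 : ⟪pt i0 i1 (-1) k, x⟫ - price τ i0 (pt i0 i1 (-1) k) = - x i0 + t := by
    rw [inner_pt, price, pt_apply_zero h01]; norm_num [htdef]
  have e3 : ⟪pt i0 i1 1 (-k), x⟫ - price τ i0 (pt i0 i1 1 (-k)) = x i0 - t := by
    rw [inner_pt, price, pt_apply_zero h01]; norm_num [htdef]; ring
  have e4 : ⟪pt i0 i1 2 0, x⟫ - price τ i0 (pt i0 i1 2 0) = 2 * x i0 - τ := by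
    rw [inner_pt, price, pt_apply_zero h01]; norm_num
  unfold T4
  rw [← htdef]
  split_ifs with h1 h2 h3
  · rw [e1]
    rcases hy with rfl | rfl | rfl | rfl
    · rw [e1]
    · rw [e2]; linarith
    · rw [e3]; linarith
    · rw [e4]; linarith
  · rw [e2]
    rcases hy with rfl | rfl | rfl | rfl
    · rw [e1]; linarith
    · rw [e2]
    · rw [e3]; linarith
    · rw [e4]; linarith
  · rw [e3]
    rcases hy with rfl | rfl | rfl | rfl
    · rw [e1]; linarith
    · rw [e2]; linarith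
    · rw [e3]
    · rw [e4]; linarith
  · rw [e4]
    rcases hy with rfl | rfl | rfl | rfl
    · rw [e1]; linarith
    · rw [e2]; linarith
    · rw [e3]; linarith
    · rw [e4]

end plane

end Vale.Agent.P074
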