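import Vale.Agent.P074.Counter

namespace Vale.Agent.P074

open MeasureTheory
open scoped ENNReal NNReal RealInnerProductSpace

variable {d : ℕ} {i0 i1 : Fin d}

instance unifOn_prob {K : Set (EuclideanSpace ℝ (Fin d))} [h : Fact (volume K ≠ 0 ∧ volume K ≠ ∞)] :
    IsProbabilityMeasure (unifOn K) := by
  constructor
  rw [unifOn, Measure.smul_apply, Measure.restrict_apply_univ, smul_eq_mul]
  exact ENNReal.inv_mul_cancel h.out.1 h.out.2

lemma fact_cube (d : ℕ) : Fact (volume (cube d) ≠ 0 ∧ volume (cube d) ≠ ∞) := by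
  rw [volume_cube]
  exact ⟨by simp, ENNReal.ofReal_ne_top⟩

/-- cost comparison from a dual price -/
lemma cost_le_of_price (ρ : Measure (EuclideanSpace ℝ (Fin d))) [IsFiniteMeasure ρ]
    {T S : EuclideanSpace ℝ (Fin d) → EuclideanSpace ℝ (Fin d)} (hT : Measurable T)
    (hS : Measurable S) (hTS : ρ.map S = ρ.map T)
    (G : EuclideanSpace ℝ (Fin d) → ℝ≥0∞) (hG : Measurable G)
    (hfin : ∫⁻ x, G (T x) ∂ρ ≠ ∞)
    (hle : ∀ᵐ x ∂ρ, ‖x - T x‖ₑ ^ 2 + G (S x) ≤ ‖x - S x‖ₑ ^ 2 + G (T x)) :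
    ∫⁻ x, ‖x - T x‖ₑ ^ 2 ∂ρ ≤ ∫⁻ x, ‖x - S x‖ₑ ^ 2 ∂ρ := by
  have h1 : ∫⁻ x, (‖x - T x‖ₑ ^ 2 + G (S x)) ∂ρ ≤ ∫⁻ x, (‖x - S x‖ₑ ^ 2 + G (T x)) ∂ρ :=
    lintegral_mono_ae hle
  have hGS : Measurable (fun x => G (S x)) := hG.comp hS
  have hGT : Measurable (fun x => G (T x)) := hG.comp hT
  rw [lintegral_add_right _ hGS, lintegral_add_right _ hGT] at h1
  have h2 : ∫⁻ x, G (S x) ∂ρ = ∫⁻ x, G (T x) ∂ρ := by
    rw [← lintegral_map hG hS, ← lintegral_map hG hT, hTS]
  rw [h2] at h1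
  exact (ENNReal.add_le_add_iff_right hfin).1 h1

lemma atoms_finite (i0 i1 : Fin d) (k : ℝ) : (atoms i0 i1 k).Finite := by
  unfold atoms
  exact Set.toFinite _

lemma T4_optimal (h01 : i0 ≠ i1) {τ k : ℝ} (hτ : 0 ≤ τ) (hτ1 : τ ≤ 1 / 4) (hk : |k| ≤ τ / 4) :
    IsOptimalMap (unifOn (cube d)) ((unifOn (cube d)).map (T4 i0 i1 τ k)) (T4 i0 i1 τ k) := by
  have := fact_cube d
  refine ⟨measurable_T4 _ _ _ _, rfl, ?_⟩
  intro S hS hSmap
  have hT := measurable_T4 i0 i1 τ k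
  set G : EuclideanSpace ℝ (Fin d) → ℝ≥0∞ := fun y => ENNReal.ofReal (‖y‖ ^ 2 - 2 * price τ i0 y)
    with hGdef
  have hpm : Measurable (fun y : EuclideanSpace ℝ (Fin d) => price τ i0 y) := by
    unfold price
    have := measurable_coord (d := d) i0
    fun_prop
  have hG : Measurable G := by
    refine ENNReal.measurable_ofReal.comp ?_
    fun_prop
  have hpos : ∀ y ∈ atoms i0 i1 k, 0 ≤ ‖y‖ ^ 2 - 2 * price τ i0 y ∧
      ‖y‖ ^ 2 - 2 * price τ i0 y ≤ 5 := by
    have hk2 : k ^ 2 ≤ 1 := by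
      have := abs_le.1 hk
      nlinarith
    rintro y (rfl | rfl | rfl | rfl)
    · rw [pt_norm_sq h01, price, pt_apply_zero h01]; norm_num; constructor <;> nlinarith
    · rw [pt_norm_sq h01, price, pt_apply_zero h01]; norm_num; constructor <;> nlinarith
    · rw [pt_norm_sq h01, price, pt_apply_zero h01]; norm_num; constructor <;> nlinarith
    · rw [pt_norm_sq h01, price, pt_apply_zero h01]; norm_num; constructor <;> nlinarith
  have hScube : ∀ᵐ x ∂(unifOn (cube d)), x ∈ cube d := by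
    rw [unifOn]
    refine Measure.ae_smul_measure ?_ _
    exact ae_restrict_mem (measurableSet_boxSet _ _)
  have hSatoms : ∀ᵐ x ∂(unifOn (cube d)), S x ∈ atoms i0 i1 k := by
    have hm : MeasurableSet (atoms i0 i1 k) := (atoms_finite i0 i1 k).measurableSet
    have h1 : ∀ᵐ y ∂((unifOn (cube d)).map S), y ∈ atoms i0 i1 k := by
      rw [hSmap]
      refine (ae_map_iff (p := fun y => y ∈ atoms i0 i1 k) hT.aemeasurable hm).2 ?_
      exact Filter.Eventually.of_forall (fun x => T4_mem _ _ _ _ _)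
    exact (ae_map_iff (p := fun y => y ∈ atoms i0 i1 k) hS.aemeasurable hm).1 h1
  refine cost_le_of_price _ hT hS hSmap G hG ?_ ?_
  · have : ∫⁻ x, G (T4 i0 i1 τ k x) ∂(unifOn (cube d)) ≤ ∫⁻ _, ENNReal.ofReal 5 ∂(unifOn (cube d)) := by
      refine lintegral_mono (fun x => ENNReal.ofReal_le_ofReal ?_)
      exact (hpos _ (T4_mem _ _ _ _ _)).2
    refine ne_top_of_le_ne_top ?_ this
    simp
  · filter_upwards [hScube, hSatoms] with x hx hxS
    have hx1 : |x i1| ≤ 1 := abs_le.2 (hx i1)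
    have h1 := T4_opt_pointwise h01 hτ hk hx1 hxS
    have hTm := T4_mem i0 i1 τ k x
    have e1 : ∀ y : EuclideanSpace ℝ (Fin d), ‖x - y‖ₑ ^ 2 = ENNReal.ofReal (‖x - y‖ ^ 2) := by
      intro y
      rw [← ofReal_norm, ENNReal.ofReal_pow (norm_nonneg _)]
    rw [e1, e1, hGdef]
    simp only
    rw [← ENNReal.ofReal_add (by positivity) (hpos _ hxS).1,
      ← ENNReal.ofReal_add (by positivity) (hpos _ hTm).1]
    apply ENNReal.ofReal_le_ofReal
    rw [@norm_sub_sq_real, @norm_sub_sq_real]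
    rw [real_inner_comm] at h1
    rw [real_inner_comm x (T4 i0 i1 τ k x)] at h1
    linarith

/-- reflection of the second direction -/
noncomputable def sig (i1 : Fin d) : EuclideanSpace ℝ (Fin d) ≃ₗᵢ[ℝ] EuclideanSpace ℝ (Fin d) :=
  LinearIsometryEquiv.piLpCongrRight 2
    (fun i => if i = i1 then LinearIsometryEquiv.neg ℝ else LinearIsometryEquiv.refl ℝ ℝ)

lemma sig_apply (i1 : Fin d) (x : EuclideanSpace ℝ (Fin d)) (i : Fin d) :
    sig i1 x i = if i = i1 then - x i else x i := by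
  unfold sig
  simp only [LinearIsometryEquiv.piLpCongrRight_apply]
  split_ifs with h <;> simp

lemma sig_preserves (i1 : Fin d) : (unifOn (cube d)).map (sig i1) = unifOn (cube d) := by
  have h1 : MeasurePreserving (sig i1) (volume : Measure (EuclideanSpace ℝ (Fin d))) volume :=
    (sig i1).measurePreserving
  have h2 : (sig i1) ⁻¹' (cube d) = cube d := by
    ext x
    simp only [cube, boxSet, Set.mem_preimage, Set.mem_ofPred_eq, sig_apply]
    refine forall_congr' (fun i => ?_)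
    split_ifs with h
    · constructor <;> intro ⟨h1, h2⟩ <;> constructor <;> linarith
    · rfl
  unfold unifOn
  rw [Measure.map_smul]
  congr 1
  have h3 := h1.restrict_preimage (measurableSet_boxSet (fun _ => -1) (fun _ => 1))
  change MeasurePreserving _ (volume.restrict ((sig i1) ⁻¹' (cube d))) (volume.restrict (cube d)) at h3
  rw [h2] at h3
  exact h3.map_eq

lemma sig_pt (h01 : i0 ≠ i1) (a b : ℝ) : sig i1 (pt i0 i1 a b) = pt i0 i1 a (-b) := by
  ext i
  rw [sig_apply]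
  split_ifs with h
  · subst h
    rw [pt_apply_one h01, pt_apply_one h01]
  · simp [pt, h]

lemma T4_sig (h01 : i0 ≠ i1) (τ k : ℝ) (x : EuclideanSpace ℝ (Fin d)) :
    T4 i0 i1 τ (-k) x = sig i1 (T4 i0 i1 τ k (sig i1 x)) := by
  unfold T4
  rw [sig_apply, sig_apply, if_neg h01, if_pos rfl]
  have e1 : -k * x i1 = k * -x i1 := by ring
  rw [e1]
  split_ifs <;> rw [sig_pt h01] <;> simp

end Vale.Agent.P074
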