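import Vale.Agent.P074.Counter2

namespace Vale.Agent.P074

open MeasureTheory
open scoped ENNReal NNReal RealInnerProductSpace

variable {d : ℕ} {i0 i1 : Fin d}

lemma unifOn_boxSet (a b : Fin d → ℝ) (ha : ∀ i, -1 ≤ a i) (hb : ∀ i, b i ≤ 1) :
    unifOn (cube d) (boxSet a b) = ∏ i, ENNReal.ofReal ((b i - a i) / 2) := by
  have h1 : boxSet a b ∩ cube d = boxSet a b := by
    apply Set.inter_eq_left.2
    intro x hx i
    exact ⟨(ha i).trans (hx i).1, (hx i).2.trans (hb i)⟩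
  rw [unifOn, Measure.smul_apply, Measure.restrict_apply (measurableSet_boxSet a b), h1,
    volume_boxSet, volume_cube, smul_eq_mul]
  have h2 : (ENNReal.ofReal (2 ^ d))⁻¹ = ∏ _i : Fin d, ENNReal.ofReal (1 / 2) := by
    rw [Finset.prod_const, ← ENNReal.ofReal_inv_of_pos (by positivity), ← ENNReal.ofReal_pow
      (by norm_num)]
    simp
  rw [h2, ← Finset.prod_mul_distrib]
  refine Finset.prod_congr rfl (fun i _ => ?_)
  rw [← ENNReal.ofReal_mul (by norm_num)]
  congr 1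
  ring

lemma unifOn_slab (i0 : Fin d) {τ : ℝ} (hτ1 : τ ≤ 1 / 4) :
    unifOn (cube d) {x | |x i0| ≤ 2 * τ} ≤ ENNReal.ofReal (2 * τ) := by
  set a : Fin d → ℝ := Function.update (fun _ => -1) i0 (-(2 * τ)) with ha
  set b : Fin d → ℝ := Function.update (fun _ => 1) i0 (2 * τ) with hb
  have hm : MeasurableSet {x : EuclideanSpace ℝ (Fin d) | |x i0| ≤ 2 * τ} :=
    measurableSet_le ((measurable_coord i0).abs) measurable_const
  have h1 : unifOn (cube d) {x | |x i0| ≤ 2 * τ} = unifOn (cube d) (boxSet a b) := by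
    rw [unifOn, Measure.smul_apply, Measure.smul_apply, Measure.restrict_apply hm,
      Measure.restrict_apply (measurableSet_boxSet a b)]
    congr 2
    ext x
    simp only [Set.mem_inter_iff, Set.mem_ofPred_eq, cube, boxSet]
    constructor
    · rintro ⟨h1, h2⟩
      refine ⟨fun i => ?_, h2⟩
      by_cases hi : i = i0
      · subst hi
        simp only [ha, hb, Function.update_self]
        exact abs_le.1 h1
      · simp only [ha, hb, Function.update_of_ne hi]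
        exact h2 i
    · rintro ⟨h1, h2⟩
      refine ⟨?_, h2⟩
      have := h1 i0
      simp only [ha, hb, Function.update_self] at this
      exact abs_le.2 this
  rw [h1, unifOn_boxSet]
  · rw [Finset.prod_eq_single i0]
    · simp only [ha, hb, Function.update_self]
      apply ENNReal.ofReal_le_ofReal
      linarith
    · intro i _ hi
      simp only [ha, hb, Function.update_of_ne hi]
      norm_num
    · simp
  · intro i
    by_cases hi : i = i0
    · subst hi; simp only [ha, Function.update_self]; linarith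
    · simp only [ha, Function.update_of_ne hi]; norm_num
  · intro i
    by_cases hi : i = i0
    · subst hi; simp only [hb, Function.update_self]; linarith
    · simp only [hb, Function.update_of_ne hi]; norm_num

lemma W2_le_of_maps (ρ : Measure (EuclideanSpace ℝ (Fin d)))
    {T S : EuclideanSpace ℝ (Fin d) → EuclideanSpace ℝ (Fin d)} (hT : Measurable T)
    (hS : Measurable S) :
    W2 (ρ.map T) (ρ.map S) ≤ (∫⁻ x, ‖T x - S x‖ₑ ^ 2 ∂ρ) ^ (1 / 2 : ℝ) := by
  have hTS : Measurable (fun x => (T x, S x)) := hT.prodMk hS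
  have e1 : (ρ.map (fun x => (T x, S x))).map Prod.fst = ρ.map T := by
    rw [Measure.map_map measurable_fst hTS]; rfl
  have e2 : (ρ.map (fun x => (T x, S x))).map Prod.snd = ρ.map S := by
    rw [Measure.map_map measurable_snd hTS]; rfl
  refine (iInf_le _ ⟨ρ.map (fun x => (T x, S x)), e1, e2⟩).trans ?_
  have e3 : ∫⁻ p, ‖p.1 - p.2‖ₑ ^ 2 ∂(ρ.map (fun x => (T x, S x))) =
      ∫⁻ x, ‖T x - S x‖ₑ ^ 2 ∂ρ := by
    rw [lintegral_map (by fun_prop) hTS]
  exact (congrArg (fun t : ℝ≥0∞ => t ^ (1 / 2 : ℝ)) e3).le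

lemma pt_sub (a b a' b' : ℝ) : pt i0 i1 a b - pt i0 i1 a' b' = pt i0 i1 (a - a') (b - b') := by
  ext i
  simp only [pt, PiLp.sub_apply, PiLp.add_apply, PiLp.single_apply]
  split_ifs <;> ring

lemma enorm_pt_sq (h01 : i0 ≠ i1) (a b : ℝ) :
    ‖pt i0 i1 a b‖ₑ ^ 2 = ENNReal.ofReal (a ^ 2 + b ^ 2) := by
  rw [← ofReal_norm, ← ENNReal.ofReal_pow (norm_nonneg _), pt_norm_sq h01]

lemma W2_T4 (h01 : i0 ≠ i1) {τ : ℝ} (hτ : 0 < τ) (hτ1 : τ ≤ 1 / 4) :
    W2 ((unifOn (cube d)).map (T4 i0 i1 τ (τ / 4))) ((unifOn (cube d)).map (T4 i0 i1 τ (-(τ / 4))))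
      ≤ (ENNReal.ofReal (τ ^ 3)) ^ (1 / 2 : ℝ) := by
  have hT := measurable_T4 i0 i1 τ (τ / 4)
  have hs : Measurable (sig i1 : EuclideanSpace ℝ (Fin d) → EuclideanSpace ℝ (Fin d)) :=
    (sig i1).continuous.measurable
  have h1 : T4 i0 i1 τ (-(τ / 4)) = (fun x => sig i1 (T4 i0 i1 τ (τ / 4) x)) ∘ sig i1 := by
    funext x
    exact T4_sig h01 τ (τ / 4) x
  have h2 : (unifOn (cube d)).map (T4 i0 i1 τ (-(τ / 4))) =
      (unifOn (cube d)).map (fun x => sig i1 (T4 i0 i1 τ (τ / 4) x)) := by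
    have hc : Measurable (fun x => sig i1 (T4 i0 i1 τ (τ / 4) x)) := hs.comp hT
    rw [h1, ← Measure.map_map hc hs, sig_preserves]
  rw [h2]
  refine (W2_le_of_maps _ hT (hs.comp hT)).trans ?_
  refine ENNReal.rpow_le_rpow ?_ (by norm_num)
  have hpt : ∀ᵐ x ∂(unifOn (cube d)), ‖T4 i0 i1 τ (τ / 4) x - sig i1 (T4 i0 i1 τ (τ / 4) x)‖ₑ ^ 2 ≤
      Set.indicator {x : EuclideanSpace ℝ (Fin d) | |x i0| ≤ 2 * τ}
        (fun _ => ENNReal.ofReal (τ ^ 2 / 4)) x := by
    have hScube : ∀ᵐ x ∂(unifOn (cube d)), x ∈ cube d := by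
      rw [unifOn]
      refine Measure.ae_smul_measure ?_ _
      exact ae_restrict_mem (measurableSet_boxSet _ _)
    filter_upwards [hScube] with x hx
    have hx1 := hx i1
    simp only at hx1
    by_cases hx0 : |x i0| ≤ 2 * τ
    · rw [Set.indicator_of_mem (by exact hx0)]
      unfold T4
      split_ifs <;> rw [sig_pt h01, pt_sub, enorm_pt_sq h01] <;> apply ENNReal.ofReal_le_ofReal <;>
        nlinarith
    · rw [Set.indicator_of_notMem (by exact hx0)]
      have hlt : 2 * τ < |x i0| := not_le.1 hx0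
      unfold T4
      split_ifs with h1 h2 h3
      · rw [sig_pt h01, pt_sub, enorm_pt_sq h01]; norm_num
      · exfalso
        apply hx0
        rw [abs_le]
        push Not at h1
        constructor <;> nlinarith
      · exfalso
        apply hx0
        rw [abs_le]
        push Not at h1
        constructor <;> nlinarith
      · rw [sig_pt h01, pt_sub, enorm_pt_sq h01]; norm_num
  have hm : MeasurableSet {x : EuclideanSpace ℝ (Fin d) | |x i0| ≤ 2 * τ} :=
    measurableSet_le ((measurable_coord i0).abs) measurable_const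
  refine (lintegral_mono_ae hpt).trans ?_
  rw [lintegral_indicator hm, setLIntegral_const]
  calc ENNReal.ofReal (τ ^ 2 / 4) * unifOn (cube d) {x | |x i0| ≤ 2 * τ}
      ≤ ENNReal.ofReal (τ ^ 2 / 4) * ENNReal.ofReal (2 * τ) := by
        gcongr
        exact unifOn_slab i0 hτ1
    _ = ENNReal.ofReal (τ ^ 2 / 4 * (2 * τ)) :=
        (ENNReal.ofReal_mul (p := τ ^ 2 / 4) (q := 2 * τ) (by positivity)).symm
    _ ≤ ENNReal.ofReal (τ ^ 3) := by
        apply ENNReal.ofReal_le_ofReal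
        have : 0 < τ ^ 3 := by positivity
        nlinarith

lemma unifOn_region (h01 : i0 ≠ i1) {τ : ℝ} (hτ : 0 < τ) (hτ1 : τ ≤ 1 / 4) :
    ENNReal.ofReal (τ / 64) ≤
      unifOn (cube d) {x | |x i0| ≤ τ / 16 ∧ 1 / 2 ≤ x i1 ∧ x i1 ≤ 1} := by
  set a : Fin d → ℝ := fun i => if i = i0 then -(τ / 16) else if i = i1 then 1 / 2 else -1 with ha
  set b : Fin d → ℝ := fun i => if i = i0 then τ / 16 else 1 with hb
  have h2 : boxSet a b ⊆ {x | |x i0| ≤ τ / 16 ∧ 1 / 2 ≤ x i1 ∧ x i1 ≤ 1} := by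
    intro x hx
    have e0 := hx i0
    have e1 := hx i1
    simp only [ha, hb, if_true, if_neg h01.symm] at e0 e1
    exact ⟨abs_le.2 e0, e1⟩
  refine le_trans ?_ (measure_mono h2)
  rw [unifOn_boxSet]
  · rw [Finset.prod_eq_mul i0 i1 h01]
    · simp only [ha, hb, if_true, if_neg h01.symm]
      rw [← ENNReal.ofReal_mul (by linarith)]
      apply ENNReal.ofReal_le_ofReal
      linarith
    · rintro i _ ⟨hi, hi'⟩
      simp only [ha, hb, if_neg hi, if_neg hi']
      norm_num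
    · simp
    · simp
  · intro i
    simp only [ha]
    split_ifs <;> linarith
  · intro i
    simp only [hb]
    split_ifs <;> linarith

lemma T4_diff (h01 : i0 ≠ i1) {τ : ℝ} (hτ : 0 < τ) (hτ1 : τ ≤ 1 / 4) :
    ENNReal.ofReal (τ / 16) ≤
      ∫⁻ x, ‖T4 i0 i1 τ (τ / 4) x - T4 i0 i1 τ (-(τ / 4)) x‖ₑ ^ 2 ∂(unifOn (cube d)) := by
  have hpt : ∀ x : EuclideanSpace ℝ (Fin d), Set.indicator {x : EuclideanSpace ℝ (Fin d) |
      |x i0| ≤ τ / 16 ∧ 1 / 2 ≤ x i1 ∧ x i1 ≤ 1} (fun _ => ENNReal.ofReal 4) x ≤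
      ‖T4 i0 i1 τ (τ / 4) x - T4 i0 i1 τ (-(τ / 4)) x‖ₑ ^ 2 := by
    intro x
    by_cases hx : |x i0| ≤ τ / 16 ∧ 1 / 2 ≤ x i1 ∧ x i1 ≤ 1
    · rw [Set.indicator_of_mem (by exact hx)]
      obtain ⟨h0, h1, h2⟩ := hx
      have h0' := abs_le.1 h0
      have e1 : T4 i0 i1 τ (τ / 4) x = pt i0 i1 (-1) (τ / 4) := by
        unfold T4
        rw [if_neg (by push Not; nlinarith), if_pos (by nlinarith)]
      have e2 : T4 i0 i1 τ (-(τ / 4)) x = pt i0 i1 1 (-(-(τ / 4))) := by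
        unfold T4
        rw [if_neg (by push Not; nlinarith), if_neg (by push Not; nlinarith),
          if_pos (by nlinarith)]
      rw [e1, e2, pt_sub, enorm_pt_sq h01]
      apply ENNReal.ofReal_le_ofReal
      nlinarith
    · rw [Set.indicator_of_notMem (by exact hx)]
      exact zero_le
  have m0 := measurable_coord (d := d) i0
  have m1 := measurable_coord (d := d) i1
  have hm : MeasurableSet {x : EuclideanSpace ℝ (Fin d) |
      |x i0| ≤ τ / 16 ∧ 1 / 2 ≤ x i1 ∧ x i1 ≤ 1} := by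
    exact (measurableSet_le m0.abs measurable_const).inter
      ((measurableSet_le measurable_const m1).inter (measurableSet_le m1 measurable_const))
  calc ENNReal.ofReal (τ / 16) = ENNReal.ofReal 4 * ENNReal.ofReal (τ / 64) := by
        rw [← ENNReal.ofReal_mul (by norm_num)]; congr 1; ring
    _ ≤ ENNReal.ofReal 4 * unifOn (cube d) {x | |x i0| ≤ τ / 16 ∧ 1 / 2 ≤ x i1 ∧ x i1 ≤ 1} := by
        gcongr
        exact unifOn_region h01 hτ hτ1
    _ = ∫⁻ x, Set.indicator {x : EuclideanSpace ℝ (Fin d) |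
      |x i0| ≤ τ / 16 ∧ 1 / 2 ≤ x i1 ∧ x i1 ≤ 1} (fun _ => ENNReal.ofReal 4) x
        ∂(unifOn (cube d)) := by
        rw [lintegral_indicator hm, setLIntegral_const]
    _ ≤ _ := lintegral_mono hpt

lemma T4_norm_le (h01 : i0 ≠ i1) {τ k : ℝ} (hk : |k| ≤ 1) (x : EuclideanSpace ℝ (Fin d)) :
    T4 i0 i1 τ k x ∈ Metric.closedBall (0 : EuclideanSpace ℝ (Fin d)) 3 := by
  rw [mem_closedBall_zero_iff]
  have hk' := abs_le.1 hk
  have h1 : ‖T4 i0 i1 τ k x‖ ^ 2 ≤ 3 ^ 2 := by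
    unfold T4
    split_ifs <;> rw [pt_norm_sq h01] <;> nlinarith
  exact le_of_sq_le_sq h1 (by norm_num)

/-- No exponent above `1/3` is admissible. -/
theorem not_admissible {d : ℕ} (hd : 2 ≤ d) {α : ℝ} (hα : 1 / 3 < α) : ¬ Admissible d α := by
  intro hA
  set i0 : Fin d := ⟨0, by omega⟩ with hi0
  set i1 : Fin d := ⟨1, by omega⟩ with hi1
  have h01 : i0 ≠ i1 := by
    intro h
    rw [hi0, hi1, Fin.mk.injEq] at h
    omega
  have := fact_cube d
  obtain ⟨C, hC⟩ := hA (cube d) (cube_isCompact d) (cube_convex d) (cube_interior d)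
    (Metric.closedBall 0 3) (isCompact_closedBall _ _) ⟨0, by simp⟩
  have key : ∀ τ : ℝ, 0 < τ → τ ≤ 1 / 4 → (ENNReal.ofReal (τ / 16)) ^ (1 / 2 : ℝ) ≤
      C * ((ENNReal.ofReal (τ ^ 3)) ^ (1 / 2 : ℝ)) ^ α := by
    intro τ hτ hτ1
    have hprob : ∀ k : ℝ, |k| ≤ 1 → IsProbOn (Metric.closedBall 0 3)
        ((unifOn (cube d)).map (T4 i0 i1 τ k)) := by
      intro k hk
      have hT := measurable_T4 i0 i1 τ k
      refine ⟨Measure.isProbabilityMeasure_map hT.aemeasurable, ?_⟩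
      rw [Measure.map_apply hT (Metric.isClosed_closedBall.measurableSet.compl)]
      have : T4 i0 i1 τ k ⁻¹' (Metric.closedBall 0 3)ᶜ = ∅ := by
        ext x
        simp only [Set.mem_preimage, Set.mem_compl_iff, Set.mem_empty_iff_false, iff_false, not_not]
        exact T4_norm_le h01 hk x
      rw [this, measure_empty]
    have hk1 : |τ / 4| ≤ 1 := by rw [abs_of_pos (by positivity)]; linarith
    have hk2 : |-(τ / 4)| ≤ 1 := by rw [abs_neg]; exact hk1
    have hk3 : |τ / 4| ≤ τ / 4 := by rw [abs_of_pos (by positivity)]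
    have hk4 : |-(τ / 4)| ≤ τ / 4 := by rw [abs_neg]; exact hk3
    have h1 := hC _ _ (hprob _ hk1) (hprob _ hk2) _ _ (T4_optimal h01 hτ.le hτ1 hk3)
      (T4_optimal h01 hτ.le hτ1 hk4)
    refine (ENNReal.rpow_le_rpow (T4_diff h01 hτ hτ1) (by norm_num)).trans (h1.trans ?_)
    gcongr
    exact W2_T4 h01 hτ hτ1
  have key2 : ∀ τ : ℝ, 0 < τ → τ ≤ 1 / 4 → 1 / 4 ≤ (C : ℝ) * τ ^ ((3 * α - 1) / 2) := by
    intro τ hτ hτ1
    have h1 := key τ hτ hτ1
    rw [← ENNReal.rpow_mul, ENNReal.ofReal_rpow_of_pos (by positivity),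
      ENNReal.ofReal_rpow_of_pos (by positivity)] at h1
    have h2 : (C : ℝ≥0∞) = ENNReal.ofReal (C : ℝ) := by simp
    rw [h2, ← ENNReal.ofReal_mul (NNReal.coe_nonneg C), ENNReal.ofReal_le_ofReal_iff
      (by positivity)] at h1
    have h3 : (τ ^ 3) ^ (1 / 2 * α) = τ ^ (1 / 2 : ℝ) * τ ^ ((3 * α - 1) / 2) := by
      rw [← Real.rpow_natCast, ← Real.rpow_mul hτ.le, ← Real.rpow_add hτ]
      congr 1
      push_cast
      ring
    have h4 : (τ / 16) ^ (1 / 2 : ℝ) = τ ^ (1 / 2 : ℝ) * (1 / 4) := by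
      rw [div_eq_mul_inv, Real.mul_rpow hτ.le (by norm_num)]
      congr 1
      rw [← Real.sqrt_eq_rpow, show (16 : ℝ)⁻¹ = (1 / 4) ^ 2 by norm_num,
        Real.sqrt_sq (by norm_num)]
    rw [h3, h4] at h1
    have h5 : 0 < τ ^ (1 / 2 : ℝ) := by positivity
    have h6 : τ ^ (1 / 2 : ℝ) * (1 / 4) ≤ τ ^ (1 / 2 : ℝ) * ((C : ℝ) * τ ^ ((3 * α - 1) / 2)) := by
      calc _ ≤ _ := h1
        _ = _ := by ring
    exact le_of_mul_le_mul_left h6 h5
  have hp : 0 < (3 * α - 1) / 2 := by linarith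
  have hlim : Filter.Tendsto (fun τ : ℝ => (C : ℝ) * τ ^ ((3 * α - 1) / 2))
      (nhdsWithin 0 (Set.Ioi 0)) (nhds ((C : ℝ) * 0)) := by
    refine Filter.Tendsto.const_mul _ ?_
    have := (Real.continuous_rpow_const hp.le).tendsto 0
    rw [Real.zero_rpow hp.ne'] at this
    exact this.mono_left nhdsWithin_le_nhds
  have hev : ∀ᶠ τ in nhdsWithin (0 : ℝ) (Set.Ioi 0), 1 / 4 ≤ (C : ℝ) * τ ^ ((3 * α - 1) / 2) := by
    have h1 : Set.Ioc (0 : ℝ) (1 / 4) ∈ nhdsWithin (0 : ℝ) (Set.Ioi 0) :=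
      Ioc_mem_nhdsGT (by norm_num)
    filter_upwards [h1] with τ hτ
    exact key2 τ hτ.1 hτ.2
  have h := ge_of_tendsto hlim hev
  norm_num at h

end Vale.Agent.P074
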