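import Mathlib

/-!
# P074: definitions (quadratic optimal transport maps, Wasserstein distance, admissible exponents)
-/

namespace Vale.Agent.P074

open MeasureTheory
open scoped ENNReal NNReal

/-- The uniform probability measure on `K`. -/
noncomputable def unifOn {d : ℕ} (K : Set (EuclideanSpace ℝ (Fin d))) :
    Measure (EuclideanSpace ℝ (Fin d)) :=
  (volume K)⁻¹ • volume.restrict K

/-- `T` is a quadratic optimal transport map from `ρ` to `μ`: it is Borel, pushes `ρ` forward to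
`μ`, and minimizes `∫ |x - S x|² dρ` over all Borel maps `S` pushing `ρ` forward to `μ`. -/
def IsOptimalMap {d : ℕ} (ρ μ : Measure (EuclideanSpace ℝ (Fin d)))
    (T : EuclideanSpace ℝ (Fin d) → EuclideanSpace ℝ (Fin d)) : Prop :=
  Measurable T ∧ ρ.map T = μ ∧
    ∀ S : EuclideanSpace ℝ (Fin d) → EuclideanSpace ℝ (Fin d), Measurable S → ρ.map S = μ →
      ∫⁻ x, ‖x - T x‖ₑ ^ 2 ∂ρ ≤ ∫⁻ x, ‖x - S x‖ₑ ^ 2 ∂ρ

/-- The 2-Wasserstein distance: infimum of `(∫ |y - z|² dπ)^{1/2}` over couplings `π`. -/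
noncomputable def W2 {d : ℕ} (μ ν : Measure (EuclideanSpace ℝ (Fin d))) : ℝ≥0∞ :=
  ⨅ π : {π : Measure (EuclideanSpace ℝ (Fin d) × EuclideanSpace ℝ (Fin d)) //
      π.map Prod.fst = μ ∧ π.map Prod.snd = ν},
    (∫⁻ p, ‖p.1 - p.2‖ₑ ^ 2 ∂π.1) ^ (1 / 2 : ℝ)

/-- Borel probability measures supported in `Y`. -/
def IsProbOn {d : ℕ} (Y : Set (EuclideanSpace ℝ (Fin d)))
    (μ : Measure (EuclideanSpace ℝ (Fin d))) : Prop :=
  IsProbabilityMeasure μ ∧ μ Yᶜ = 0

/-- The exponent `α` is admissible in dimension `d`: for all compact convex `K` with nonempty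
interior and all nonempty compact `Y` there is a finite constant `C` such that
`‖T_μ - T_ν‖_{L²(ρ)} ≤ C W₂(μ, ν)^α` for all Borel probability measures `μ, ν` supported in `Y`,
where `ρ` is the uniform probability measure on `K`. -/
def Admissible (d : ℕ) (α : ℝ) : Prop :=
  ∀ K : Set (EuclideanSpace ℝ (Fin d)), IsCompact K → Convex ℝ K → (interior K).Nonempty →
    ∀ Y : Set (EuclideanSpace ℝ (Fin d)), IsCompact Y → Y.Nonempty →
      ∃ C : ℝ≥0, ∀ μ ν : Measure (EuclideanSpace ℝ (Fin d)), IsProbOn Y μ → IsProbOn Y ν →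
        ∀ Tμ Tν : EuclideanSpace ℝ (Fin d) → EuclideanSpace ℝ (Fin d),
          IsOptimalMap (unifOn K) μ Tμ → IsOptimalMap (unifOn K) ν Tν →
            (∫⁻ x, ‖Tμ x - Tν x‖ₑ ^ 2 ∂(unifOn K)) ^ (1 / 2 : ℝ) ≤ C * W2 μ ν ^ α

end Vale.Agent.P074
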