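import Mathlib

/-!
# P074: interpolation between the potential estimate and convexity
-/

namespace Vale.Agent.P074

open MeasureTheory
open scoped ENNReal NNReal RealInnerProductSpace

variable {d : ℕ}

/-- the homothetic inner copy of `K` -/
noncomputable def innerSet (K : Set (EuclideanSpace ℝ (Fin d))) (x0 : EuclideanSpace ℝ (Fin d))
    (s : ℝ) : Set (EuclideanSpace ℝ (Fin d)) :=
  AffineMap.homothety x0 (1 - s) '' K

section inner

variable {K : Set (EuclideanSpace ℝ (Fin d))} {x0 : EuclideanSpace ℝ (Fin d)} {r h : ℝ}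

lemma innerSet_add_mem (hKc : Convex ℝ K) (hr : 0 < r) (hball : Metric.closedBall x0 r ⊆ K)
    (hh : 0 < h) (hhr : h ≤ r) {x : EuclideanSpace ℝ (Fin d)} (hx : x ∈ innerSet K x0 (h / r))
    {v : EuclideanSpace ℝ (Fin d)} (hv : ‖v‖ ≤ h) : x + v ∈ K := by
  obtain ⟨k, hk, rfl⟩ := hx
  have hs0 : 0 < h / r := by positivity
  have hs1 : h / r ≤ 1 := by rw [div_le_one hr]; exact hhr
  have h1 : x0 + (h / r)⁻¹ • v ∈ K := by
    apply hball
    rw [mem_closedBall_iff_norm, add_sub_cancel_left, norm_smul, norm_inv,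
      Real.norm_of_nonneg hs0.le]
    rw [inv_mul_le_iff₀ hs0, div_mul_cancel₀ _ hr.ne']
    exact hv
  have h2 := hKc hk h1 (sub_nonneg.2 hs1) hs0.le (by ring)
  have h3 : AffineMap.homothety x0 (1 - h / r) k + v =
      (1 - h / r) • k + (h / r) • (x0 + (h / r)⁻¹ • v) := by
    rw [AffineMap.homothety_apply, smul_add, smul_smul, mul_inv_cancel₀ hs0.ne', one_smul,
      vsub_eq_sub, vadd_eq_add, smul_sub, sub_smul _ _ x0, one_smul]
    abel
  rw [h3]
  exact h2

lemma innerSet_subset (hKc : Convex ℝ K) (hr : 0 < r) (hball : Metric.closedBall x0 r ⊆ K)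
    (hh : 0 < h) (hhr : h ≤ r) : innerSet K x0 (h / r) ⊆ K := by
  intro x hx
  have := innerSet_add_mem hKc hr hball hh hhr hx (v := 0) (by simpa using hh.le)
  simpa using this

lemma innerSet_compact (hK : IsCompact K) (s : ℝ) : IsCompact (innerSet K x0 s) := by
  unfold innerSet
  exact hK.image (AffineMap.homothety_continuous _ _)

lemma innerSet_volume {s : ℝ} (hs1 : s ≤ 1) :
    (1 - d * s) * volume.real K ≤ volume.real (innerSet K x0 s) := by
  unfold innerSet
  rw [measureReal_def, measureReal_def, Measure.addHaar_image_homothety, finrank_euclideanSpace_fin,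
    ENNReal.toReal_mul, ENNReal.toReal_ofReal (abs_nonneg _), abs_of_nonneg (by
      have : 0 ≤ 1 - s := by linarith
      positivity)]
  have h1 : 1 - d * s ≤ (1 - s) ^ d := by
    have := one_add_mul_le_pow (show (-2 : ℝ) ≤ -s by linarith) d
    calc 1 - d * s = 1 + d * (-s) := by ring
      _ ≤ (1 + -s) ^ d := this
      _ = _ := by ring
  exact mul_le_mul_of_nonneg_right h1 ENNReal.toReal_nonneg

lemma inner_diff_volume (hK : IsCompact K) (hKc : Convex ℝ K) (hr : 0 < r)
    (hball : Metric.closedBall x0 r ⊆ K) (hh : 0 < h) (hhr : h ≤ r) :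
    volume.real (K \ innerSet K x0 (h / r)) ≤ d * (h / r) * volume.real K := by
  have h1 := innerSet_subset hKc hr hball hh hhr
  have h2 := innerSet_volume (x0 := x0) (d := d) (K := K) (s := h / r)
    (by rw [div_le_one hr]; exact hhr)
  rw [measureReal_sdiff h1 (innerSet_compact hK _).measurableSet hK.measure_lt_top.ne]
  linarith

/-- translate of the inner set -/
lemma inner_translate_volume (hK : IsCompact K) (hKc : Convex ℝ K) (hr : 0 < r)
    (hball : Metric.closedBall x0 r ⊆ K) (hh : 0 < h) (hhr : h ≤ r)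
    {v : EuclideanSpace ℝ (Fin d)} (hv : ‖v‖ ≤ h) :
    ((fun x => x + v) ⁻¹' (innerSet K x0 (h / r)) ⊆ K) ∧
    volume.real (K \ ((fun x => x + v) ⁻¹' (innerSet K x0 (h / r)))) ≤
      d * (h / r) * volume.real K := by
  have hsub : (fun x => x + v) ⁻¹' (innerSet K x0 (h / r)) ⊆ K := by
    intro x hx
    have := innerSet_add_mem hKc hr hball hh hhr hx (v := -v) (by rwa [norm_neg])
    simpa using this
  refine ⟨hsub, ?_⟩
  have hm : MeasurableSet (innerSet K x0 (h / r)) := (innerSet_compact hK _).measurableSet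
  have h2 := innerSet_volume (x0 := x0) (d := d) (K := K) (s := h / r)
    (by rw [div_le_one hr]; exact hhr)
  have h3 : volume.real ((fun x => x + v) ⁻¹' (innerSet K x0 (h / r))) =
      volume.real (innerSet K x0 (h / r)) := by
    rw [measureReal_def, (measurePreserving_add_right volume v).measure_preimage
      hm.nullMeasurableSet, ← measureReal_def]
  rw [measureReal_sdiff hsub (measurable_add_const v hm) hK.measure_lt_top.ne, h3]
  linarith

lemma cont_intOn (hK : IsCompact K) {S : Set (EuclideanSpace ℝ (Fin d))} (hS : S ⊆ K)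
    {u : EuclideanSpace ℝ (Fin d) → ℝ} (hu : Continuous u) : IntegrableOn u S :=
  (hu.continuousOn.integrableOn_compact hK).mono_set hS

/-- the integral of second differences over the inner set is small -/
lemma sd_integral (hK : IsCompact K) (hKc : Convex ℝ K) (hr : 0 < r)
    (hball : Metric.closedBall x0 r ⊆ K) (hh : 0 < h) (hhr : h ≤ r)
    {φ : EuclideanSpace ℝ (Fin d) → ℝ} {R : ℝ} (hR : 0 ≤ R)
    (hφ : ∀ x x', |φ x - φ x'| ≤ R * ‖x - x'‖) (hφc : Continuous φ)
    {v : EuclideanSpace ℝ (Fin d)} (hv : ‖v‖ ≤ h) :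
    ∫ x in innerSet K x0 (h / r), (φ (x + v) + φ (x - v) - 2 * φ x) ≤
      2 * R * h * (d * (h / r) * volume.real K) := by
  set Kh := innerSet K x0 (h / r) with hKh
  have hKhc : IsCompact Kh := innerSet_compact hK _
  have hKhm := hKhc.measurableSet
  obtain ⟨hsub', hvol'⟩ := inner_translate_volume hK hKc hr hball hh hhr hv
  have hsub := innerSet_subset hKc hr hball hh hhr
  have hvol := inner_diff_volume hK hKc hr hball hh hhr
  set Kh' := (fun x => x + v) ⁻¹' Kh with hKh'
  have hKh'm : MeasurableSet Kh' := measurable_add_const v hKhm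
  set D : EuclideanSpace ℝ (Fin d) → ℝ := fun x => φ (x + v) - φ x with hD
  have cD : Continuous D := by fun_prop
  have bD : ∀ x, |D x| ≤ R * h := by
    intro x
    refine (hφ _ _).trans ?_
    rw [add_sub_cancel_left]
    gcongr
  have e1 : ∀ x, φ (x + v) + φ (x - v) - 2 * φ x = D x - D (x - v) := by
    intro x
    rw [hD]
    simp only [sub_add_cancel]
    ring
  simp_rw [e1]
  have cD' : Continuous (fun x => D (x - v)) := by fun_prop
  rw [integral_sub (cont_intOn hK hsub cD) (cont_intOn hK hsub cD')]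
  have e2 : ∫ x in Kh, D (x - v) = ∫ x in Kh', D x := by
    have := (measurePreserving_add_right (volume : Measure (EuclideanSpace ℝ (Fin d))) v).setIntegral_preimage_emb
      (MeasurableEquiv.addRight v).measurableEmbedding (fun x => D (x - v)) Kh
    rw [← this]
    simp only [add_sub_cancel_right]
    rfl
  have e3 : ∫ x in Kh, D x = (∫ x in K, D x) - ∫ x in K \ Kh, D x := by
    have := setIntegral_sdiff hKhm (cont_intOn hK le_rfl cD) hsub
    linarith
  have e4 : ∫ x in Kh', D x = (∫ x in K, D x) - ∫ x in K \ Kh', D x := by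
    have := setIntegral_sdiff hKh'm (cont_intOn hK le_rfl cD) hsub'
    linarith
  have bd : ∀ S : Set (EuclideanSpace ℝ (Fin d)), MeasurableSet S → S ⊆ K →
      |∫ x in S, D x| ≤ R * h * volume.real S := by
    intro S hS hSK
    have h1 : volume S < ∞ := lt_of_le_of_lt (measure_mono hSK) hK.measure_lt_top
    have := norm_setIntegral_le_of_norm_le_const h1 (f := D) (C := R * h) (fun x _ => bD x)
    rwa [Real.norm_eq_abs] at this
  have b1 := bd (K \ Kh) (hK.measurableSet.diff hKhm) Set.sdiff_subset
  have b2 := bd (K \ Kh') (hK.measurableSet.diff hKh'm) Set.sdiff_subset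
  rw [e2, e3, e4]
  have hRh : 0 ≤ R * h := by positivity
  have b3 : R * h * volume.real (K \ Kh) ≤ R * h * (d * (h / r) * volume.real K) := by gcongr
  have b4 : R * h * volume.real (K \ Kh') ≤ R * h * (d * (h / r) * volume.real K) := by gcongr
  have := abs_le.1 b1
  have := abs_le.1 b2
  linarith

end inner

end Vale.Agent.P074
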