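import Vale.Agent.P074.Defs
import Vale.Agent.P074.Core

/-!
# P074: every exponent at most 1/3 is admissible
-/

namespace Vale.Agent.P074

open MeasureTheory
open scoped ENNReal NNReal RealInnerProductSpace

variable {d : ℕ} {K : Set (EuclideanSpace ℝ (Fin d))}

lemma OptK_of_optimal (hV0 : volume K ≠ 0) (hV1 : volume K ≠ ∞)
    {μ : Measure (EuclideanSpace ℝ (Fin d))}
    {T : EuclideanSpace ℝ (Fin d) → EuclideanSpace ℝ (Fin d)}
    (h : IsOptimalMap (unifOn K) μ T) : OptK K T := by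
  intro S hS hmap
  obtain ⟨_, hTμ, hopt⟩ := h
  have h1 : (unifOn K).map S = μ := by
    rw [← hTμ]
    unfold unifOn
    rw [Measure.map_smul, Measure.map_smul, hmap]
  have h2 := hopt S hS h1
  unfold unifOn at h2
  rw [lintegral_smul_measure, lintegral_smul_measure, smul_eq_mul, smul_eq_mul] at h2
  exact (ENNReal.mul_le_mul_iff_right (ENNReal.inv_ne_zero.2 hV1) (ENNReal.inv_ne_top.2 hV0)).1 h2

/-- real form of the main estimate, for a coupling of the targets -/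
lemma stab_real (hd : 0 < d) (hK : IsCompact K) (hKc : Convex ℝ K) {R : ℝ} (hR : 0 < R)
    (hKR : K ⊆ Metric.closedBall 0 R) {x0 : EuclideanSpace ℝ (Fin d)} {r : ℝ}
    (hr : 0 < r) (hball : Metric.closedBall x0 r ⊆ K) (hV0 : volume K ≠ 0)
    {μ ν : Measure (EuclideanSpace ℝ (Fin d))} [IsProbabilityMeasure μ]
    (hμ : μ (Metric.closedBall 0 R)ᶜ = 0)
    (hν : ν (Metric.closedBall 0 R)ᶜ = 0)
    {T1 T2 : EuclideanSpace ℝ (Fin d) → EuclideanSpace ℝ (Fin d)}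
    (h1 : IsOptimalMap (unifOn K) μ T1) (h2 : IsOptimalMap (unifOn K) ν T2)
    (π : Measure (EuclideanSpace ℝ (Fin d) × EuclideanSpace ℝ (Fin d)))
    (hπ1 : π.map Prod.fst = μ) (hπ2 : π.map Prod.snd = ν) {h : ℝ} (hh : 0 < h) (hhr : h ≤ r) :
    (∫⁻ p, ‖p.1 - p.2‖ₑ ^ 2 ∂π = ENNReal.ofReal (∫ p, ‖p.1 - p.2‖ ^ 2 ∂π)) ∧
    (∫ p, ‖p.1 - p.2‖ ^ 2 ∂π ≤ 4 * R ^ 2) ∧
    ∫⁻ x, ‖T1 x - T2 x‖ₑ ^ 2 ∂(unifOn K) ≤ ENNReal.ofReal
      (3 * mainI d (R + 1) r 1 h ((640 * (R + 1)) ^ 2 * (2 * ∫ p, ‖p.1 - p.2‖ ^ 2 ∂π))) := by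
  have hV1 : volume K ≠ ∞ := hK.measure_lt_top.ne
  have hKm := hK.measurableSet
  set V := volume K with hVdef
  have hVr : 0 < volume.real K := by
    rw [measureReal_def]; exact ENNReal.toReal_pos hV0 hV1
  have hV0' : V⁻¹ ≠ 0 := ENNReal.inv_ne_zero.2 hV1
  have hV1' : V⁻¹ ≠ ∞ := ENNReal.inv_ne_top.2 hV0
  have hT1 := h1.1
  have hT2 := h2.1
  have o1 := OptK_of_optimal hV0 hV1 h1
  have o2 := OptK_of_optimal hV0 hV1 h2
  have hmapV : ∀ (T : EuclideanSpace ℝ (Fin d) → EuclideanSpace ℝ (Fin d))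
      (μ' : Measure (EuclideanSpace ℝ (Fin d))), (unifOn K).map T = μ' →
      V • μ' = (volume.restrict K).map T := by
    intro T μ' hT
    rw [← hT]
    unfold unifOn
    rw [Measure.map_smul, smul_smul, ENNReal.mul_inv_cancel hV0 hV1, one_smul]
  have bd : ∀ (T : EuclideanSpace ℝ (Fin d) → EuclideanSpace ℝ (Fin d))
      (μ' : Measure (EuclideanSpace ℝ (Fin d))), Measurable T → (unifOn K).map T = μ' →
      μ' (Metric.closedBall 0 R)ᶜ = 0 → ∀ᵐ x ∂(volume.restrict K), ‖T x‖ ≤ R := by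
    intro T μ' hTm hT hμ'
    have h3 := hmapV T μ' hT
    have h4 : ((volume.restrict K).map T) (Metric.closedBall 0 R)ᶜ = 0 := by
      rw [← h3, Measure.smul_apply, hμ', smul_zero]
    rw [Measure.map_apply hTm Metric.isClosed_closedBall.measurableSet.compl] at h4
    rw [ae_iff]
    refine measure_mono_null ?_ h4
    intro x hx
    simpa using hx
  have b1 := bd T1 μ hT1 h1.2.1 hμ
  have b2 := bd T2 ν hT2 h2.2.1 hν
  have hπp : IsProbabilityMeasure π := ⟨by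
    have h3 : (π.map Prod.fst) Set.univ = π Set.univ := by
      rw [Measure.map_apply measurable_fst MeasurableSet.univ, Set.preimage_univ]
    rw [← h3, hπ1]; exact measure_univ⟩
  have a1 : ∀ᵐ p ∂π, ‖p.1‖ ≤ R := by
    have h3 : (π.map Prod.fst) (Metric.closedBall 0 R)ᶜ = 0 := by rw [hπ1]; exact hμ
    rw [Measure.map_apply measurable_fst Metric.isClosed_closedBall.measurableSet.compl] at h3
    rw [ae_iff]
    refine measure_mono_null ?_ h3
    intro x hx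
    simpa using hx
  have a2 : ∀ᵐ p ∂π, ‖p.2‖ ≤ R := by
    have h3 : (π.map Prod.snd) (Metric.closedBall 0 R)ᶜ = 0 := by rw [hπ2]; exact hν
    rw [Measure.map_apply measurable_snd Metric.isClosed_closedBall.measurableSet.compl] at h3
    rw [ae_iff]
    refine measure_mono_null ?_ h3
    intro x hx
    simpa using hx
  have hbnd : ∀ᵐ p ∂π, ‖p.1 - p.2‖ ^ 2 ≤ 4 * R ^ 2 := by
    filter_upwards [a1, a2] with p h3 h4
    have h5 : ‖p.1 - p.2‖ ≤ 2 * R := (norm_sub_le _ _).trans (by linarith)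
    calc ‖p.1 - p.2‖ ^ 2 ≤ (2 * R) ^ 2 := pow_le_pow_left₀ (norm_nonneg _) h5 2
      _ = _ := by ring
  have hint : Integrable (fun p : EuclideanSpace ℝ (Fin d) × EuclideanSpace ℝ (Fin d) =>
      ‖p.1 - p.2‖ ^ 2) π := by
    refine Integrable.of_bound (by fun_prop) (4 * R ^ 2) ?_
    filter_upwards [hbnd] with p hp
    rw [Real.norm_of_nonneg (by positivity)]
    exact hp
  refine ⟨?_, ?_, ?_⟩
  · rw [ofReal_integral_eq_lintegral_ofReal hint (Filter.Eventually.of_forall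
      (fun p => sq_nonneg _))]
    exact lintegral_congr (fun p => enorm_sq_eq _)
  · calc ∫ p, ‖p.1 - p.2‖ ^ 2 ∂π ≤ ∫ _, 4 * R ^ 2 ∂π :=
          integral_mono_ae hint (integrable_const _) hbnd
      _ = 4 * R ^ 2 := by simp
  · have hcore := core hd hK hKc hR hKR hr hball hh hhr hVr hT1 hT2 b1 b2 o1 o2 (V • π)
      (by rw [Measure.map_smul, hπ1]; exact hmapV T1 μ h1.2.1)
      (by rw [Measure.map_smul, hπ2]; exact hmapV T2 ν h2.2.1)
    rw [integral_smul_measure] at hcore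
    have hVtr : V.toReal = volume.real K := rfl
    rw [hVtr, smul_eq_mul] at hcore
    set w := ∫ p, ‖p.1 - p.2‖ ^ 2 ∂π with hw
    have e1 : mainI d (R + 1) r (volume.real K) h ((640 * (R + 1)) ^ 2 *
        (2 * (volume.real K * w))) =
        volume.real K * mainI d (R + 1) r 1 h ((640 * (R + 1)) ^ 2 * (2 * w)) := by
      unfold mainI
      ring
    rw [e1] at hcore
    have hi : IntegrableOn (fun x => ‖T1 x - T2 x‖ ^ 2) K := by
      refine Measure.integrableOn_of_bounded hV1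
        (by fun_prop : Measurable (fun x => ‖T1 x - T2 x‖ ^ 2)).aestronglyMeasurable
        (M := (R + R) ^ 2) ?_
      filter_upwards [b1, b2] with x h3 h4
      rw [Real.norm_of_nonneg (by positivity)]
      exact pow_le_pow_left₀ (norm_nonneg _) ((norm_sub_le _ _).trans (add_le_add h3 h4)) 2
    have e2 : ∫⁻ x in K, ‖T1 x - T2 x‖ₑ ^ 2 = ENNReal.ofReal (∫ x in K, ‖T1 x - T2 x‖ ^ 2) := by
      rw [ofReal_integral_eq_lintegral_ofReal hi (Filter.Eventually.of_forall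
        (fun p => sq_nonneg _))]
      exact lintegral_congr (fun p => enorm_sq_eq _)
    unfold unifOn
    rw [lintegral_smul_measure, smul_eq_mul, e2]
    have e3 : V⁻¹ = ENNReal.ofReal (volume.real K)⁻¹ := by
      rw [ENNReal.ofReal_inv_of_pos hVr, ofReal_measureReal]
    rw [e3, ← ENNReal.ofReal_mul (by positivity)]
    apply ENNReal.ofReal_le_ofReal
    rw [inv_mul_le_iff₀ hVr]
    calc _ ≤ _ := hcore
      _ = _ := by ring

/-- optimization in the scale -/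
lemma optimize {d : ℕ} {R r w α : ℝ} (hR : 0 < R) (hr : 0 < r) (hw0 : 0 < w)
    (hw : w ≤ 4 * R ^ 2) (hα : α ≤ 1 / 3) :
    ∃ h : ℝ, 0 < h ∧ h ≤ r ∧ 3 * mainI d (R + 1) r 1 h ((640 * (R + 1)) ^ 2 * (2 * w)) ≤
      (3 * (d * (16 * (640 * (R + 1)) ^ 2 * (4 * R ^ 2) / r ^ 2 + 32 * (R + 1) ^ 2 * d) +
        4 * (R + 1) ^ 2 * d) / (4 * R ^ 2) ^ α) * w ^ α := by
  set t := w / (4 * R ^ 2) with ht
  have hR2 : 0 < 4 * R ^ 2 := by positivity
  have ht0 : 0 < t := by positivity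
  have ht1 : t ≤ 1 := by rw [ht, div_le_one hR2]; exact hw
  have hwt : w = 4 * R ^ 2 * t := by rw [ht]; field_simp
  set q := t ^ (1 / 3 : ℝ) with hq
  have hq0 : 0 < q := by positivity
  have hq1 : q ≤ 1 := Real.rpow_le_one ht0.le ht1 (by norm_num)
  have hq3 : q ^ 3 = t := by
    rw [hq, ← Real.rpow_natCast, ← Real.rpow_mul ht0.le]
    norm_num
  have hqα : q ≤ t ^ α := Real.rpow_le_rpow_of_exponent_ge ht0 ht1 hα
  refine ⟨r * q, by positivity, by nlinarith, ?_⟩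
  have e1 : 3 * mainI d (R + 1) r 1 (r * q) ((640 * (R + 1)) ^ 2 * (2 * w)) =
      q * (3 * (d * (16 * (640 * (R + 1)) ^ 2 * (4 * R ^ 2) / r ^ 2 + 32 * (R + 1) ^ 2 * d) +
        4 * (R + 1) ^ 2 * d)) := by
    unfold mainI
    rw [hwt, ← hq3]
    field_simp
    ring
  rw [e1]
  set C := 3 * (d * (16 * (640 * (R + 1)) ^ 2 * (4 * R ^ 2) / r ^ 2 + 32 * (R + 1) ^ 2 * d) +
        4 * (R + 1) ^ 2 * d) with hC
  have hC0 : 0 ≤ C := by positivity
  have e2 : C / (4 * R ^ 2) ^ α * w ^ α = C * t ^ α := by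
    rw [ht, Real.div_rpow hw0.le hR2.le]
    ring
  rw [e2, mul_comm]
  exact mul_le_mul_of_nonneg_left hqα hC0

/-- the constant -/
noncomputable def bigC (d : ℕ) (R r α : ℝ) : ℝ :=
  3 * (d * (16 * (640 * (R + 1)) ^ 2 * (4 * R ^ 2) / r ^ 2 + 32 * (R + 1) ^ 2 * d) +
        4 * (R + 1) ^ 2 * d) / (4 * R ^ 2) ^ α

lemma stab_coupling (hd : 0 < d) (hK : IsCompact K) (hKc : Convex ℝ K) {R : ℝ} (hR : 0 < R)
    (hKR : K ⊆ Metric.closedBall 0 R) {x0 : EuclideanSpace ℝ (Fin d)} {r : ℝ}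
    (hr : 0 < r) (hball : Metric.closedBall x0 r ⊆ K) (hV0 : volume K ≠ 0)
    {α : ℝ} (hα : α ≤ 1 / 3)
    {μ ν : Measure (EuclideanSpace ℝ (Fin d))} [IsProbabilityMeasure μ]
    (hμ : μ (Metric.closedBall 0 R)ᶜ = 0)
    (hν : ν (Metric.closedBall 0 R)ᶜ = 0)
    {T1 T2 : EuclideanSpace ℝ (Fin d) → EuclideanSpace ℝ (Fin d)}
    (h1 : IsOptimalMap (unifOn K) μ T1) (h2 : IsOptimalMap (unifOn K) ν T2)
    (π : Measure (EuclideanSpace ℝ (Fin d) × EuclideanSpace ℝ (Fin d)))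
    (hπ1 : π.map Prod.fst = μ) (hπ2 : π.map Prod.snd = ν) :
    (∫⁻ x, ‖T1 x - T2 x‖ₑ ^ 2 ∂(unifOn K)) ^ (1 / 2 : ℝ) ≤
      ENNReal.ofReal (√(bigC d R r α)) *
        ((∫⁻ p, ‖p.1 - p.2‖ₑ ^ 2 ∂π) ^ (1 / 2 : ℝ)) ^ α := by
  have hC0 : 0 ≤ bigC d R r α := by unfold bigC; positivity
  obtain ⟨e1, e2, _⟩ := stab_real hd hK hKc hR hKR hr hball hV0 hμ hν h1 h2 π hπ1 hπ2 hr le_rfl
  have key := fun (h : ℝ) (hh : 0 < h) (hhr : h ≤ r) =>
    (stab_real hd hK hKc hR hKR hr hball hV0 hμ hν h1 h2 π hπ1 hπ2 hh hhr).2.2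
  rw [e1]
  set w := ∫ p, ‖p.1 - p.2‖ ^ 2 ∂π with hw
  have hw0 : 0 ≤ w := integral_nonneg (fun p => sq_nonneg _)
  rcases eq_or_lt_of_le hw0 with h0 | h0
  · -- zero cost
    have hX : ∫⁻ x, ‖T1 x - T2 x‖ₑ ^ 2 ∂(unifOn K) ≤ 0 := by
      set c : ℝ := 3 * (32 * (R + 1) ^ 2 * d * d + 4 * (R + 1) ^ 2 * d) with hc
      have h3 : ∀ᶠ q in nhdsWithin (0 : ℝ) (Set.Ioi 0),
          ∫⁻ x, ‖T1 x - T2 x‖ₑ ^ 2 ∂(unifOn K) ≤ ENNReal.ofReal (q * c) := by
        have h4 : Set.Ioc (0 : ℝ) 1 ∈ nhdsWithin (0 : ℝ) (Set.Ioi 0) :=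
          Ioc_mem_nhdsGT one_pos
        filter_upwards [h4] with q hq
        have h5 := key (r * q) (mul_pos hr hq.1) (by nlinarith [hq.2])
        refine h5.trans (ENNReal.ofReal_le_ofReal (le_of_eq ?_))
        rw [← h0]
        unfold mainI
        have hq0 := hq.1
        rw [hc]
        field_simp
        ring
      have h6 : Filter.Tendsto (fun q : ℝ => ENNReal.ofReal (q * c))
          (nhdsWithin (0 : ℝ) (Set.Ioi 0)) (nhds 0) := by
        have h7 : Filter.Tendsto (fun q : ℝ => ENNReal.ofReal (q * c)) (nhds 0)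
            (nhds (ENNReal.ofReal (0 * c))) :=
          (ENNReal.continuous_ofReal.comp (by fun_prop : Continuous (fun q : ℝ => q * c))).tendsto 0
        rw [zero_mul, ENNReal.ofReal_zero] at h7
        exact h7.mono_left nhdsWithin_le_nhds
      exact ge_of_tendsto h6 h3
    have hX0 : ∫⁻ x, ‖T1 x - T2 x‖ₑ ^ 2 ∂(unifOn K) = 0 := le_antisymm hX zero_le
    rw [hX0, ENNReal.zero_rpow_of_pos (by norm_num)]
    exact zero_le
  · obtain ⟨h, hh, hhr, hopt⟩ := optimize (d := d) hR hr h0 e2 hα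
    have h3 := (key h hh hhr).trans (ENNReal.ofReal_le_ofReal hopt)
    change _ ≤ ENNReal.ofReal (bigC d R r α * w ^ α) at h3
    refine (ENNReal.rpow_le_rpow h3 (by norm_num)).trans ?_
    rw [ENNReal.ofReal_mul hC0, ENNReal.mul_rpow_of_nonneg _ _ (by norm_num)]
    refine mul_le_mul' ?_ ?_
    · rw [ENNReal.ofReal_rpow_of_nonneg hC0 (by norm_num), ← Real.sqrt_eq_rpow]
    · rw [← ENNReal.ofReal_rpow_of_pos h0, ← ENNReal.rpow_mul, ← ENNReal.rpow_mul, mul_comm]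

/-- **Every exponent `α ≤ 1/3` is admissible.** -/
theorem admissible_of_le {d : ℕ} (hd : 0 < d) {α : ℝ} (hα0 : 0 < α) (hα : α ≤ 1 / 3) :
    Admissible d α := by
  intro K hK hKc hKi Y hY _
  -- geometry
  obtain ⟨R1, hR1⟩ := (hK.isBounded.union hY.isBounded).subset_closedBall
    (0 : EuclideanSpace ℝ (Fin d))
  set R := max R1 1 with hRdef
  have hR : 0 < R := lt_of_lt_of_le one_pos (le_max_right _ _)
  have hbR : Metric.closedBall (0 : EuclideanSpace ℝ (Fin d)) R1 ⊆ Metric.closedBall 0 R :=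
    Metric.closedBall_subset_closedBall (le_max_left _ _)
  have hKR : K ⊆ Metric.closedBall 0 R := (Set.subset_union_left.trans hR1).trans hbR
  have hYR : Y ⊆ Metric.closedBall 0 R := (Set.subset_union_right.trans hR1).trans hbR
  obtain ⟨x0, hx0⟩ := hKi
  obtain ⟨ρ, hρ, hρK⟩ := Metric.isOpen_iff.1 isOpen_interior x0 hx0
  have hball : Metric.closedBall x0 (ρ / 2) ⊆ K :=
    ((Metric.closedBall_subset_ball (by linarith)).trans hρK).trans interior_subset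
  have hr : 0 < ρ / 2 := by linarith
  have hV0 : volume K ≠ 0 := by
    have h1 : 0 < volume (Metric.closedBall x0 (ρ / 2)) := Metric.measure_closedBall_pos _ _ hr
    exact (lt_of_lt_of_le h1 (measure_mono hball)).ne'
  refine ⟨Real.toNNReal (√(bigC d R (ρ / 2) α)), ?_⟩
  intro μ ν hμ hν Tμ Tν h1 h2
  have := hμ.1
  have hμR : μ (Metric.closedBall 0 R)ᶜ = 0 :=
    measure_mono_null (Set.compl_subset_compl.2 hYR) hμ.2
  have hνR : ν (Metric.closedBall 0 R)ᶜ = 0 :=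
    measure_mono_null (Set.compl_subset_compl.2 hYR) hν.2
  set L := (∫⁻ x, ‖Tμ x - Tν x‖ₑ ^ 2 ∂(unifOn K)) ^ (1 / 2 : ℝ) with hL
  have hCpos : 0 < bigC d R (ρ / 2) α := by
    unfold bigC
    have : (0 : ℝ) < d := by exact_mod_cast hd
    positivity
  set c : ℝ≥0∞ := ((Real.toNNReal (√(bigC d R (ρ / 2) α)) : ℝ≥0) : ℝ≥0∞) with hc
  have hceq : c = ENNReal.ofReal (√(bigC d R (ρ / 2) α)) := rfl
  have hc0 : c ≠ 0 := by
    rw [hceq]
    exact (ENNReal.ofReal_pos.2 (Real.sqrt_pos.2 hCpos)).ne'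
  have hc1 : c ≠ ∞ := ENNReal.coe_ne_top
  have hkey : (L / c) ^ (1 / α) ≤ W2 μ ν := by
    refine le_iInf (fun π => ?_)
    have h3 := stab_coupling hd hK hKc hR hKR hr hball hV0 hα hμR hνR h1 h2 π.1 π.2.1 π.2.2
    rw [← hceq] at h3
    have h4 : L / c ≤ ((∫⁻ p, ‖p.1 - p.2‖ₑ ^ 2 ∂π.1) ^ (1 / 2 : ℝ)) ^ α := by
      rw [ENNReal.div_le_iff hc0 hc1, mul_comm]
      exact h3
    have h5 := ENNReal.rpow_le_rpow h4 (by positivity : 0 ≤ 1 / α)
    rwa [← ENNReal.rpow_mul _ α, mul_one_div_cancel hα0.ne', ENNReal.rpow_one] at h5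
  have h6 := ENNReal.rpow_le_rpow hkey hα0.le
  rw [← ENNReal.rpow_mul, one_div_mul_cancel hα0.ne', ENNReal.rpow_one,
    ENNReal.div_le_iff hc0 hc1, mul_comm] at h6
  exact h6

end Vale.Agent.P074
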