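import Vale.Agent.P074.Path

/-!
# P074: mixed difference of optimal values
-/

namespace Vale.Agent.P074

open MeasureTheory
open scoped ENNReal NNReal RealInnerProductSpace

variable {d : ℕ} {ι : Type*} [Fintype ι] [Nonempty ι]

/-- minimizer of the dual functional -/
def IsMinP (κ : Measure (EuclideanSpace ℝ (Fin d))) (y : ι → EuclideanSpace ℝ (Fin d))
    (m ψ : ι → ℝ) : Prop :=
  ∀ ψ', Psi κ y m ψ ≤ Psi κ y m ψ'

lemma IsMinP.eq {κ : Measure (EuclideanSpace ℝ (Fin d))} {y : ι → EuclideanSpace ℝ (Fin d)}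
    {m ψ ψ' : ι → ℝ} (h : IsMinP κ y m ψ) (h' : IsMinP κ y m ψ') :
    Psi κ y m ψ = Psi κ y m ψ' :=
  le_antisymm (h ψ') (h' ψ)

lemma exists_minP {R : ℝ} {κ : Measure (EuclideanSpace ℝ (Fin d))} (h : GoodMeas R κ) (hR : 0 ≤ R)
    {y : ι → EuclideanSpace ℝ (Fin d)} {m : ι → ℝ} (hy : ∀ i, ‖y i‖ ≤ R) (hm0 : ∀ i, 0 < m i)
    (hm : ∑ i, m i = κ.real Set.univ) : ∃ ψ, IsMinP κ y m ψ := by
  obtain ⟨i0, _, hi0⟩ := Finset.exists_min_image Finset.univ m Finset.univ_nonempty
  obtain ⟨ψ, _, hψ⟩ := exists_min (M := 2 * R ^ 2 * κ.real Set.univ / m i0) h hR hy hm0 hm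
    (by have := hm0 i0; have := measureReal_nonneg (μ := κ) (s := Set.univ); positivity) (by
      intro i
      have h1 := hi0 i (Finset.mem_univ i)
      have h2 := hm0 i0
      have h3 : 0 ≤ 2 * R ^ 2 * κ.real Set.univ := by
        have := measureReal_nonneg (μ := κ) (s := Set.univ); positivity
      calc 2 * R ^ 2 * κ.real Set.univ = m i0 * (2 * R ^ 2 * κ.real Set.univ / m i0) := by
            field_simp
        _ ≤ m i * (2 * R ^ 2 * κ.real Set.univ / m i0) := by gcongr)
  exact ⟨ψ, hψ⟩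

/-- the sites along the path -/
noncomputable def ysite (y z : ι → EuclideanSpace ℝ (Fin d)) (n k : ℕ) (i : ι) :
    EuclideanSpace ℝ (Fin d) :=
  y i + ((k : ℝ) / n) • (z i - y i)

section

variable {K : Set (EuclideanSpace ℝ (Fin d))} {f : EuclideanSpace ℝ (Fin d) → ℝ} {R : ℝ}
  {y z : ι → EuclideanSpace ℝ (Fin d)} {m : ι → ℝ}

omit [Fintype ι] [Nonempty ι] in
lemma ysite_norm {R : ℝ} (hy : ∀ i, ‖y i‖ ≤ R) (hz : ∀ i, ‖z i‖ ≤ R) {n k : ℕ} (hn : 0 < n)
    (hk : k ≤ n) (i : ι) : ‖ysite y z n k i‖ ≤ R := by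
  have hn' : (0 : ℝ) < n := by exact_mod_cast hn
  have hk' : (k : ℝ) / n ≤ 1 := by
    rw [div_le_one hn']; exact_mod_cast hk
  have hk0 : 0 ≤ (k : ℝ) / n := by positivity
  have h1 : ysite y z n k i = (1 - (k : ℝ) / n) • y i + ((k : ℝ) / n) • z i := by
    unfold ysite
    rw [smul_sub, sub_smul, one_smul]
    abel
  rw [h1]
  refine (norm_add_le _ _).trans ?_
  rw [norm_smul, norm_smul, Real.norm_of_nonneg (by linarith), Real.norm_of_nonneg hk0]
  have h2 := hy i
  have h3 := hz i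
  nlinarith

omit [Fintype ι] [Nonempty ι] in
lemma ysite_succ {n k : ℕ} (hn : 0 < n) (i : ι) :
    ysite y z n (k + 1) i - ysite y z n k i = (1 / (n : ℝ)) • (z i - y i) := by
  have hn' : (n : ℝ) ≠ 0 := by positivity
  unfold ysite
  rw [add_sub_add_left_eq_sub, ← sub_smul]
  congr 1
  push_cast
  field_simp
  ring

omit [Fintype ι] [Nonempty ι] in
lemma ysite_zero {n : ℕ} : ysite y z n 0 = y := by
  funext i
  unfold ysite
  simp

omit [Fintype ι] [Nonempty ι] in
lemma ysite_last {n : ℕ} (hn : 0 < n) : ysite y z n n = z := by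
  have hn' : (n : ℝ) ≠ 0 := by positivity
  funext i
  unfold ysite
  rw [div_self hn']
  simp

omit [Nonempty ι] in
lemma slope_crude {κ : Measure (EuclideanSpace ℝ (Fin d))} (h : GoodMeas R κ) (hR : 0 ≤ R)
    (w : ι → EuclideanSpace ℝ (Fin d)) (ψ : ι → ℝ) (v : ι → EuclideanSpace ℝ (Fin d)) :
    |∑ i, ∫ x in scell w ψ i, ⟪v i, x⟫ ∂κ| ≤ ∑ i, ‖v i‖ * R * κ.real Set.univ := by
  have := h.fin
  refine (Finset.abs_sum_le_sum_abs _ _).trans (Finset.sum_le_sum (fun i _ => ?_))
  have h1 : ∀ᵐ x ∂(κ.restrict (scell w ψ i)), ‖⟪v i, x⟫‖ ≤ ‖v i‖ * R := by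
    refine ae_restrict_of_ae ?_
    filter_upwards [h.ae_ball] with x hx
    rw [Real.norm_eq_abs]
    exact (abs_real_inner_le_norm _ _).trans (by gcongr)
  have h2 := norm_integral_le_of_norm_le_const h1
  rw [Real.norm_eq_abs] at h2
  refine h2.trans ?_
  have h3 : (κ.restrict (scell w ψ i)).real Set.univ ≤ κ.real Set.univ := by
    rw [measureReal_def, Measure.restrict_apply_univ, ← measureReal_def]
    exact measureReal_mono (Set.subset_univ _)
  gcongr

/-- **Mixed difference estimate.** -/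
theorem mixed_diff (hK : MeasurableSet K) (hKc : Convex ℝ K)
    (hKR : K ⊆ Metric.closedBall 0 R) (hR : 0 < R)
    (hf : Measurable f) (hf2 : ∀ x, |f x| ≤ 1 / 2) (hf0 : ∫ x in K, f x = 0)
    (hy : ∀ i, ‖y i‖ ≤ R) (hz : ∀ i, ‖z i‖ ≤ R)
    (hyi : Function.Injective y) (hzi : Function.Injective z)
    (hm0 : ∀ i, 0 < m i) (hm : ∑ i, m i = volume.real K) {ψ0y ψ0z ψ1y ψ1z : ι → ℝ}
    (h0y : IsMinP (volume.restrict K) y m ψ0y) (h0z : IsMinP (volume.restrict K) z m ψ0z)
    (h1y : IsMinP (kf K f) y m ψ1y) (h1z : IsMinP (kf K f) z m ψ1z) :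
    -(640 * R * √(∑ i, m i * ‖z i - y i‖ ^ 2) * √(∫ x in K, f x ^ 2)) ≤
      (Psi (volume.restrict K) z m ψ0z - Psi (volume.restrict K) y m ψ0y) -
      (Psi (kf K f) z m ψ1z - Psi (kf K f) y m ψ1y) := by
  have g0 := good_restrict hKR
  have g1 := good_kf hKR hf2
  have hm' : ∑ i, m i = (volume.restrict K).real Set.univ := hm.trans restrict_real_univ.symm
  have hm'' : ∑ i, m i = (kf K f).real Set.univ := hm.trans (kf_univ hK hKR hf hf2 hf0).symm
  set M := 640 * R * √(∑ i, m i * ‖z i - y i‖ ^ 2) * √(∫ x in K, f x ^ 2) with hM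
  set S := ∑ i, ‖z i - y i‖ * R * (kf K f).real Set.univ with hS
  have hS0 : 0 ≤ S := Finset.sum_nonneg (fun i _ => by
    have := measureReal_nonneg (μ := kf K f) (s := Set.univ)
    positivity)
  -- the estimate for good n
  have key : ∀ n : ℕ, 0 < n → (∀ k, 0 < k → k < n → Function.Injective (ysite y z n k)) →
      -M - 2 * S / n ≤ (Psi (volume.restrict K) z m ψ0z - Psi (volume.restrict K) y m ψ0y) -
      (Psi (kf K f) z m ψ1z - Psi (kf K f) y m ψ1y) := by
    intro n hn hgood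
    have hn' : (n : ℝ) ≠ 0 := by positivity
    have hinj : ∀ k ≤ n, Function.Injective (ysite y z n k) := by
      intro k hk
      rcases Nat.eq_zero_or_pos k with h | h
      · subst h; rw [ysite_zero]; exact hyi
      · rcases Nat.lt_or_ge k n with h' | h'
        · exact hgood k h h'
        · have : k = n := le_antisymm hk h'
          subst this; rw [ysite_last hn]; exact hzi
    have ex0 : ∀ k, ∃ ψ, k ≤ n → IsMinP (volume.restrict K) (ysite y z n k) m ψ := by
      intro k
      by_cases hk : k ≤ n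
      · obtain ⟨ψ, hψ⟩ := exists_minP g0 hR.le (ysite_norm hy hz hn hk) hm0 hm'
        exact ⟨ψ, fun _ => hψ⟩
      · exact ⟨0, fun h => absurd h hk⟩
    have ex1 : ∀ k, ∃ ψ, k ≤ n → IsMinP (kf K f) (ysite y z n k) m ψ := by
      intro k
      by_cases hk : k ≤ n
      · obtain ⟨ψ, hψ⟩ := exists_minP g1 hR.le (ysite_norm hy hz hn hk) hm0 hm''
        exact ⟨ψ, fun _ => hψ⟩
      · exact ⟨0, fun h => absurd h hk⟩
    choose p0 hp0 using ex0
    choose p1 hp1 using ex1
    have step : ∀ (κ : Measure (EuclideanSpace ℝ (Fin d))) (p : ℕ → ι → ℝ), GoodMeas R κ →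
        ∑ i, m i = κ.real Set.univ → (∀ k ≤ n, IsMinP κ (ysite y z n k) m (p k)) →
        (∀ k < n, Psi κ (ysite y z n k) m (p k) +
          (∑ i, ∫ x in scell (ysite y z n k) (p k) i, ⟪z i - y i, x⟫ ∂κ) / n ≤
          Psi κ (ysite y z n (k + 1)) m (p (k + 1))) ∧
        (∀ k < n, Psi κ (ysite y z n (k + 1)) m (p (k + 1)) ≤
          Psi κ (ysite y z n k) m (p k) +
          (∑ i, ∫ x in scell (ysite y z n (k + 1)) (p (k + 1)) i, ⟪z i - y i, x⟫ ∂κ) / n) := by
      intro κ p hκ hmκ hp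
      constructor
      · intro k hk
        have h1 := value_diff hκ (hinj k hk.le)
          (fun i => scell_mass hκ (hinj k hk.le) hm0 hmκ (hp k hk.le) i)
          (ysite y z n (k + 1)) (p (k + 1))
        simp_rw [ysite_succ hn, inner_smul_left] at h1
        simp only [conj_trivial, integral_const_mul] at h1
        rw [← Finset.mul_sum, one_div_mul_eq_div] at h1
        exact h1
      · intro k hk
        have h1 := value_diff hκ (hinj (k + 1) hk)
          (fun i => scell_mass hκ (hinj (k + 1) hk) hm0 hmκ (hp (k + 1) hk) i)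
          (ysite y z n k) (p k)
        have h2 : ∀ i, ysite y z n k i - ysite y z n (k + 1) i = (-(1 / (n : ℝ))) • (z i - y i) := by
          intro i
          rw [neg_smul, ← ysite_succ hn i (k := k), neg_sub]
        simp_rw [h2, inner_smul_left] at h1
        simp only [conj_trivial, integral_const_mul] at h1
        rw [← Finset.mul_sum, neg_mul, one_div_mul_eq_div] at h1
        linarith
    have st0 := step _ p0 g0 hm' hp0
    have st1 := step _ p1 g1 hm'' hp1
    have hfin := path_abs (a := fun k => Psi (volume.restrict K) (ysite y z n k) m (p0 k))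
      (b := fun k => Psi (kf K f) (ysite y z n k) m (p1 k))
      (s := fun k => ∑ i, ∫ x in scell (ysite y z n k) (p0 k) i, ⟪z i - y i, x⟫
        ∂(volume.restrict K))
      (t := fun k => ∑ i, ∫ x in scell (ysite y z n k) (p1 k) i, ⟪z i - y i, x⟫ ∂(kf K f))
      hn (M := M) (S := S) st0.1 st1.2 (fun k hk =>
        slope_bound hK hKc hKR hR hf hf2 hf0 (hinj k hk.le) hm0 hm (hp0 k hk.le) (hp1 k hk.le) _)
      (slope_crude g1 hR.le _ _ _) (slope_crude g1 hR.le _ _ _)
    have e1 : Psi (volume.restrict K) (ysite y z n 0) m (p0 0) =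
        Psi (volume.restrict K) y m ψ0y := by
      have := hp0 0 (Nat.zero_le _)
      rw [ysite_zero] at this ⊢
      exact this.eq h0y
    have e2 : Psi (kf K f) (ysite y z n 0) m (p1 0) = Psi (kf K f) y m ψ1y := by
      have := hp1 0 (Nat.zero_le _)
      rw [ysite_zero] at this ⊢
      exact this.eq h1y
    have e3 : Psi (volume.restrict K) (ysite y z n n) m (p0 n) =
        Psi (volume.restrict K) z m ψ0z := by
      have := hp0 n le_rfl
      rw [ysite_last hn] at this ⊢
      exact this.eq h0z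
    have e4 : Psi (kf K f) (ysite y z n n) m (p1 n) = Psi (kf K f) z m ψ1z := by
      have := hp1 n le_rfl
      rw [ysite_last hn] at this ⊢
      exact this.eq h1z
    rw [e1, e2, e3, e4] at hfin
    exact hfin
  refine le_of_forall_pos_lt_add (fun ε hε => ?_)
  obtain ⟨N, hN⟩ := exists_nat_gt (2 * S / ε)
  obtain ⟨n, hnN, hn, hgood⟩ := exists_good_n (exceptional_finite (z := z) hyi) N
  have h1 := key n hn (by
    intro k hk hkn
    have := hgood k hk hkn
    simp only [Set.mem_ofPred_eq, not_not] at this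
    exact this)
  have hn' : (0 : ℝ) < n := by exact_mod_cast hn
  have h2 : 2 * S / n < ε := by
    rw [div_lt_iff₀ hn']
    rw [div_lt_iff₀ hε] at hN
    have : (N : ℝ) ≤ n := by exact_mod_cast hnN
    nlinarith
  linarith

end

end Vale.Agent.P074
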