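import Mathlib

/-!
# P074: the Prekopa-Leindler inequality (midpoint form)
-/

namespace Vale.Agent.P074

open MeasureTheory
open scoped ENNReal NNReal Pointwise

/-- midpoint Prekopa-Leindler property of a measure space with a real vector space structure -/
def PLProp (V : Type*) [AddCommGroup V] [Module ℝ V] [MeasureSpace V] : Prop :=
  ∀ F G H : V → ℝ≥0∞, Measurable F → Measurable G → Measurable H →
    (∀ x y, F x * G y ≤ H ((1 / 2 : ℝ) • (x + y)) ^ 2) →
    (∫⁻ x, F x) * (∫⁻ x, G x) ≤ (∫⁻ x, H x) ^ 2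

/-- one-dimensional Brunn-Minkowski for compact sets -/
lemma bm_compact {A B C : Set ℝ} (hA : IsCompact A) (hB : IsCompact B) (hAn : A.Nonempty)
    (hBn : B.Nonempty) (hC : ∀ a ∈ A, ∀ b ∈ B, (1 / 2 : ℝ) • (a + b) ∈ C) :
    volume A + volume B ≤ 2 * volume C := by
  obtain ⟨a, ha, hamax⟩ := hA.exists_isGreatest hAn
  obtain ⟨b, hb, hbmin⟩ := hB.exists_isLeast hBn
  -- images
  set fA : ℝ → ℝ := fun x => (1 / 2 : ℝ) • (x + b) with hfA
  set fB : ℝ → ℝ := fun x => (1 / 2 : ℝ) • (a + x) with hfB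
  have h1 : fA '' A ∪ fB '' B ⊆ C := by
    rintro _ (⟨x, hx, rfl⟩ | ⟨x, hx, rfl⟩)
    · exact hC x hx b hb
    · exact hC a ha x hx
  have h2 : fA '' A ∩ fB '' B ⊆ {(1 / 2 : ℝ) • (a + b)} := by
    rintro t ⟨⟨x, hx, rfl⟩, ⟨y, hy, hxy⟩⟩
    have hxa := hamax hx
    have hby := hbmin hy
    simp only [hfA, hfB, smul_eq_mul] at hxy ⊢
    simp only [Set.mem_singleton_iff]
    linarith
  have hvol : ∀ S : Set ℝ, ∀ c : ℝ, volume ((fun x : ℝ => (1 / 2 : ℝ) • (x + c)) '' S) =
      ENNReal.ofReal (1 / 2) * volume S := by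
    intro S c
    have : (fun x : ℝ => (1 / 2 : ℝ) • (x + c)) '' S = (1 / 2 : ℝ) • ((fun x => x + c) '' S) := by
      rw [← Set.image_smul, Set.image_image]
    rw [this, Measure.addHaar_smul]
    simp
  have hvA : volume (fA '' A) = ENNReal.ofReal (1 / 2) * volume A := hvol A b
  have hvB : volume (fB '' B) = ENNReal.ofReal (1 / 2) * volume B := by
    have : fB = fun x : ℝ => (1 / 2 : ℝ) • (x + a) := by
      funext x; simp only [hfB]; rw [add_comm]
    rw [this]
    exact hvol B a
  have hmB : MeasurableSet (fB '' B) := (hB.image (by fun_prop)).measurableSet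
  have h3 : volume (fA '' A) + volume (fB '' B) ≤ volume C := by
    rw [← measure_union_add_inter (fA '' A) hmB]
    have : volume (fA '' A ∩ fB '' B) = 0 := measure_mono_null h2 (measure_singleton _)
    rw [this, add_zero]
    exact measure_mono h1
  rw [hvA, hvB, ← mul_add] at h3
  calc volume A + volume B = 2 * (ENNReal.ofReal (1 / 2) * (volume A + volume B)) := by
        rw [← mul_assoc]
        have : (2 : ℝ≥0∞) * ENNReal.ofReal (1 / 2) = 1 := by
          rw [show (2 : ℝ≥0∞) = ENNReal.ofReal 2 by simp, ← ENNReal.ofReal_mul (by norm_num)]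
          norm_num
        rw [this, one_mul]
    _ ≤ 2 * volume C := by gcongr

/-- one-dimensional Brunn-Minkowski for measurable sets -/
lemma bm_measurable {A B C : Set ℝ} (hA : MeasurableSet A) (hB : MeasurableSet B)
    (hAn : A.Nonempty) (hBn : B.Nonempty) (hC : ∀ a ∈ A, ∀ b ∈ B, (1 / 2 : ℝ) • (a + b) ∈ C) :
    volume A + volume B ≤ 2 * volume C := by
  by_cases htop : 2 * volume C = ∞
  · rw [htop]; exact le_top
  obtain ⟨a0, ha0⟩ := hAn
  obtain ⟨b0, hb0⟩ := hBn
  have key : ∀ K ⊆ A, IsCompact K → ∀ L ⊆ B, IsCompact L → volume K + volume L ≤ 2 * volume C := by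
    intro K hK hKc L hL hLc
    have h := bm_compact (A := K ∪ {a0}) (B := L ∪ {b0}) (C := C)
      (hKc.union isCompact_singleton) (hLc.union isCompact_singleton) ⟨a0, by simp⟩
      ⟨b0, by simp⟩ (by
        intro a ha b hb
        refine hC a ?_ b ?_
        · rcases ha with ha | ha
          · exact hK ha
          · rw [Set.mem_singleton_iff.1 ha]; exact ha0
        · rcases hb with hb | hb
          · exact hL hb
          · rw [Set.mem_singleton_iff.1 hb]; exact hb0)
    refine le_trans ?_ h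
    gcongr
    · exact Set.subset_union_left
    · exact Set.subset_union_left
  have key2 : ∀ K ⊆ A, IsCompact K → volume K + volume B ≤ 2 * volume C := by
    intro K hK hKc
    have hKfin : volume K ≠ ∞ := hKc.measure_lt_top.ne
    have : volume B ≤ 2 * volume C - volume K := by
      rw [hB.measure_eq_iSup_isCompact]
      refine iSup_le fun L => iSup_le fun hL => iSup_le fun hLc => ?_
      exact ENNReal.le_sub_of_add_le_left hKfin (key K hK hKc L hL hLc)
    have h0 : volume K ≤ 2 * volume C := le_trans le_self_add (key K hK hKc ∅ (by simp) (by simp))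
    calc volume K + volume B ≤ volume K + (2 * volume C - volume K) := by gcongr
      _ = 2 * volume C := add_tsub_cancel_of_le h0
  have hBle : volume B ≤ 2 * volume C := by
    have := key2 ∅ (by simp) (by simp)
    simpa using this
  have hBfin : volume B ≠ ∞ := ne_top_of_le_ne_top htop hBle
  have : volume A ≤ 2 * volume C - volume B := by
    rw [hA.measure_eq_iSup_isCompact]
    refine iSup_le fun K => iSup_le fun hK => iSup_le fun hKc => ?_
    exact ENNReal.le_sub_of_add_le_right hBfin (key2 K hK hKc)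
  calc volume A + volume B ≤ (2 * volume C - volume B) + volume B := by gcongr
    _ = 2 * volume C := tsub_add_cancel_of_le hBle

/-- real-valued normalized one-dimensional Prekopa-Leindler -/
lemma pl_real {f g h : ℝ → ℝ} (hf : Measurable f) (hg : Measurable g) (hh : Measurable h)
    (hf0 : ∀ x, 0 ≤ f x) (hg0 : ∀ x, 0 ≤ g x) (hh0 : ∀ x, 0 ≤ h x)
    (hf1 : ∀ x, f x ≤ 1) (hg1 : ∀ x, g x ≤ 1)
    (hfs : ∀ t < 1, ∃ x, t < f x) (hgs : ∀ t < 1, ∃ x, t < g x)
    (hfg : ∀ x y, f x * g y ≤ h ((1 / 2 : ℝ) • (x + y)) ^ 2) :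
    (∫⁻ x, ENNReal.ofReal (f x)) + (∫⁻ x, ENNReal.ofReal (g x)) ≤
      2 * ∫⁻ x, ENNReal.ofReal (h x) := by
  have lay : ∀ u : ℝ → ℝ, Measurable u → (∀ x, 0 ≤ u x) →
      ∫⁻ x, ENNReal.ofReal (u x) = ∫⁻ t in Set.Ioi 0, volume {x | t < u x} := by
    intro u hu hu0
    exact lintegral_eq_lintegral_meas_lt volume (Filter.Eventually.of_forall hu0) hu.aemeasurable
  rw [lay f hf hf0, lay g hg hg0, lay h hh hh0]
  have hmeas : ∀ u : ℝ → ℝ, Measurable (fun t : ℝ => volume {x | t < u x}) := by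
    intro u
    have : Antitone (fun t : ℝ => volume {x | t < u x}) := by
      intro s t hst
      refine measure_mono ?_
      intro x hx
      exact lt_of_le_of_lt hst hx
    exact this.measurable
  rw [← lintegral_add_left (hmeas f), ← lintegral_const_mul _ (hmeas h)]
  refine setLIntegral_mono' measurableSet_Ioi ?_
  intro t ht
  have ht0 : (0 : ℝ) < t := ht
  by_cases ht1 : t < 1
  · refine bm_measurable (hf measurableSet_Ioi) (hg measurableSet_Ioi) (hfs t ht1) (hgs t ht1) ?_
    intro a ha b hb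
    have ha' : t < f a := ha
    have hb' : t < g b := hb
    have h1 := hfg a b
    have h2 : t ^ 2 < h ((1 / 2 : ℝ) • (a + b)) ^ 2 := by
      calc t ^ 2 = t * t := by ring
        _ < f a * g b := mul_lt_mul'' ha' hb' ht0.le ht0.le
        _ ≤ _ := h1
    exact lt_of_pow_lt_pow_left₀ 2 (hh0 _) h2
  · have e1 : {x | t < f x} = ∅ := by
      ext x
      simp only [Set.mem_ofPred_eq, Set.mem_empty_iff_false, iff_false, not_lt]
      exact (hf1 x).trans (not_lt.1 ht1)
    have e2 : {x | t < g x} = ∅ := by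
      ext x
      simp only [Set.mem_ofPred_eq, Set.mem_empty_iff_false, iff_false, not_lt]
      exact (hg1 x).trans (not_lt.1 ht1)
    rw [e1, e2]
    simp

lemma ennreal_amgm {x y z : ℝ≥0∞} (h : x + y ≤ 2 * z) : x * y ≤ z ^ 2 := by
  by_cases hz : z = ∞
  · rw [hz]; simp
  have h2 : 2 * z ≠ ∞ := ENNReal.mul_ne_top (by simp) hz
  have hx : x ≠ ∞ := ne_top_of_le_ne_top h2 (le_self_add.trans h)
  have hy : y ≠ ∞ := ne_top_of_le_ne_top h2 (le_add_self.trans h)
  lift x to ℝ≥0 using hx
  lift y to ℝ≥0 using hy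
  lift z to ℝ≥0 using hz
  have h3 : (x : ℝ) + y ≤ 2 * z := by exact_mod_cast h
  have h4 : (x : ℝ) * y ≤ z ^ 2 := by
    nlinarith [sq_nonneg ((x : ℝ) - y), NNReal.coe_nonneg x, NNReal.coe_nonneg y,
      NNReal.coe_nonneg z]
  exact_mod_cast h4

lemma lintegral_scale {F : ℝ → ℝ≥0∞} {a : ℝ} (ha : 0 < a) (hF : ∀ x, F x ≠ ∞) :
    ∫⁻ x, F x = ENNReal.ofReal a * ∫⁻ x, ENNReal.ofReal ((F x).toReal / a) := by
  rw [← lintegral_const_mul' _ _ ENNReal.ofReal_ne_top]
  refine lintegral_congr (fun x => ?_)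
  rw [← ENNReal.ofReal_mul ha.le, mul_div_cancel₀ _ ha.ne', ENNReal.ofReal_toReal (hF x)]

lemma exists_lt_normalized {F : ℝ → ℝ≥0∞} (hF : ∀ x, F x ≠ ∞) (hA : (⨆ x, F x) ≠ ∞)
    (hA0 : 0 < (⨆ x, F x).toReal) {t : ℝ} (ht : t < 1) :
    ∃ x, t < (F x).toReal / (⨆ x, F x).toReal := by
  by_cases ht0 : t < 0
  · exact ⟨0, lt_of_lt_of_le ht0 (by positivity)⟩
  push Not at ht0
  set a := (⨆ x, F x).toReal with ha
  have h1 : ENNReal.ofReal (t * a) < ⨆ x, F x := by
    rw [ENNReal.ofReal_lt_iff_lt_toReal (by positivity) hA, ← ha]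
    nlinarith
  obtain ⟨x, hx⟩ := lt_iSup_iff.1 h1
  refine ⟨x, ?_⟩
  rw [ENNReal.ofReal_lt_iff_lt_toReal (by positivity) (hF x)] at hx
  rw [lt_div_iff₀ hA0]
  exact hx

lemma pl_bdd {F G H : ℝ → ℝ≥0∞} (hF : Measurable F) (hG : Measurable G) (hH : Measurable H)
    {N : ℝ≥0} (hFN : ∀ x, F x ≤ N) (hGN : ∀ x, G x ≤ N) (hHN : ∀ x, H x ≤ N)
    (hFG : ∀ x y, F x * G y ≤ H ((1 / 2 : ℝ) • (x + y)) ^ 2) :
    (∫⁻ x, F x) * (∫⁻ x, G x) ≤ (∫⁻ x, H x) ^ 2 := by
  have hFt : ∀ x, F x ≠ ∞ := fun x => ne_top_of_le_ne_top ENNReal.coe_ne_top (hFN x)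
  have hGt : ∀ x, G x ≠ ∞ := fun x => ne_top_of_le_ne_top ENNReal.coe_ne_top (hGN x)
  have hHt : ∀ x, H x ≠ ∞ := fun x => ne_top_of_le_ne_top ENNReal.coe_ne_top (hHN x)
  have hA : (⨆ x, F x) ≠ ∞ := ne_top_of_le_ne_top ENNReal.coe_ne_top (iSup_le hFN)
  have hB : (⨆ x, G x) ≠ ∞ := ne_top_of_le_ne_top ENNReal.coe_ne_top (iSup_le hGN)
  by_cases hA0 : (⨆ x, F x) = 0
  · have : ∀ x, F x = 0 := fun x => by
      have := le_iSup F x
      rw [hA0] at this
      exact le_antisymm this (zero_le)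
    simp [this]
  by_cases hB0 : (⨆ x, G x) = 0
  · have : ∀ x, G x = 0 := fun x => by
      have := le_iSup G x
      rw [hB0] at this
      exact le_antisymm this (zero_le)
    simp [this]
  have ha0 : 0 < (⨆ x, F x).toReal := ENNReal.toReal_pos hA0 hA
  have hb0 : 0 < (⨆ x, G x).toReal := ENNReal.toReal_pos hB0 hB
  have hfs : ∀ t < 1, ∃ x, t < (F x).toReal / (⨆ x, F x).toReal :=
    fun t ht => exists_lt_normalized hFt hA ha0 ht
  have hgs : ∀ t < 1, ∃ x, t < (G x).toReal / (⨆ x, G x).toReal :=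
    fun t ht => exists_lt_normalized hGt hB hb0 ht
  have hfle : ∀ x, (F x).toReal ≤ (⨆ x, F x).toReal := fun x =>
    ENNReal.toReal_mono hA (le_iSup F x)
  have hgle : ∀ x, (G x).toReal ≤ (⨆ x, G x).toReal := fun x =>
    ENNReal.toReal_mono hB (le_iSup G x)
  set a := (⨆ x, F x).toReal with ha
  set b := (⨆ x, G x).toReal with hb
  have hab : 0 < a * b := by positivity
  have hsab : 0 < √(a * b) := Real.sqrt_pos.2 hab
  have key := pl_real (f := fun x => (F x).toReal / a) (g := fun x => (G x).toReal / b)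
    (h := fun x => (H x).toReal / √(a * b)) (hF.ennreal_toReal.div_const a)
    (hG.ennreal_toReal.div_const b) (hH.ennreal_toReal.div_const _)
    (fun x => by positivity) (fun x => by positivity) (fun x => by positivity)
    (fun x => by rw [div_le_one ha0]; exact hfle x)
    (fun x => by rw [div_le_one hb0]; exact hgle x) hfs hgs (by
      intro x y
      have h1 := ENNReal.toReal_mono (ENNReal.pow_ne_top (hHt _)) (hFG x y)
      rw [ENNReal.toReal_mul, ENNReal.toReal_pow] at h1
      rw [div_pow, Real.sq_sqrt hab.le, div_mul_div_comm]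
      gcongr)
  have key2 := ennreal_amgm key
  rw [lintegral_scale ha0 hFt, lintegral_scale hb0 hGt, lintegral_scale hsab hHt]
  rw [mul_pow, ← ENNReal.ofReal_pow hsab.le, Real.sq_sqrt hab.le, ENNReal.ofReal_mul ha0.le]
  calc _ = ENNReal.ofReal a * ENNReal.ofReal b * ((∫⁻ x, ENNReal.ofReal ((F x).toReal / a)) *
        ∫⁻ x, ENNReal.ofReal ((G x).toReal / b)) := by ring
    _ ≤ _ := by gcongr

lemma iSup_min_nat (x : ℝ≥0∞) : (⨆ n : ℕ, min x (n : ℝ≥0∞)) = x := by
  apply le_antisymm
  · exact iSup_le fun n => min_le_left _ _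
  · refine le_of_forall_lt fun c hc => ?_
    have hct : c ≠ ∞ := ne_top_of_lt hc
    obtain ⟨n, hn⟩ := ENNReal.exists_nat_gt hct
    exact lt_iSup_iff.2 ⟨n, lt_min hc hn⟩

/-- the one-dimensional Prekopa-Leindler inequality -/
lemma pl_one : PLProp ℝ := by
  intro F G H hF hG hH hFG
  have hmin : ∀ U : ℝ → ℝ≥0∞, Measurable U →
      (∫⁻ x, U x) = ⨆ n : ℕ, ∫⁻ x, min (U x) (n : ℝ≥0∞) := by
    intro U hU
    rw [← lintegral_iSup (fun n => hU.min measurable_const)]
    · refine lintegral_congr (fun x => (iSup_min_nat _).symm)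
    · intro m n hmn x
      simp only
      gcongr
  have hmono : ∀ U : ℝ → ℝ≥0∞, Monotone (fun n : ℕ => ∫⁻ x, min (U x) (n : ℝ≥0∞)) := by
    intro U m n hmn
    refine lintegral_mono fun x => ?_
    gcongr
  rw [hmin F hF, hmin G hG, ENNReal.iSup_mul]
  refine iSup_le fun m => ?_
  rw [ENNReal.mul_iSup]
  refine iSup_le fun n => ?_
  set N := max m n with hN
  calc (∫⁻ x, min (F x) (m : ℝ≥0∞)) * ∫⁻ x, min (G x) (n : ℝ≥0∞)
      ≤ (∫⁻ x, min (F x) (N : ℝ≥0∞)) * ∫⁻ x, min (G x) (N : ℝ≥0∞) :=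
        mul_le_mul' (hmono F (le_max_left _ _)) (hmono G (le_max_right _ _))
    _ ≤ (∫⁻ x, min (H x) (N : ℝ≥0∞)) ^ 2 := by
        refine pl_bdd (N := (N : ℝ≥0)) (hF.min measurable_const) (hG.min measurable_const)
          (hH.min measurable_const) (fun x => ?_) (fun x => ?_) (fun x => ?_) ?_
        · exact (min_le_right _ _).trans (by simp)
        · exact (min_le_right _ _).trans (by simp)
        · exact (min_le_right _ _).trans (by simp)
        · intro x y
          rcases le_total (H ((1 / 2 : ℝ) • (x + y))) (N : ℝ≥0∞) with h | h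
          · rw [min_eq_left h]
            refine le_trans ?_ (hFG x y)
            exact mul_le_mul' (min_le_left _ _) (min_le_left _ _)
          · rw [min_eq_right h, sq]
            exact mul_le_mul' (min_le_right _ _) (min_le_right _ _)
    _ ≤ (∫⁻ x, H x) ^ 2 := by
        gcongr
        exact min_le_left _ _

/-- tensorization -/
lemma PLProp.prod {V W : Type*} [AddCommGroup V] [Module ℝ V] [MeasureSpace V]
    [AddCommGroup W] [Module ℝ W] [MeasureSpace W] [SFinite (volume : Measure V)]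
    [SFinite (volume : Measure W)] (hV : PLProp V) (hW : PLProp W) : PLProp (V × W) := by
  intro F G H hF hG hH hFG
  rw [Measure.volume_eq_prod, lintegral_prod _ hF.aemeasurable, lintegral_prod _ hG.aemeasurable,
    lintegral_prod _ hH.aemeasurable]
  refine hV _ _ _ hF.lintegral_prod_right' hG.lintegral_prod_right' hH.lintegral_prod_right' ?_
  intro s t
  refine hW _ _ _ (hF.comp measurable_prodMk_left) (hG.comp measurable_prodMk_left)
    (hH.comp measurable_prodMk_left) ?_
  intro x y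
  exact hFG (s, x) (t, y)

/-- transfer along a measure preserving linear equivalence -/
lemma PLProp.transfer {V W : Type*} [AddCommGroup V] [Module ℝ V] [MeasureSpace V]
    [AddCommGroup W] [Module ℝ W] [MeasureSpace W] (e : W ≃ᵐ V) (hlin : ∀ x y : V,
      e.symm ((1 / 2 : ℝ) • (x + y)) = (1 / 2 : ℝ) • (e.symm x + e.symm y))
    (he : MeasurePreserving e (volume : Measure W) (volume : Measure V)) (hV : PLProp V) :
    PLProp W := by
  intro F G H hF hG hH hFG
  have key : ∀ U : W → ℝ≥0∞, ∫⁻ x, U x = ∫⁻ v, U (e.symm v) := by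
    intro U
    rw [← he.lintegral_comp_emb e.measurableEmbedding (fun v => U (e.symm v))]
    simp
  rw [key F, key G, key H]
  refine hV _ _ _ (hF.comp e.symm.measurable) (hG.comp e.symm.measurable)
    (hH.comp e.symm.measurable) ?_
  intro x y
  rw [hlin]
  exact hFG _ _

lemma pl_pi (n : ℕ) : PLProp (Fin n → ℝ) := by
  induction n with
  | zero =>
    intro F G H hF hG hH hFG
    have e : ∀ U : (Fin 0 → ℝ) → ℝ≥0∞, ∫⁻ x, U x = U 0 := by
      intro U
      rw [lintegral_unique]
      have : (volume : Measure (Fin 0 → ℝ)) Set.univ = 1 := by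
        rw [volume_pi, Measure.pi_univ]
        simp
      rw [this, mul_one]
      congr 1
      exact Subsingleton.elim _ _
    rw [e F, e G, e H]
    have := hFG 0 0
    rwa [show (1 / 2 : ℝ) • ((0 : Fin 0 → ℝ) + 0) = 0 from Subsingleton.elim _ _] at this
  | succ n ih =>
    refine PLProp.transfer (MeasurableEquiv.piFinSuccAbove (fun _ => ℝ) 0) ?_
      (volume_preserving_piFinSuccAbove (fun _ => ℝ) 0) (pl_one.prod ih)
    intro x y
    funext i
    refine Fin.cases ?_ (fun j => ?_) i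
    · simp [MeasurableEquiv.piFinSuccAbove]; ring
    · simp [MeasurableEquiv.piFinSuccAbove]; ring

/-- the Prekopa-Leindler inequality in Euclidean space -/
theorem pl_euclid (n : ℕ) : PLProp (EuclideanSpace ℝ (Fin n)) := by
  refine PLProp.transfer (MeasurableEquiv.toLp 2 (Fin n → ℝ)).symm ?_
    (EuclideanSpace.volume_preserving_symm_measurableEquiv_toLp (Fin n)) (pl_pi n)
  intro x y
  rfl

end Vale.Agent.P074
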