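import Mathlib

/-!
# P074: semi-discrete optimal transport
-/

namespace Vale.Agent.P074

open MeasureTheory
open scoped ENNReal NNReal RealInnerProductSpace

variable {d : ℕ} {ι : Type*} [Fintype ι] [Nonempty ι]

/-- maximum of finitely many affine functions -/
noncomputable def mx (y : ι → EuclideanSpace ℝ (Fin d)) (ψ : ι → ℝ)
    (x : EuclideanSpace ℝ (Fin d)) : ℝ :=
  Finset.univ.sup' Finset.univ_nonempty (fun i => ⟪y i, x⟫ - ψ i)

section mx

variable (y : ι → EuclideanSpace ℝ (Fin d)) (ψ : ι → ℝ) (x : EuclideanSpace ℝ (Fin d))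

lemma le_mx (i : ι) : ⟪y i, x⟫ - ψ i ≤ mx y ψ x :=
  Finset.le_sup' (fun i => ⟪y i, x⟫ - ψ i) (Finset.mem_univ i)

lemma mx_le {a : ℝ} (h : ∀ i, ⟪y i, x⟫ - ψ i ≤ a) : mx y ψ x ≤ a :=
  Finset.sup'_le _ _ (fun i _ => h i)

lemma exists_mx : ∃ i, mx y ψ x = ⟪y i, x⟫ - ψ i := by
  obtain ⟨i, _, hi⟩ := Finset.exists_mem_eq_sup' (Finset.univ_nonempty (α := ι))
    (fun i => ⟪y i, x⟫ - ψ i)
  exact ⟨i, hi⟩

variable {y ψ}

lemma mx_sub_le {R : ℝ} (hy : ∀ i, ‖y i‖ ≤ R) (x x' : EuclideanSpace ℝ (Fin d)) :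
    mx y ψ x - mx y ψ x' ≤ R * ‖x - x'‖ := by
  obtain ⟨i, hi⟩ := exists_mx y ψ x
  have h1 := le_mx y ψ x' i
  rw [hi]
  have h2 : ⟪y i, x⟫ - ⟪y i, x'⟫ ≤ R * ‖x - x'‖ := by
    rw [← inner_sub_right]
    refine (real_inner_le_norm _ _).trans ?_
    gcongr
    exact hy i
  linarith

lemma abs_mx_sub_le {R : ℝ} (hy : ∀ i, ‖y i‖ ≤ R) (x x' : EuclideanSpace ℝ (Fin d)) :
    |mx y ψ x - mx y ψ x'| ≤ R * ‖x - x'‖ := by
  rw [abs_le]
  constructor
  · have := mx_sub_le (ψ := ψ) hy x' x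
    rw [norm_sub_rev] at this
    linarith
  · exact mx_sub_le hy x x'

lemma continuous_mx : Continuous (mx y ψ) := by
  unfold mx
  exact Continuous.finset_sup'_apply _ (fun i _ => by fun_prop)

lemma mx_psi_le {ψ' : ι → ℝ} {ε : ℝ} (h : ∀ i, ψ' i - ψ i ≤ ε) :
    mx y ψ x ≤ mx y ψ' x + ε := by
  refine mx_le _ _ _ (fun i => ?_)
  have := le_mx y ψ' x i
  linarith [h i]

lemma abs_mx_psi {ψ' : ι → ℝ} {ε : ℝ} (h : ∀ i, |ψ' i - ψ i| ≤ ε) :
    |mx y ψ' x - mx y ψ x| ≤ ε := by
  rw [abs_le]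
  have h1 : ∀ i, ψ' i - ψ i ≤ ε := fun i => (abs_le.1 (h i)).2
  have h2 : ∀ i, ψ i - ψ' i ≤ ε := fun i => by linarith [(abs_le.1 (h i)).1]
  constructor
  · linarith [mx_psi_le x h1 (y := y)]
  · linarith [mx_psi_le x h2 (y := y)]

lemma mx_sub_const (c : ℝ) : mx y (fun i => ψ i - c) x = mx y ψ x + c := by
  apply le_antisymm
  · refine mx_le _ _ _ (fun i => ?_)
    have := le_mx y ψ x i
    linarith
  · have : mx y ψ x ≤ mx y (fun i => ψ i - c) x - c := by
      refine mx_le _ _ _ (fun i => ?_)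
      have := le_mx y (fun i => ψ i - c) x i
      linarith
    linarith

end mx

/-- strict cells -/
def scell (y : ι → EuclideanSpace ℝ (Fin d)) (ψ : ι → ℝ) (i : ι) :
    Set (EuclideanSpace ℝ (Fin d)) :=
  {x | ∀ j, j ≠ i → ⟪y j, x⟫ - ψ j < ⟪y i, x⟫ - ψ i}

omit [Nonempty ι] in
lemma measurableSet_scell (y : ι → EuclideanSpace ℝ (Fin d)) (ψ : ι → ℝ) (i : ι) :
    MeasurableSet (scell y ψ i) := by
  have : scell y ψ i = ⋂ j, ⋂ (_ : j ≠ i), {x | ⟪y j, x⟫ - ψ j < ⟪y i, x⟫ - ψ i} := by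
    ext x; simp [scell]
  rw [this]
  refine MeasurableSet.iInter fun j => MeasurableSet.iInter fun _ => ?_
  exact measurableSet_lt (by fun_prop) (by fun_prop)

omit [Fintype ι] [Nonempty ι] in
lemma scell_disjoint (y : ι → EuclideanSpace ℝ (Fin d)) (ψ : ι → ℝ) :
    Pairwise (Function.onFun Disjoint (scell y ψ)) := by
  intro i j hij
  rw [Function.onFun, Set.disjoint_left]
  intro x hi hj
  have h1 := hi j (Ne.symm hij)
  have h2 := hj i hij
  linarith

lemma mx_eq_of_scell {y : ι → EuclideanSpace ℝ (Fin d)} {ψ : ι → ℝ} {i : ι}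
    {x : EuclideanSpace ℝ (Fin d)} (hx : x ∈ scell y ψ i) : mx y ψ x = ⟪y i, x⟫ - ψ i := by
  apply le_antisymm
  · refine mx_le _ _ _ (fun j => ?_)
    by_cases hj : j = i
    · rw [hj]
    · exact (hx j hj).le
  · exact le_mx _ _ _ _

lemma hyperplane_null (v : EuclideanSpace ℝ (Fin d)) (hv : v ≠ 0) (c : ℝ) :
    volume {x : EuclideanSpace ℝ (Fin d) | ⟪v, x⟫ = c} = 0 := by
  set p : EuclideanSpace ℝ (Fin d) := (c / ‖v‖ ^ 2) • v with hp
  have hvn : ‖v‖ ^ 2 ≠ 0 := pow_ne_zero _ (norm_ne_zero_iff.2 hv)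
  have hpv : ⟪v, p⟫ = c := by
    rw [hp, inner_smul_right, real_inner_self_eq_norm_sq]
    exact div_mul_cancel₀ _ hvn
  have h1 : {x : EuclideanSpace ℝ (Fin d) | ⟪v, x⟫ = c} =
      (fun x => x - p) ⁻¹' ((LinearMap.ker (innerₛₗ ℝ v) : Submodule ℝ _) :
        Set (EuclideanSpace ℝ (Fin d))) := by
    ext x
    simp only [Set.mem_ofPred_eq, Set.mem_preimage, SetLike.mem_coe, LinearMap.mem_ker,
      innerₛₗ_apply_apply, inner_sub_right, hpv]
    constructor <;> intro h <;> linarith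
  rw [h1]
  have h2 : volume ((LinearMap.ker (innerₛₗ ℝ v) : Submodule ℝ (EuclideanSpace ℝ (Fin d))) :
      Set (EuclideanSpace ℝ (Fin d))) = 0 := by
    apply Measure.addHaar_submodule
    intro htop
    have : v ∈ LinearMap.ker (innerₛₗ ℝ v) := by rw [htop]; exact Submodule.mem_top
    rw [LinearMap.mem_ker, innerₛₗ_apply_apply, real_inner_self_eq_norm_sq] at this
    exact hvn this
  have h3 : MeasurePreserving (fun x : EuclideanSpace ℝ (Fin d) => x - p) volume volume :=
    measurePreserving_sub_right volume p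
  rw [h3.measure_preimage]
  · exact h2
  · exact (Submodule.closed_of_finiteDimensional _).measurableSet.nullMeasurableSet

lemma ties_null {y : ι → EuclideanSpace ℝ (Fin d)} (hy : Function.Injective y) (ψ : ι → ℝ) :
    volume (⋃ i, scell y ψ i)ᶜ = 0 := by
  have h1 : (⋃ i, scell y ψ i)ᶜ ⊆ ⋃ i, ⋃ j, ⋃ (_ : j ≠ i),
      {x : EuclideanSpace ℝ (Fin d) | ⟪y j - y i, x⟫ = ψ j - ψ i} := by
    intro x hx
    simp only [Set.mem_compl_iff, Set.mem_iUnion, not_exists] at hx
    obtain ⟨i, hi⟩ := exists_mx y ψ x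
    have hxi := hx i
    simp only [scell, Set.mem_ofPred_eq, not_forall, not_lt] at hxi
    obtain ⟨j, hji, hj⟩ := hxi
    simp only [Set.mem_iUnion]
    refine ⟨i, j, hji, ?_⟩
    simp only [Set.mem_ofPred_eq, inner_sub_left]
    have := le_mx y ψ x j
    rw [hi] at this
    linarith
  refine measure_mono_null h1 ?_
  refine measure_iUnion_null fun i => measure_iUnion_null fun j => measure_iUnion_null fun hji => ?_
  exact hyperplane_null _ (sub_ne_zero.2 (fun h => hji (hy h))) _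

/-- finite absolutely continuous measures supported in a ball -/
structure GoodMeas (R : ℝ) (κ : Measure (EuclideanSpace ℝ (Fin d))) : Prop where
  fin : IsFiniteMeasure κ
  supp : κ (Metric.closedBall 0 R)ᶜ = 0
  ac : κ ≪ volume

lemma GoodMeas.ae_ball {R : ℝ} {κ : Measure (EuclideanSpace ℝ (Fin d))} (h : GoodMeas R κ) :
    ∀ᵐ x ∂κ, ‖x‖ ≤ R := by
  have := h.supp
  rw [← mem_ae_iff] at this
  filter_upwards [this] with x hx
  simpa using hx

lemma GoodMeas.integrable {R : ℝ} {κ : Measure (EuclideanSpace ℝ (Fin d))} (h : GoodMeas R κ)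
    {u : EuclideanSpace ℝ (Fin d) → ℝ} (hu : Continuous u) : Integrable u κ := by
  have := h.fin
  obtain ⟨M, hM⟩ := (isCompact_closedBall (0 : EuclideanSpace ℝ (Fin d)) R).exists_bound_of_continuousOn
    hu.continuousOn
  refine Integrable.of_bound hu.aestronglyMeasurable M ?_
  filter_upwards [h.ae_ball] with x hx
  exact hM x (by simpa using hx)

/-- dual functional -/
noncomputable def Psi (κ : Measure (EuclideanSpace ℝ (Fin d))) (y : ι → EuclideanSpace ℝ (Fin d))
    (m ψ : ι → ℝ) : ℝ :=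
  ∫ x, mx y ψ x ∂κ + ∑ i, m i * ψ i

section minimizer

variable {R : ℝ} {κ : Measure (EuclideanSpace ℝ (Fin d))} {y : ι → EuclideanSpace ℝ (Fin d)}
  {m : ι → ℝ}

lemma continuous_Psi (h : GoodMeas R κ) : Continuous (Psi κ y m) := by
  have := h.fin
  unfold Psi
  refine Continuous.add ?_ (by fun_prop)
  have hl : LipschitzWith (κ.real Set.univ).toNNReal (fun ψ : ι → ℝ => ∫ x, mx y ψ x ∂κ) := by
    refine LipschitzWith.of_dist_le_mul (fun ψ ψ' => ?_)
    rw [Real.dist_eq, ← integral_sub (h.integrable continuous_mx) (h.integrable continuous_mx)]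
    have h1 : ∀ x, ‖mx y ψ x - mx y ψ' x‖ ≤ dist ψ ψ' := by
      intro x
      rw [Real.norm_eq_abs]
      refine abs_mx_psi x (fun i => ?_)
      rw [← Real.dist_eq]
      exact dist_le_pi_dist ψ ψ' i
    have h2 := norm_integral_le_of_norm_le_const (μ := κ) (Filter.Eventually.of_forall h1)
    rw [Real.norm_eq_abs] at h2
    rw [Real.coe_toNNReal _ measureReal_nonneg]
    linarith
  exact hl.continuous

lemma Psi_sub_const (h : GoodMeas R κ) (hm : ∑ i, m i = κ.real Set.univ) (ψ : ι → ℝ) (c : ℝ) :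
    Psi κ y m (fun i => ψ i - c) = Psi κ y m ψ := by
  have := h.fin
  unfold Psi
  have h1 : ∫ x, mx y (fun i => ψ i - c) x ∂κ = ∫ x, mx y ψ x ∂κ + c * κ.real Set.univ := by
    simp_rw [mx_sub_const]
    rw [integral_add (h.integrable continuous_mx) (integrable_const _), integral_const,
      smul_eq_mul, mul_comm c]
  have h2 : ∑ i, m i * (ψ i - c) = ∑ i, m i * ψ i - c * κ.real Set.univ := by
    rw [← hm, Finset.mul_sum, ← Finset.sum_sub_distrib]
    refine Finset.sum_congr rfl (fun i _ => by ring)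
  rw [h1, h2]
  ring

/-- existence of optimal dual potentials, with a uniform bound -/
lemma exists_min (h : GoodMeas R κ) (hR : 0 ≤ R) (hy : ∀ i, ‖y i‖ ≤ R) (hm0 : ∀ i, 0 < m i)
    (hm : ∑ i, m i = κ.real Set.univ) {M : ℝ} (hM0 : 0 ≤ M)
    (hM : ∀ i, 2 * R ^ 2 * κ.real Set.univ ≤ m i * M) :
    ∃ ψ : ι → ℝ, (∀ i, 0 ≤ ψ i ∧ ψ i ≤ M) ∧ ∀ ψ', Psi κ y m ψ ≤ Psi κ y m ψ' := by
  have := h.fin
  have hcomp : IsCompact (Set.Icc (0 : ι → ℝ) (fun _ => M)) := isCompact_Icc
  obtain ⟨ψ, hψ, hmin⟩ := hcomp.exists_isMinOn ⟨0, le_refl _, fun _ => hM0⟩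
    (continuous_Psi (y := y) (m := m) h).continuousOn
  refine ⟨ψ, fun i => ⟨hψ.1 i, hψ.2 i⟩, ?_⟩
  intro ψ'
  -- normalize
  obtain ⟨i0, _, hi0⟩ := Finset.exists_mem_eq_inf' (Finset.univ_nonempty (α := ι)) ψ'
  have hi0' : ∀ i, ψ' i0 ≤ ψ' i := fun i => by
    rw [← hi0]; exact Finset.inf'_le _ (Finset.mem_univ i)
  rw [← Psi_sub_const h hm ψ' (ψ' i0)]
  set ψ'' : ι → ℝ := fun i => ψ' i - ψ' i0 with hψ''
  have hpos : ∀ i, 0 ≤ ψ'' i := fun i => by rw [hψ'']; simp only; linarith [hi0' i]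
  have hzero : ψ'' i0 = 0 := by rw [hψ'']; simp
  by_cases hall : ∀ i, ψ'' i ≤ M
  · exact hmin ⟨fun i => hpos i, fun i => hall i⟩
  · push Not at hall
    obtain ⟨j, hj⟩ := hall
    have h1 : Psi κ y m ψ ≤ Psi κ y m 0 := hmin ⟨le_refl _, fun _ => hM0⟩
    have h2 : Psi κ y m 0 ≤ R ^ 2 * κ.real Set.univ := by
      unfold Psi
      simp only [Pi.zero_apply, mul_zero, Finset.sum_const_zero, add_zero]
      calc ∫ x, mx y 0 x ∂κ ≤ ∫ _, R ^ 2 ∂κ := by
            refine integral_mono_ae (h.integrable continuous_mx) (integrable_const _) ?_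
            filter_upwards [h.ae_ball] with x hx
            refine mx_le _ _ _ (fun i => ?_)
            simp only [Pi.zero_apply, sub_zero]
            refine (real_inner_le_norm _ _).trans ?_
            rw [sq]
            exact mul_le_mul (hy i) hx (norm_nonneg _) hR
        _ = R ^ 2 * κ.real Set.univ := by rw [integral_const, smul_eq_mul, mul_comm]
    have h3 : -(R ^ 2) * κ.real Set.univ + m j * M ≤ Psi κ y m ψ'' := by
      unfold Psi
      refine add_le_add ?_ ?_
      · calc -(R ^ 2) * κ.real Set.univ = ∫ _, -(R ^ 2) ∂κ := by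
              rw [integral_const, smul_eq_mul, mul_comm]
          _ ≤ ∫ x, mx y ψ'' x ∂κ := by
            refine integral_mono_ae (integrable_const _) (h.integrable continuous_mx) ?_
            filter_upwards [h.ae_ball] with x hx
            refine le_trans ?_ (le_mx y ψ'' x i0)
            rw [hzero, sub_zero]
            have h4 := abs_le.1 (abs_real_inner_le_norm (y i0) x)
            have h5 : ‖y i0‖ * ‖x‖ ≤ R ^ 2 := by
              rw [sq]; exact mul_le_mul (hy i0) hx (norm_nonneg _) hR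
            linarith [h4.1]
      · calc m j * M ≤ m j * ψ'' j := mul_le_mul_of_nonneg_left hj.le (hm0 j).le
          _ ≤ ∑ i, m i * ψ'' i := Finset.single_le_sum
              (f := fun i => m i * ψ'' i)
              (fun i _ => mul_nonneg (hm0 i).le (hpos i)) (Finset.mem_univ j)
    have := hM j
    linarith

lemma scell_le_mass (h : GoodMeas R κ) {ψ : ι → ℝ}
    (hmin : ∀ ψ', Psi κ y m ψ ≤ Psi κ y m ψ') (i : ι) :
    κ (scell y ψ i) ≤ ENNReal.ofReal (m i) := by
  classical
  have := h.fin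
  set S : ℕ → Set (EuclideanSpace ℝ (Fin d)) := fun n =>
    {x | ∀ j, j ≠ i → ⟪y j, x⟫ - ψ j + 1 / ((n : ℝ) + 1) ≤ ⟪y i, x⟫ - ψ i} with hS
  have hSm : ∀ n, MeasurableSet (S n) := by
    intro n
    have : S n = ⋂ j, ⋂ (_ : j ≠ i),
        {x | ⟪y j, x⟫ - ψ j + 1 / ((n : ℝ) + 1) ≤ ⟪y i, x⟫ - ψ i} := by
      ext x; simp [hS]
    rw [this]
    refine MeasurableSet.iInter fun j => MeasurableSet.iInter fun _ => ?_
    exact measurableSet_le (by fun_prop) (by fun_prop)
  have hSmono : Monotone S := by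
    intro n k hnk x hx j hj
    have h1 := hx j hj
    have h2 : 1 / ((k : ℝ) + 1) ≤ 1 / ((n : ℝ) + 1) := by
      apply one_div_le_one_div_of_le (by positivity)
      have : (n : ℝ) ≤ k := by exact_mod_cast hnk
      linarith
    linarith
  have hSU : scell y ψ i ⊆ ⋃ n, S n := by
    intro x hx
    -- minimal gap
    have h1 : ∃ δ > 0, ∀ j, j ≠ i → ⟪y j, x⟫ - ψ j + δ ≤ ⟪y i, x⟫ - ψ i := by
      by_cases hne : (Finset.univ.erase i).Nonempty
      · obtain ⟨j0, hj0, hj0'⟩ := Finset.exists_max_image (Finset.univ.erase i)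
          (fun j => ⟪y j, x⟫ - ψ j) hne
        refine ⟨(⟪y i, x⟫ - ψ i) - (⟪y j0, x⟫ - ψ j0), ?_, ?_⟩
        · have := hx j0 (Finset.ne_of_mem_erase hj0)
          linarith
        · intro j hj
          have := hj0' j (Finset.mem_erase.2 ⟨hj, Finset.mem_univ _⟩)
          linarith
      · refine ⟨1, one_pos, fun j hj => ?_⟩
        exact absurd ⟨j, Finset.mem_erase.2 ⟨hj, Finset.mem_univ _⟩⟩ hne
    obtain ⟨δ, hδ, hδ'⟩ := h1
    obtain ⟨n, hn⟩ := exists_nat_one_div_lt hδ
    refine Set.mem_iUnion.2 ⟨n, fun j hj => ?_⟩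
    linarith [hδ' j hj]
  refine (measure_mono hSU).trans ?_
  rw [hSmono.measure_iUnion]
  refine iSup_le fun n => ?_
  set t : ℝ := 1 / ((n : ℝ) + 1) with ht
  have ht0 : 0 < t := by positivity
  have h1 := hmin (Function.update ψ i (ψ i + t))
  have h2 : ∀ x, mx y (Function.update ψ i (ψ i + t)) x ≤
      mx y ψ x - (S n).indicator (fun _ => t) x := by
    intro x
    by_cases hx : x ∈ S n
    · rw [Set.indicator_of_mem hx]
      refine mx_le _ _ _ (fun j => ?_)
      by_cases hj : j = i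
      · subst hj
        rw [Function.update_self]
        have := le_mx y ψ x j
        linarith
      · rw [Function.update_of_ne hj]
        have h3 := hx j hj
        have h4 := le_mx y ψ x i
        linarith
    · rw [Set.indicator_of_notMem hx, sub_zero]
      refine mx_le _ _ _ (fun j => ?_)
      by_cases hj : j = i
      · subst hj
        rw [Function.update_self]
        have := le_mx y ψ x j
        linarith
      · rw [Function.update_of_ne hj]
        exact le_mx y ψ x j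
  have hind : Integrable ((S n).indicator (fun _ => t)) κ :=
    (integrable_const t).indicator (hSm n)
  have h3 : ∫ x, mx y (Function.update ψ i (ψ i + t)) x ∂κ ≤
      ∫ x, mx y ψ x ∂κ - t * κ.real (S n) := by
    have h4 := integral_mono (h.integrable continuous_mx)
      ((h.integrable (continuous_mx (y := y) (ψ := ψ))).sub hind) h2
    have h5 : ∫ x, (mx y ψ x - (S n).indicator (fun _ => t) x) ∂κ =
        ∫ x, mx y ψ x ∂κ - t * κ.real (S n) := by
      rw [integral_sub (h.integrable continuous_mx) hind, integral_indicator (hSm n),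
        setIntegral_const, smul_eq_mul, mul_comm]
    exact h4.trans h5.le
  have h6 : ∑ j, m j * (Function.update ψ i (ψ i + t)) j = ∑ j, m j * ψ j + m i * t := by
    have : ∀ j, m j * (Function.update ψ i (ψ i + t)) j =
        m j * ψ j + (if j = i then m i * t else 0) := by
      intro j
      by_cases hj : j = i
      · subst hj
        rw [Function.update_self, if_pos rfl]; ring
      · rw [Function.update_of_ne hj, if_neg hj, add_zero]
    simp_rw [this]
    rw [Finset.sum_add_distrib]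
    simp
  unfold Psi at h1
  rw [h6] at h1
  have h7 : t * κ.real (S n) ≤ t * m i := by linarith
  have h8 : κ.real (S n) ≤ m i := le_of_mul_le_mul_left h7 ht0
  rw [← ofReal_measureReal]
  exact ENNReal.ofReal_le_ofReal h8

/-- cells of a minimizer have the prescribed masses -/
lemma scell_mass (h : GoodMeas R κ) (hinj : Function.Injective y) (hm0 : ∀ i, 0 < m i)
    (hm : ∑ i, m i = κ.real Set.univ) {ψ : ι → ℝ}
    (hmin : ∀ ψ', Psi κ y m ψ ≤ Psi κ y m ψ') (i : ι) :
    κ.real (scell y ψ i) = m i := by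
  have := h.fin
  have h1 : ∀ i, κ.real (scell y ψ i) ≤ m i := by
    intro i
    have := scell_le_mass h hmin i
    rw [← ofReal_measureReal] at this
    exact (ENNReal.ofReal_le_ofReal_iff (hm0 i).le).1 this
  have h2 : ∑ i, κ.real (scell y ψ i) = κ.real Set.univ := by
    rw [← measureReal_iUnion_fintype (scell_disjoint y ψ) (measurableSet_scell y ψ)]
    have h3 : κ (⋃ i, scell y ψ i)ᶜ = 0 := h.ac (ties_null hinj ψ)
    have h4 : κ (⋃ i, scell y ψ i) = κ Set.univ := by
      apply measure_congr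
      rw [ae_eq_univ]
      exact h3
    rw [measureReal_def, h4, ← measureReal_def]
  have h3 : ∑ i, κ.real (scell y ψ i) = ∑ i, m i := h2.trans hm.symm
  exact (Finset.sum_eq_sum_iff_of_le (fun i _ => h1 i)).1 h3 i (Finset.mem_univ i)

end minimizer

end Vale.Agent.P074
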