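import Vale.Agent.P074.CellThm
import Vale.Agent.P074.Semi

/-!
# P074: comparison of the optimal values for two source densities along a path of sites
-/

namespace Vale.Agent.P074

open MeasureTheory
open scoped ENNReal NNReal RealInnerProductSpace

variable {d : ℕ} {ι : Type*} [Fintype ι] [Nonempty ι]

section value

variable {R : ℝ} {κ : Measure (EuclideanSpace ℝ (Fin d))} {y : ι → EuclideanSpace ℝ (Fin d)}
  {m : ι → ℝ}

lemma sum_scell (h : GoodMeas R κ) (hinj : Function.Injective y) (ψ : ι → ℝ)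
    {u : EuclideanSpace ℝ (Fin d) → ℝ} (hu : Integrable u κ) :
    ∑ i, ∫ x in scell y ψ i, u x ∂κ = ∫ x, u x ∂κ := by
  rw [← integral_iUnion_fintype (measurableSet_scell y ψ) (scell_disjoint y ψ)
    (fun i => hu.integrableOn)]
  rw [← setIntegral_univ (μ := κ) (f := u)]
  refine setIntegral_congr_set ?_
  rw [ae_eq_univ]
  exact h.ac (ties_null hinj ψ)

lemma value_diff (h : GoodMeas R κ) (hinj : Function.Injective y) {ψ : ι → ℝ}
    (hmass : ∀ i, κ.real (scell y ψ i) = m i) (z : ι → EuclideanSpace ℝ (Fin d)) (ψ' : ι → ℝ) :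
    Psi κ y m ψ + ∑ i, ∫ x in scell y ψ i, ⟪z i - y i, x⟫ ∂κ ≤ Psi κ z m ψ' := by
  have := h.fin
  have hin : ∀ v : EuclideanSpace ℝ (Fin d), Integrable (fun x => ⟪v, x⟫) κ := fun v =>
    h.integrable (by fun_prop)
  have hmz := h.integrable (continuous_mx (y := z) (ψ := ψ'))
  have hmy := h.integrable (continuous_mx (y := y) (ψ := ψ))
  have e1 : ∫ x, mx y ψ x ∂κ = ∑ i, (∫ x in scell y ψ i, ⟪y i, x⟫ ∂κ - m i * ψ i) := by
    rw [← sum_scell h hinj ψ hmy]
    refine Finset.sum_congr rfl (fun i _ => ?_)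
    have h1 : ∫ x in scell y ψ i, mx y ψ x ∂κ = ∫ x in scell y ψ i, (⟪y i, x⟫ - ψ i) ∂κ :=
      setIntegral_congr_fun (measurableSet_scell y ψ i) (fun x hx => mx_eq_of_scell hx)
    rw [h1, integral_sub (hin _).integrableOn (integrable_const _), setIntegral_const, hmass i,
      smul_eq_mul]
  have e2 : ∑ i, (∫ x in scell y ψ i, ⟪z i, x⟫ ∂κ - m i * ψ' i) ≤ ∫ x, mx z ψ' x ∂κ := by
    rw [← sum_scell h hinj ψ hmz]
    refine Finset.sum_le_sum (fun i _ => ?_)
    have h1 : ∫ x in scell y ψ i, (⟪z i, x⟫ - ψ' i) ∂κ =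
        ∫ x in scell y ψ i, ⟪z i, x⟫ ∂κ - m i * ψ' i := by
      rw [integral_sub (hin _).integrableOn (integrable_const _), setIntegral_const, hmass i,
        smul_eq_mul]
    rw [← h1]
    exact integral_mono ((hin _).integrableOn.sub (integrable_const _)) hmz.integrableOn
      (fun x => le_mx z ψ' x i)
  have e3 : ∑ i, ∫ x in scell y ψ i, ⟪z i - y i, x⟫ ∂κ =
      ∑ i, ∫ x in scell y ψ i, ⟪z i, x⟫ ∂κ - ∑ i, ∫ x in scell y ψ i, ⟪y i, x⟫ ∂κ := by
    rw [← Finset.sum_sub_distrib]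
    refine Finset.sum_congr rfl (fun i _ => ?_)
    simp_rw [inner_sub_left]
    rw [integral_sub (hin _).integrableOn (hin _).integrableOn]
  unfold Psi
  rw [Finset.sum_sub_distrib] at e1 e2
  rw [e3]
  linarith

end value

/-- the perturbed source -/
noncomputable def kf (K : Set (EuclideanSpace ℝ (Fin d))) (f : EuclideanSpace ℝ (Fin d) → ℝ) :
    Measure (EuclideanSpace ℝ (Fin d)) :=
  (volume.restrict K).withDensity (fun x => ENNReal.ofReal (1 + f x))

section kf

variable {K : Set (EuclideanSpace ℝ (Fin d))} {f : EuclideanSpace ℝ (Fin d) → ℝ} {R : ℝ}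

lemma good_restrict (hKR : K ⊆ Metric.closedBall 0 R) :
    GoodMeas R (volume.restrict K) := by
  refine ⟨⟨?_⟩, ?_, Measure.absolutelyContinuous_of_le Measure.restrict_le_self⟩
  · rw [Measure.restrict_apply_univ]
    exact (finite_of_sub hKR le_rfl).lt_top
  · rw [Measure.restrict_apply (Metric.isClosed_closedBall.measurableSet.compl)]
    have : (Metric.closedBall (0 : EuclideanSpace ℝ (Fin d)) R)ᶜ ∩ K = ∅ := by
      ext x
      simp only [Set.mem_inter_iff, Set.mem_compl_iff, Set.mem_empty_iff_false, iff_false, not_and]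
      intro h1 h2
      exact h1 (hKR h2)
    rw [this, measure_empty]

lemma good_kf (hKR : K ⊆ Metric.closedBall 0 R)
    (hf2 : ∀ x, |f x| ≤ 1 / 2) : GoodMeas R (kf K f) := by
  have h0 := good_restrict hKR
  refine ⟨⟨?_⟩, withDensity_absolutelyContinuous _ _ h0.supp,
    (withDensity_absolutelyContinuous _ _).trans h0.ac⟩
  unfold kf
  rw [withDensity_apply _ MeasurableSet.univ, Measure.restrict_univ]
  calc ∫⁻ x in K, ENNReal.ofReal (1 + f x) ≤ ∫⁻ _ in K, ENNReal.ofReal (3 / 2) := by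
        refine lintegral_mono (fun x => ENNReal.ofReal_le_ofReal ?_)
        have := abs_le.1 (hf2 x)
        linarith
    _ = ENNReal.ofReal (3 / 2) * volume K := by rw [setLIntegral_const]
    _ < ∞ := ENNReal.mul_lt_top ENNReal.ofReal_lt_top (finite_of_sub hKR le_rfl).lt_top

lemma setIntegral_kf (hf : Measurable f) (hf2 : ∀ x, |f x| ≤ 1 / 2)
    {s : Set (EuclideanSpace ℝ (Fin d))} (hs : MeasurableSet s)
    (g : EuclideanSpace ℝ (Fin d) → ℝ) :
    ∫ x in s, g x ∂(kf K f) = ∫ x in s ∩ K, g x * (1 + f x) := by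
  unfold kf
  rw [setIntegral_withDensity_eq_setIntegral_toReal_smul (by fun_prop)
    (Filter.Eventually.of_forall (fun x => ENNReal.ofReal_lt_top)) _ hs,
    Measure.restrict_restrict hs]
  refine integral_congr_ae (Filter.Eventually.of_forall (fun x => ?_))
  simp only [smul_eq_mul]
  have := abs_le.1 (hf2 x)
  rw [ENNReal.toReal_ofReal (by linarith), mul_comm]

lemma kf_real (hf : Measurable f) (hf2 : ∀ x, |f x| ≤ 1 / 2)
    {s : Set (EuclideanSpace ℝ (Fin d))} (hs : MeasurableSet s) :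
    (kf K f).real s = ∫ x in s ∩ K, (1 + f x) := by
  have h1 := setIntegral_kf (K := K) hf hf2 hs (fun _ => 1)
  rw [setIntegral_const, smul_eq_mul, mul_one] at h1
  simpa using h1

lemma kf_univ (hK : MeasurableSet K) (hKR : K ⊆ Metric.closedBall 0 R)
    (hf : Measurable f) (hf2 : ∀ x, |f x| ≤ 1 / 2) (hf0 : ∫ x in K, f x = 0) :
    (kf K f).real Set.univ = volume.real K := by
  rw [kf_real hf hf2 MeasurableSet.univ, Set.univ_inter]
  have hfin := finite_of_sub hKR (le_refl K)
  have ic : IntegrableOn (fun _ : EuclideanSpace ℝ (Fin d) => (1 : ℝ)) K :=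
    integrableOn_const (hs := hfin)
  have hi : IntegrableOn f K := integrableOn_bdd hK hfin hf (fun x _ => hf2 x)
  rw [integral_add ic hi, hf0, setIntegral_const]
  simp

lemma restrict_real_univ : (volume.restrict K).real Set.univ = volume.real K := by
  rw [measureReal_def, Measure.restrict_apply_univ, ← measureReal_def]

/-- cell data from two minimizers -/
lemma cellData_of_min (hK : MeasurableSet K) (hKc : Convex ℝ K)
    (hKR : K ⊆ Metric.closedBall 0 R)
    (hf : Measurable f) (hf2 : ∀ x, |f x| ≤ 1 / 2) (hf0 : ∫ x in K, f x = 0)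
    {y : ι → EuclideanSpace ℝ (Fin d)} (hinj : Function.Injective y) {m : ι → ℝ}
    (hm0 : ∀ i, 0 < m i) (hm : ∑ i, m i = volume.real K) {ψ0 ψ1 : ι → ℝ}
    (h0 : ∀ ψ', Psi (volume.restrict K) y m ψ0 ≤ Psi (volume.restrict K) y m ψ')
    (h1 : ∀ ψ', Psi (kf K f) y m ψ1 ≤ Psi (kf K f) y m ψ') :
    CellData K f m (fun i => scell y ψ0 i ∩ K) (fun i => scell y ψ1 i ∩ K)
      (fun i => scell y (fun j => (ψ0 j + ψ1 j) / 2) i ∩ K) := by
  have g0 := good_restrict hKR
  have g1 := good_kf hKR hf2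
  have full : ∀ ψ : ι → ℝ, volume (K \ ⋃ i, scell y ψ i ∩ K) = 0 := by
    intro ψ
    refine measure_mono_null ?_ (ties_null hinj ψ)
    intro x hx
    simp only [Set.mem_sdiff, Set.mem_iUnion, Set.mem_inter_iff, not_exists, not_and] at hx
    simp only [Set.mem_compl_iff, Set.mem_iUnion, not_exists]
    exact fun i hi => hx.2 i hi hx.1
  have dis : ∀ ψ : ι → ℝ, Pairwise (Function.onFun Disjoint (fun i => scell y ψ i ∩ K)) := by
    intro ψ i j hij
    exact (scell_disjoint y ψ hij).mono Set.inter_subset_left Set.inter_subset_left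
  refine ⟨fun i => (measurableSet_scell _ _ _).inter hK, fun i => (measurableSet_scell _ _ _).inter hK,
    fun i => (measurableSet_scell _ _ _).inter hK, fun i => Set.inter_subset_right,
    fun i => Set.inter_subset_right, fun i => Set.inter_subset_right, dis ψ0, dis ψ1, dis _,
    full ψ0, full ψ1, ?_, ?_, ?_, hm0⟩
  · rintro i x ⟨hx, hxK⟩ y' ⟨hy', hyK⟩
    refine ⟨?_, ?_⟩
    · intro j hj
      have e1 := hx j hj
      have e2 := hy' j hj
      simp only [inner_smul_right, inner_add_right]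
      linarith
    · have := hKc hxK hyK (by norm_num : (0 : ℝ) ≤ 1 / 2) (by norm_num : (0 : ℝ) ≤ 1 / 2)
        (by norm_num)
      rw [smul_add]
      exact this
  · intro i
    have := scell_mass g0 hinj hm0 (hm.trans restrict_real_univ.symm) h0 i
    rw [← this, measureReal_def, measureReal_def, Measure.restrict_apply (measurableSet_scell _ _ _)]
  · intro i
    have := scell_mass g1 hinj hm0 (hm.trans (kf_univ hK hKR hf hf2 hf0).symm) h1 i
    rw [← this, kf_real hf hf2 (measurableSet_scell _ _ _)]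

/-- comparison of slopes -/
lemma slope_bound (hK : MeasurableSet K) (hKc : Convex ℝ K)
    (hKR : K ⊆ Metric.closedBall 0 R) (hR : 0 < R)
    (hf : Measurable f) (hf2 : ∀ x, |f x| ≤ 1 / 2) (hf0 : ∫ x in K, f x = 0)
    {y : ι → EuclideanSpace ℝ (Fin d)} (hinj : Function.Injective y) {m : ι → ℝ}
    (hm0 : ∀ i, 0 < m i) (hm : ∑ i, m i = volume.real K) {ψ0 ψ1 : ι → ℝ}
    (h0 : ∀ ψ', Psi (volume.restrict K) y m ψ0 ≤ Psi (volume.restrict K) y m ψ')
    (h1 : ∀ ψ', Psi (kf K f) y m ψ1 ≤ Psi (kf K f) y m ψ')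
    (v : ι → EuclideanSpace ℝ (Fin d)) :
    |∑ i, ∫ x in scell y ψ0 i, ⟪v i, x⟫ ∂(volume.restrict K) -
      ∑ i, ∫ x in scell y ψ1 i, ⟪v i, x⟫ ∂(kf K f)| ≤
      640 * R * √(∑ i, m i * ‖v i‖ ^ 2) * √(∫ x in K, f x ^ 2) := by
  have h := (cellData_of_min hK hKc hKR hf hf2 hf0 hinj hm0 hm h0 h1).main hK hKR hR hf hf2 v
  rw [Finset.sum_sub_distrib] at h
  have e0 : ∀ i, ∫ x in scell y ψ0 i, ⟪v i, x⟫ ∂(volume.restrict K) =
      ∫ x in scell y ψ0 i ∩ K, ⟪v i, x⟫ := by
    intro i
    rw [Measure.restrict_restrict (measurableSet_scell _ _ _)]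
  have e1 : ∀ i, ∫ x in scell y ψ1 i, ⟪v i, x⟫ ∂(kf K f) =
      ∫ x in scell y ψ1 i ∩ K, ⟪v i, x⟫ * (1 + f x) := fun i =>
    setIntegral_kf hf hf2 (measurableSet_scell _ _ _) _
  simp_rw [e0, e1]
  exact h

end kf

/-- telescoping along a uniform partition -/
lemma path_abs {a b s t : ℕ → ℝ} {n : ℕ} (hn : 0 < n) {M S : ℝ}
    (ha : ∀ k < n, a k + s k / n ≤ a (k + 1)) (hb : ∀ k < n, b (k + 1) ≤ b k + t (k + 1) / n)
    (hst : ∀ k < n, |s k - t k| ≤ M) (h0 : |t 0| ≤ S) (h1 : |t n| ≤ S) :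
    -M - 2 * S / n ≤ (a n - a 0) - (b n - b 0) := by
  have hn' : (0 : ℝ) < n := by exact_mod_cast hn
  have e1 : ∀ k ≤ n, a 0 + (∑ j ∈ Finset.range k, s j) / n ≤ a k := by
    intro k
    induction k with
    | zero => intro _; simp
    | succ k ih =>
      intro hk
      have := ih (by omega)
      have h2 := ha k (by omega)
      rw [Finset.sum_range_succ, add_div]
      linarith
  have e2 : ∀ k ≤ n, b k ≤ b 0 + (∑ j ∈ Finset.range k, t (j + 1)) / n := by
    intro k
    induction k with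
    | zero => intro _; simp
    | succ k ih =>
      intro hk
      have := ih (by omega)
      have h2 := hb k (by omega)
      rw [Finset.sum_range_succ, add_div]
      linarith
  have e3 := e1 n le_rfl
  have e4 := e2 n le_rfl
  have e5 : ∑ j ∈ Finset.range n, t (j + 1) = ∑ j ∈ Finset.range n, t j + t n - t 0 := by
    have := Finset.sum_range_succ' t n
    have h2 := Finset.sum_range_succ t n
    linarith
  have e6 : ∑ j ∈ Finset.range n, t j - n * M ≤ ∑ j ∈ Finset.range n, s j := by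
    have : ∑ j ∈ Finset.range n, (t j - M) ≤ ∑ j ∈ Finset.range n, s j := by
      refine Finset.sum_le_sum (fun j hj => ?_)
      have := abs_le.1 (hst j (Finset.mem_range.1 hj))
      linarith [this.1]
    rw [Finset.sum_sub_distrib, Finset.sum_const, Finset.card_range, nsmul_eq_mul] at this
    exact this
  rw [e5] at e4
  have e7 : (∑ j ∈ Finset.range n, t j + t n - t 0) / n ≤
      (∑ j ∈ Finset.range n, s j) / n + M + 2 * S / n := by
    have e8 : (∑ j ∈ Finset.range n, s j) / n + M + 2 * S / n =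
        (∑ j ∈ Finset.range n, s j + n * M + 2 * S) / n := by
      field_simp
    rw [e8]
    gcongr
    have := abs_le.1 h0
    have := abs_le.1 h1
    linarith
  linarith

/-- good partition sizes avoiding a finite set -/
lemma exists_good_n {S : Set ℝ} (hS : S.Finite) (N : ℕ) :
    ∃ n ≥ N, 0 < n ∧ ∀ k, 0 < k → k < n → ((k : ℝ) / n) ∉ S := by
  by_contra hcon
  push Not at hcon
  have h1 : ∀ p : ℕ, ∃ k : ℕ, (N ≤ p → p.Prime → 0 < k ∧ k < p ∧ ((k : ℝ) / p) ∈ S) := by
    intro p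
    by_cases hp : N ≤ p ∧ p.Prime
    · obtain ⟨k, hk⟩ := hcon p hp.1 hp.2.pos
      exact ⟨k, fun _ _ => hk⟩
    · exact ⟨0, fun h1 h2 => absurd ⟨h1, h2⟩ hp⟩
  choose k hk using h1
  have hinf : {p : ℕ | N ≤ p ∧ p.Prime}.Infinite := by
    rw [Set.infinite_iff_exists_gt]
    intro a
    obtain ⟨p, hp1, hp2⟩ := Nat.exists_infinite_primes (max N (a + 1))
    exact ⟨p, ⟨(le_max_left _ _).trans hp1, hp2⟩, lt_of_lt_of_le (Nat.lt_succ_self a)
      ((le_max_right _ _).trans hp1)⟩
  obtain ⟨p, hp, q, hq, hpq, heq⟩ := hinf.exists_ne_map_eq_of_mapsTo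
    (f := fun p : ℕ => (k p : ℝ) / p) (fun p hp => (hk p hp.1 hp.2).2.2) hS
  have hkp := hk p hp.1 hp.2
  have hkq := hk q hq.1 hq.2
  have hp0 : (0 : ℝ) < p := by exact_mod_cast hp.2.pos
  have hq0 : (0 : ℝ) < q := by exact_mod_cast hq.2.pos
  rw [div_eq_div_iff hp0.ne' hq0.ne'] at heq
  have heq' : k p * q = k q * p := by exact_mod_cast heq
  have hdvd : p ∣ k p * q := ⟨k q, by rw [heq']; ring⟩
  rcases (Nat.Prime.dvd_mul hp.2).1 hdvd with h | h
  · have := Nat.le_of_dvd hkp.1 h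
    omega
  · exact hpq ((Nat.prime_dvd_prime_iff_eq hp.2 hq.2).1 h)

omit [Nonempty ι] in
lemma exceptional_finite {y z : ι → EuclideanSpace ℝ (Fin d)} (hy : Function.Injective y) :
    {τ : ℝ | ¬ Function.Injective (fun i => y i + τ • (z i - y i))}.Finite := by
  have h1 : {τ : ℝ | ¬ Function.Injective (fun i => y i + τ • (z i - y i))} ⊆
      ⋃ i, ⋃ j, {τ : ℝ | i ≠ j ∧ y i + τ • (z i - y i) = y j + τ • (z j - y j)} := by
    intro τ hτ
    simp only [Function.Injective, Set.mem_ofPred_eq, not_forall] at hτ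
    obtain ⟨i, j, h, hij⟩ := hτ
    simp only [Set.mem_iUnion]
    exact ⟨i, j, hij, h⟩
  refine Set.Finite.subset ?_ h1
  refine Set.finite_iUnion (fun i => Set.finite_iUnion (fun j => ?_))
  refine Set.Subsingleton.finite ?_
  rintro τ ⟨hij, h1⟩ σ ⟨_, h2⟩
  by_contra hne
  have h3 : (τ - σ) • ((z i - y i) - (z j - y j)) = 0 := by
    have e1 : τ • ((z i - y i) - (z j - y j)) = y j - y i := by
      rw [smul_sub, sub_eq_sub_iff_add_eq_add, add_comm]
      exact h1
    have e2 : σ • ((z i - y i) - (z j - y j)) = y j - y i := by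
      rw [smul_sub, sub_eq_sub_iff_add_eq_add, add_comm]
      exact h2
    rw [sub_smul, e1, e2, sub_self]
  rcases smul_eq_zero.1 h3 with h | h
  · exact hne (sub_eq_zero.1 h)
  · have h4 : τ • (z i - y i) = τ • (z j - y j) := by rw [sub_eq_zero.1 h]
    rw [h4] at h1
    exact hij (hy (add_right_cancel h1))

end Vale.Agent.P074
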