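import Vale.Agent.P074.Mixed

/-!
# P074: Lipschitz stability of potentials in `L²`
-/

namespace Vale.Agent.P074

open MeasureTheory
open scoped ENNReal NNReal RealInnerProductSpace

variable {d : ℕ} {ι : Type*} [Fintype ι] [Nonempty ι]
  {K : Set (EuclideanSpace ℝ (Fin d))} {f : EuclideanSpace ℝ (Fin d) → ℝ} {R : ℝ}
  {y z : ι → EuclideanSpace ℝ (Fin d)} {m : ι → ℝ}

lemma integrableOn_mul_bdd (hK : MeasurableSet K) (hKR : K ⊆ Metric.closedBall 0 R)
    (hf : Measurable f) {B : ℝ} (hfB : ∀ x, |f x| ≤ B) {u : EuclideanSpace ℝ (Fin d) → ℝ}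
    (hu : Continuous u) : IntegrableOn (fun x => u x * f x) K := by
  obtain ⟨M, hM⟩ := (isCompact_closedBall (0 : EuclideanSpace ℝ (Fin d)) R).exists_bound_of_continuousOn
    hu.continuousOn
  refine integrableOn_bdd hK (finite_of_sub hKR le_rfl) (hu.measurable.mul hf) (q := M * B)
    (fun x hx => ?_)
  rw [abs_mul]
  have h1 := hM x (hKR hx)
  rw [Real.norm_eq_abs] at h1
  exact mul_le_mul h1 (hfB x) (abs_nonneg _) ((abs_nonneg _).trans h1)

lemma Psi_kf (hK : MeasurableSet K) (hKR : K ⊆ Metric.closedBall 0 R)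
    (hf : Measurable f) (hf2 : ∀ x, |f x| ≤ 1 / 2) (ψ : ι → ℝ) :
    Psi (kf K f) y m ψ = Psi (volume.restrict K) y m ψ + ∫ x in K, mx y ψ x * f x := by
  unfold Psi
  have h1 := setIntegral_kf (K := K) hf hf2 MeasurableSet.univ (mx y ψ)
  rw [Set.univ_inter, Measure.restrict_univ] at h1
  rw [h1]
  have h2 : ∀ x, mx y ψ x * (1 + f x) = mx y ψ x + mx y ψ x * f x := fun x => by ring
  simp_rw [h2]
  rw [integral_add ((good_restrict hKR).integrable continuous_mx)
    (integrableOn_mul_bdd hK hKR hf hf2 continuous_mx)]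
  ring

/-- the midpoint of two potentials -/
lemma mx_mid_le (ψ ψ' : ι → ℝ) (x : EuclideanSpace ℝ (Fin d)) :
    mx z (fun i => (ψ i + ψ' i) / 2) x ≤ (mx z ψ x + mx z ψ' x) / 2 := by
  refine mx_le _ _ _ (fun i => ?_)
  have h1 := le_mx z ψ x i
  have h2 := le_mx z ψ' x i
  linarith

/-- Uniqueness of the optimal potential up to a constant on the interior of `K`. -/
lemma pot_unique (hKc : Convex ℝ K)
    (hKR : K ⊆ Metric.closedBall 0 R) {ψ ψ' : ι → ℝ}
    (h : IsMinP (volume.restrict K) z m ψ) (h' : IsMinP (volume.restrict K) z m ψ') :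
    ∃ c : ℝ, ∀ x ∈ interior K, mx z ψ x = mx z ψ' x + c := by
  have g0 := good_restrict hKR
  have := g0.fin
  set ψ'' : ι → ℝ := fun i => (ψ i + ψ' i) / 2 with hψ''
  set H : EuclideanSpace ℝ (Fin d) → ℝ := fun x => (mx z ψ x + mx z ψ' x) / 2 - mx z ψ'' x with hH
  have cH : Continuous H := by
    have c1 := continuous_mx (y := z) (ψ := ψ)
    have c2 := continuous_mx (y := z) (ψ := ψ')
    have c3 := continuous_mx (y := z) (ψ := ψ'')
    fun_prop
  have hH0 : ∀ x, 0 ≤ H x := fun x => sub_nonneg.2 (mx_mid_le ψ ψ' x)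
  have hint : ∫ x in K, H x ≤ 0 := by
    have i1 := g0.integrable (continuous_mx (y := z) (ψ := ψ))
    have i2 := g0.integrable (continuous_mx (y := z) (ψ := ψ'))
    have i3 := g0.integrable (continuous_mx (y := z) (ψ := ψ''))
    have i12 : Integrable (fun x => (mx z ψ x + mx z ψ' x) / 2) (volume.restrict K) :=
      (i1.add i2).div_const 2
    have e1 : ∫ x in K, H x = ((∫ x in K, mx z ψ x) + ∫ x in K, mx z ψ' x) / 2 -
        ∫ x in K, mx z ψ'' x := by
      rw [hH]
      simp only
      rw [integral_sub i12 i3, integral_div, integral_add i1 i2]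
    have e2 : ∑ i, m i * ψ'' i = (∑ i, m i * ψ i + ∑ i, m i * ψ' i) / 2 := by
      rw [← Finset.sum_add_distrib, Finset.sum_div]
      refine Finset.sum_congr rfl (fun i _ => ?_)
      rw [hψ'']; ring
    have h1 := h ψ''
    have h2 := h.eq h'
    unfold Psi at h1 h2
    rw [e1]
    linarith
  have hae : ∀ᵐ x ∂(volume.restrict K), H x = 0 := by
    have h1 : ∫ x in K, H x = 0 := le_antisymm hint (integral_nonneg hH0)
    have h2 := (integral_eq_zero_iff_of_nonneg hH0 (g0.integrable cH)).1 h1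
    exact h2
  have hU : Set.EqOn H 0 (interior K) := by
    refine Measure.eqOn_open_of_ae_eq (μ := volume) ?_ isOpen_interior cH.continuousOn
      continuousOn_const
    exact ae_restrict_of_ae_restrict_of_subset interior_subset hae
  have hval : ∀ x ∈ interior K, ∃ i, mx z ψ x - mx z ψ' x = ψ' i - ψ i := by
    intro x hx
    obtain ⟨i, hi⟩ := exists_mx z ψ'' x
    refine ⟨i, ?_⟩
    have h1 : H x = 0 := hU hx
    have h2 := le_mx z ψ x i
    have h3 := le_mx z ψ' x i
    rw [hH] at h1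
    simp only at h1
    rw [hi, hψ''] at h1
    simp only at h1
    linarith
  by_cases hne : (interior K).Nonempty
  · obtain ⟨x0, hx0⟩ := hne
    refine ⟨mx z ψ x0 - mx z ψ' x0, fun x hx => ?_⟩
    have hpre : IsPreconnected (interior K) := hKc.interior.isPreconnected
    set T : Set ℝ := Set.range (fun i => ψ' i - ψ i) with hT
    have hTf : T.Finite := Set.finite_range _
    have : IsDiscrete T := isDiscrete_iff_discreteTopology.2 hTf.instDiscreteTopology
    have c1 := continuous_mx (y := z) (ψ := ψ)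
    have c2 := continuous_mx (y := z) (ψ := ψ')
    have := hpre.constant_of_mapsTo (T := T) this (f := fun x => mx z ψ x - mx z ψ' x)
      (by fun_prop) (fun x hx => by
        obtain ⟨i, hi⟩ := hval x hx
        exact ⟨i, hi.symm⟩) hx hx0
    linarith
  · refine ⟨0, fun x hx => absurd ⟨x, hx⟩ hne⟩

lemma ae_interior (hKc : Convex ℝ K) : ∀ᵐ x ∂(volume.restrict K), x ∈ interior K := by
  have h1 : volume (frontier K) = 0 := hKc.addHaar_frontier volume
  have h2 : ∀ᵐ x ∂(volume.restrict K), x ∉ frontier K := by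
    refine ae_restrict_of_ae ?_
    rw [ae_iff]
    simpa using h1
  have h3 : ∀ᵐ x ∂(volume.restrict K), x ∈ closure K := by
    have : ∀ᵐ x ∂(volume.restrict (closure K)), x ∈ closure K :=
      ae_restrict_mem isClosed_closure.measurableSet
    exact ae_restrict_of_ae_restrict_of_subset subset_closure this
  filter_upwards [h2, h3] with x hx1 hx2
  by_contra hx3
  exact hx1 ⟨hx2, hx3⟩

lemma continuous_J (hK : MeasurableSet K) (hKR : K ⊆ Metric.closedBall 0 R)
    (hf : Measurable f) {B : ℝ} (hfB : ∀ x, |f x| ≤ B) :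
    Continuous (fun ψ : ι → ℝ => ∫ x in K, mx z ψ x * f x) := by
  have g0 := good_restrict hKR
  have := g0.fin
  have hB0 : 0 ≤ B := (abs_nonneg _).trans (hfB 0)
  have hl : LipschitzWith (B * volume.real K).toNNReal
      (fun ψ : ι → ℝ => ∫ x in K, mx z ψ x * f x) := by
    refine LipschitzWith.of_dist_le_mul (fun ψ ψ' => ?_)
    rw [Real.dist_eq, ← integral_sub (integrableOn_mul_bdd hK hKR hf hfB continuous_mx)
      (integrableOn_mul_bdd hK hKR hf hfB continuous_mx)]
    have h1 : ∀ x, ‖mx z ψ x * f x - mx z ψ' x * f x‖ ≤ dist ψ ψ' * B := by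
      intro x
      rw [← sub_mul, norm_mul, Real.norm_eq_abs, Real.norm_eq_abs]
      refine mul_le_mul ?_ (hfB x) (abs_nonneg _) dist_nonneg
      refine abs_mx_psi x (fun i => ?_)
      rw [← Real.dist_eq]
      exact dist_le_pi_dist ψ ψ' i
    have h2 := norm_integral_le_of_norm_le_const (μ := volume.restrict K)
      (Filter.Eventually.of_forall h1)
    rw [Real.norm_eq_abs, restrict_real_univ] at h2
    rw [Real.coe_toNNReal _ (by positivity)]
    linarith
  exact hl.continuous

/-- linear form of the potential estimate -/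
lemma pot_linear (hK : MeasurableSet K) (hKc : Convex ℝ K)
    (hKR : K ⊆ Metric.closedBall 0 R) (hR : 0 < R)
    (hf : Measurable f) {B : ℝ} (hfB : ∀ x, |f x| ≤ B) (hf0 : ∫ x in K, f x = 0)
    (hy : ∀ i, ‖y i‖ ≤ R) (hz : ∀ i, ‖z i‖ ≤ R)
    (hyi : Function.Injective y) (hzi : Function.Injective z)
    (hm0 : ∀ i, 0 < m i) (hm : ∑ i, m i = volume.real K) {ψy ψz : ι → ℝ}
    (h0y : IsMinP (volume.restrict K) y m ψy) (h0z : IsMinP (volume.restrict K) z m ψz) :
    (∫ x in K, mx z ψz x * f x) - (∫ x in K, mx y ψy x * f x) ≤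
      640 * R * √(∑ i, m i * ‖z i - y i‖ ^ 2) * √(∫ x in K, f x ^ 2) := by
  have hB0 : 0 ≤ B := (abs_nonneg _).trans (hfB 0)
  set W := √(∑ i, m i * ‖z i - y i‖ ^ 2) with hW
  set N := √(∫ x in K, f x ^ 2) with hN
  set δ : ℕ → ℝ := fun n => 1 / (2 * (B + 1) * ((n : ℝ) + 1)) with hδ
  have hδ0 : ∀ n, 0 < δ n := fun n => by rw [hδ]; positivity
  have hδB : ∀ n x, |δ n * f x| ≤ 1 / 2 := by
    intro n x
    rw [abs_mul, abs_of_pos (hδ0 n), hδ]
    simp only
    rw [one_div_mul_eq_div, div_le_iff₀ (by positivity)]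
    have h1 := hfB x
    have h2 : (0 : ℝ) ≤ n := by positivity
    nlinarith
  have hδf : ∀ n, Measurable (fun x => δ n * f x) := fun n => hf.const_mul _
  have hδ00 : ∀ n, ∫ x in K, δ n * f x = 0 := fun n => by rw [integral_const_mul, hf0, mul_zero]
  have hδlim : Filter.Tendsto δ Filter.atTop (nhds 0) := by
    have h1 : Filter.Tendsto (fun n : ℕ => 1 / (2 * (B + 1)) * (1 / ((n : ℝ) + 1))) Filter.atTop
        (nhds (1 / (2 * (B + 1)) * 0)) :=
      tendsto_one_div_add_atTop_nhds_zero_nat.const_mul _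
    rw [mul_zero] at h1
    refine h1.congr (fun n => ?_)
    rw [hδ]
    simp only
    rw [div_mul_div_comm, one_mul]
  -- minimal mass
  obtain ⟨i0, _, hi0⟩ := Finset.exists_min_image Finset.univ m Finset.univ_nonempty
  set M := 2 * R ^ 2 * volume.real K / m i0 with hM
  have hm00 := hm0 i0
  have hM0 : 0 ≤ M := by have := measureReal_nonneg (μ := volume) (s := K); positivity
  have hMi : ∀ i, 2 * R ^ 2 * volume.real K ≤ m i * M := by
    intro i
    have h1 := hi0 i (Finset.mem_univ i)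
    calc 2 * R ^ 2 * volume.real K = m i0 * M := by rw [hM]; field_simp
      _ ≤ m i * M := by gcongr
  have hex : ∀ n, ∃ ψ : ι → ℝ, (∀ i, 0 ≤ ψ i ∧ ψ i ≤ M) ∧
      IsMinP (kf K (fun x => δ n * f x)) z m ψ := by
    intro n
    have hu := kf_univ hK hKR (hδf n) (hδB n) (hδ00 n)
    exact exists_min (good_kf hKR (hδB n)) hR.le hz hm0 (hm.trans hu.symm) hM0 (by
      rw [hu]; exact hMi)
  choose ψn hψn hψmin using hex
  set J : (ι → ℝ) → ℝ := fun ψ => ∫ x in K, mx z ψ x * f x with hJ
  have cJ : Continuous J := continuous_J hK hKR hf hfB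
  have cP : Continuous (Psi (volume.restrict K) z m) := continuous_Psi (good_restrict hKR)
  -- estimate for each n
  have key : ∀ n, J (ψn n) - (∫ x in K, mx y ψy x * f x) ≤ 640 * R * W * N := by
    intro n
    have hu := kf_univ hK hKR (hδf n) (hδB n) (hδ00 n)
    obtain ⟨ψ1, hψ1⟩ := exists_minP (good_kf hKR (hδB n)) hR.le hy hm0 (hm.trans hu.symm)
    have h1 := mixed_diff hK hKc hKR hR (hδf n) (hδB n) (hδ00 n) hy hz hyi hzi hm0 hm h0y h0z hψ1
      (hψmin n)
    have h2 := hψ1 ψy
    have h3 := h0z (ψn n)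
    rw [Psi_kf hK hKR (hδf n) (hδB n) ψy] at h2
    rw [Psi_kf hK hKR (hδf n) (hδB n) (ψn n)] at h1
    have e1 : ∀ ψ : ι → ℝ, ∀ w : ι → EuclideanSpace ℝ (Fin d),
        ∫ x in K, mx w ψ x * (δ n * f x) = δ n * ∫ x in K, mx w ψ x * f x := by
      intro ψ w
      rw [← integral_const_mul]
      refine integral_congr_ae (Filter.Eventually.of_forall (fun x => ?_))
      simp only
      ring
    have e2 : √(∫ x in K, (δ n * f x) ^ 2) = δ n * N := by
      have : ∀ x, (δ n * f x) ^ 2 = δ n ^ 2 * f x ^ 2 := fun x => by ring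
      simp_rw [this]
      rw [integral_const_mul, Real.sqrt_mul (sq_nonneg _), Real.sqrt_sq (hδ0 n).le]
    rw [e1] at h1 h2
    rw [e2] at h1
    have h4 : δ n * (J (ψn n) - ∫ x in K, mx y ψy x * f x) ≤ δ n * (640 * R * W * N) := by
      have : J (ψn n) = ∫ x in K, mx z (ψn n) x * f x := rfl
      rw [this]
      linarith
    exact le_of_mul_le_mul_left h4 (hδ0 n)
  -- compactness
  have hcomp : IsCompact (Set.Icc (0 : ι → ℝ) (fun _ => M)) := isCompact_Icc
  obtain ⟨ψs, _, φ, hφ, hlim⟩ := hcomp.tendsto_subseq (x := ψn)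
    (fun n => ⟨fun i => (hψn n i).1, fun i => (hψn n i).2⟩)
  have hδφ : Filter.Tendsto (fun n => δ (φ n)) Filter.atTop (nhds 0) :=
    hδlim.comp hφ.tendsto_atTop
  have hJlim : Filter.Tendsto (fun n => J (ψn (φ n))) Filter.atTop (nhds (J ψs)) :=
    (cJ.tendsto ψs).comp hlim
  have hPlim : Filter.Tendsto (fun n => Psi (volume.restrict K) z m (ψn (φ n))) Filter.atTop
      (nhds (Psi (volume.restrict K) z m ψs)) := (cP.tendsto ψs).comp hlim
  have hmin : IsMinP (volume.restrict K) z m ψs := by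
    intro ψ'
    have h1 : ∀ n, Psi (volume.restrict K) z m (ψn (φ n)) + δ (φ n) * J (ψn (φ n)) ≤
        Psi (volume.restrict K) z m ψ' + δ (φ n) * J ψ' := by
      intro n
      have h2 := hψmin (φ n) ψ'
      rw [Psi_kf hK hKR (hδf _) (hδB _), Psi_kf hK hKR (hδf _) (hδB _)] at h2
      have e1 : ∀ ψ : ι → ℝ, ∫ x in K, mx z ψ x * (δ (φ n) * f x) = δ (φ n) * J ψ := by
        intro ψ
        rw [hJ]
        simp only
        rw [← integral_const_mul]
        refine integral_congr_ae (Filter.Eventually.of_forall (fun x => ?_))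
        simp only
        ring
      rw [e1, e1] at h2
      exact h2
    have l1 : Filter.Tendsto (fun n => Psi (volume.restrict K) z m (ψn (φ n)) +
        δ (φ n) * J (ψn (φ n))) Filter.atTop (nhds (Psi (volume.restrict K) z m ψs + 0 * J ψs)) :=
      hPlim.add (hδφ.mul hJlim)
    have l2 : Filter.Tendsto (fun n => Psi (volume.restrict K) z m ψ' + δ (φ n) * J ψ')
        Filter.atTop (nhds (Psi (volume.restrict K) z m ψ' + 0 * J ψ')) :=
      tendsto_const_nhds.add (hδφ.mul_const _)
    rw [zero_mul, add_zero] at l1 l2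
    exact le_of_tendsto_of_tendsto' l1 l2 h1
  obtain ⟨c, hc⟩ := pot_unique hKc hKR hmin h0z
  have hJs : J ψs = ∫ x in K, mx z ψz x * f x := by
    have h1 : J ψs = ∫ x in K, (mx z ψz x * f x + c * f x) := by
      rw [hJ]
      simp only
      refine integral_congr_ae ?_
      filter_upwards [ae_interior hKc] with x hx
      rw [hc x hx]
      ring
    rw [h1, integral_add (integrableOn_mul_bdd hK hKR hf hfB continuous_mx), integral_const_mul,
      hf0, mul_zero, add_zero]
    exact (integrableOn_bdd hK (finite_of_sub hKR le_rfl) hf (fun x _ => hfB x)).const_mul c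
  have hfin : J ψs - (∫ x in K, mx y ψy x * f x) ≤ 640 * R * W * N :=
    le_of_tendsto (hJlim.sub_const _) (Filter.Eventually.of_forall (fun n => key (φ n)))
  rw [hJs] at hfin
  exact hfin

/-- **Lipschitz stability of the potentials in `L²`**. -/
theorem pot_L2 (hK : MeasurableSet K) (hKc : Convex ℝ K)
    (hKR : K ⊆ Metric.closedBall 0 R) (hR : 0 < R) (hvol : 0 < volume.real K)
    (hy : ∀ i, ‖y i‖ ≤ R) (hz : ∀ i, ‖z i‖ ≤ R)
    (hyi : Function.Injective y) (hzi : Function.Injective z)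
    (hm0 : ∀ i, 0 < m i) (hm : ∑ i, m i = volume.real K) {ψy ψz : ι → ℝ}
    (h0y : IsMinP (volume.restrict K) y m ψy) (h0z : IsMinP (volume.restrict K) z m ψz) :
    ∃ c : ℝ, ∫ x in K, (mx z ψz x - mx y ψy x - c) ^ 2 ≤
      (640 * R) ^ 2 * ∑ i, m i * ‖z i - y i‖ ^ 2 := by
  have g0 := good_restrict hKR
  have := g0.fin
  have cy := continuous_mx (y := y) (ψ := ψy)
  have cz := continuous_mx (y := z) (ψ := ψz)
  set u : EuclideanSpace ℝ (Fin d) → ℝ := fun x => mx z ψz x - mx y ψy x with hu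
  have cu : Continuous u := by fun_prop
  set c : ℝ := (∫ x in K, u x) / volume.real K with hc
  refine ⟨c, ?_⟩
  set f : EuclideanSpace ℝ (Fin d) → ℝ := K.indicator (fun x => u x - c) with hf
  have hfm : Measurable f := (by fun_prop : Continuous (fun x => u x - c)).measurable.indicator hK
  obtain ⟨M, hM⟩ := (isCompact_closedBall (0 : EuclideanSpace ℝ (Fin d)) R).exists_bound_of_continuousOn
    (by fun_prop : Continuous (fun x => u x - c)).continuousOn
  have hM0 : 0 ≤ M := (norm_nonneg _).trans (hM 0 (by simp [hR.le]))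
  have hfB : ∀ x, |f x| ≤ M := by
    intro x
    by_cases hx : x ∈ K
    · rw [hf, Set.indicator_of_mem hx]; exact hM x (hKR hx)
    · rw [hf, Set.indicator_of_notMem hx]; simpa using hM0
  have hfK : ∀ x ∈ K, f x = u x - c := fun x hx => by rw [hf, Set.indicator_of_mem hx]
  have iu : IntegrableOn u K := g0.integrable cu
  have hf0 : ∫ x in K, f x = 0 := by
    rw [setIntegral_congr_fun hK hfK, integral_sub iu (integrable_const _), setIntegral_const, hc]
    simp only [smul_eq_mul]
    field_simp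
    simp
  have h1 := pot_linear hK hKc hKR hR hfm hfB hf0 hy hz hyi hzi hm0 hm h0y h0z
  have h2 : (∫ x in K, mx z ψz x * f x) - (∫ x in K, mx y ψy x * f x) = ∫ x in K, f x ^ 2 := by
    rw [← integral_sub (integrableOn_mul_bdd hK hKR hfm hfB cz)
      (integrableOn_mul_bdd hK hKR hfm hfB cy)]
    have h3 : ∫ x in K, (mx z ψz x * f x - mx y ψy x * f x) = ∫ x in K, (f x ^ 2 + c * f x) := by
      refine setIntegral_congr_fun hK (fun x hx => ?_)
      have : f x = mx z ψz x - mx y ψy x - c := hfK x hx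
      change mx z ψz x * f x - mx y ψy x * f x = f x ^ 2 + c * f x
      rw [this]
      ring
    rw [h3, integral_add _ _, integral_const_mul, hf0, mul_zero, add_zero]
    · refine integrableOn_bdd hK (finite_of_sub hKR le_rfl) (by fun_prop) (q := M ^ 2) (fun x _ => ?_)
      rw [abs_pow]
      exact pow_le_pow_left₀ (abs_nonneg _) (hfB x) 2
    · exact (integrableOn_bdd hK (finite_of_sub hKR le_rfl) hfm (fun x _ => hfB x)).const_mul c
  rw [h2] at h1
  set N := ∫ x in K, f x ^ 2 with hN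
  have hN0 : 0 ≤ N := integral_nonneg (fun x => sq_nonneg _)
  have h4 : ∫ x in K, (mx z ψz x - mx y ψy x - c) ^ 2 = N := by
    rw [hN]
    refine setIntegral_congr_fun hK (fun x hx => ?_)
    rw [hfK x hx]
  rw [h4]
  set W2 := ∑ i, m i * ‖z i - y i‖ ^ 2 with hW2
  have hW20 : 0 ≤ W2 := Finset.sum_nonneg (fun i _ => by have := hm0 i; positivity)
  have h5 : √N ≤ 640 * R * √W2 := by
    by_cases hN1 : √N = 0
    · rw [hN1]; positivity
    · have hpos : 0 < √N := lt_of_le_of_ne (Real.sqrt_nonneg _) (Ne.symm hN1)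
      have h6 : √N * √N ≤ (640 * R * √W2) * √N := by
        rw [Real.mul_self_sqrt hN0]
        exact h1
      exact le_of_mul_le_mul_right h6 hpos
  calc N = √N ^ 2 := (Real.sq_sqrt hN0).symm
    _ ≤ (640 * R * √W2) ^ 2 := by gcongr
    _ = (640 * R) ^ 2 * W2 := by rw [mul_pow, Real.sq_sqrt hW20]

end Vale.Agent.P074
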